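import Crest.Agent.R155.Defs

/-!
# Row 155: basic lemmas on switches, layers and the Markov matrices
-/

set_option autoImplicit false

namespace Crest.Agent.R155

open Finset Matrix
open scoped BigOperators

/-- realise the equation lemmas of the definitions once, in this module -/
theorem realize_eqns : True := by
  have := @zer.eq_def
  have := @zer.eq_1
  have := @swf.eq_def
  have := @swf.eq_1
  have := @sw.eq_def
  have := @sw.eq_1
  have := @flp.eq_def
  have := @flp.eq_1
  have := @lay.eq_def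
  have := @lay.eq_1
  have := @bwin.eq_def
  have := @bwin.eq_1
  have := @bwin.eq_2
  have := @ninv.eq_def
  have := @ninv.eq_1
  have := @sameHi.eq_def
  have := @sameHi.eq_1
  have := @pm.eq_def
  have := @pm.eq_1
  have := @Pm.eq_def
  have := @Pm.eq_1
  have := @Pn.eq_def
  have := @Pn.eq_1
  have := @Kmat.eq_def
  have := @Kmat.eq_1
  have := @Kmat.eq_2
  have := @Bmat.eq_def
  have := @Bmat.eq_1
  have := @Cmat.eq_def
  have := @Cmat.eq_1
  have := @Ci.eq_def
  have := @Ci.eq_1
  have := @Wm.eq_def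
  have := @Wm.eq_1
  have := @That.eq_def
  have := @That.eq_1
  have := @hseq.eq_def
  have := @hseq.eq_1
  have := @hseq.eq_2
  have := @path.eq_def
  have := @path.eq_1
  have := @expl.eq_def
  have := @expl.eq_1
  have := @before.eq_def
  have := @before.eq_1
  have := @kraftW.eq_def
  have := @kraftW.eq_1
  have := @dbl.eq_def
  have := @dbl.eq_1
  have := @Lam.eq_def
  have := @Lam.eq_1
  have := @eta.eq_def
  have := @eta.eq_1
  have := @DepOn.eq_def
  have := @DepOn.eq_1
  have := @Orth.eq_def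
  have := @Orth.eq_1
  have := @Wit.eq_def
  have := @Wit.eq_1
  have := @wbound.eq_def
  have := @wbound.eq_1
  have := @LinkStmt.eq_def
  have := @LinkStmt.eq_1
  have := @DysonStmt.eq_def
  have := @DysonStmt.eq_1
  have := @HSStmt.eq_def
  have := @HSStmt.eq_1
  have := @SuperStmt.eq_def
  have := @SuperStmt.eq_1
  have := @PWStmt.eq_def
  have := @PWStmt.eq_1
  have := @PropP.eq_def
  have := @PropP.eq_1
  have := @KraftStmt.eq_def
  have := @KraftStmt.eq_1
  have := @LemmaK.eq_def
  have := @LemmaK.eq_1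
  have := @RussoStmt.eq_def
  have := @RussoStmt.eq_1
  have := @RhoStmt.eq_def
  have := @RhoStmt.eq_1
  have := @BlockStmt.eq_def
  have := @BlockStmt.eq_1
  have := @PropT1.eq_def
  have := @PropT1.eq_1
  have := @PropT2.eq_def
  have := @PropT2.eq_1
  have := @LevelStmt.eq_def
  have := @LevelStmt.eq_1
  have := @RepStmt.eq_def
  have := @RepStmt.eq_1
  have := @GramStmt.eq_def
  have := @GramStmt.eq_1
  have := @NumStmt.eq_def
  have := @NumStmt.eq_1
  have := @VarpiStmt.eq_def
  have := @VarpiStmt.eq_1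
  trivial

section basic
variable {D : ℕ}

theorem card_Pos (D : ℕ) : Fintype.card (Pos D) = 2 ^ D := by simp

theorem sw_apply (t : Fin D) (c : Pos D → Bool) (x : Pos D) :
    sw t c x = Function.update x t (xor (x t) (c (zer t x))) := rfl

theorem sw_apply_self (t : Fin D) (c : Pos D → Bool) (x : Pos D) :
    sw t c x t = xor (x t) (c (zer t x)) := by simp [sw_apply]

theorem sw_apply_ne (t : Fin D) (c : Pos D → Bool) (x : Pos D) {s : Fin D} (h : s ≠ t) :
    sw t c x s = x s := by simp [sw_apply, h]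

theorem zer_apply_self (t : Fin D) (x : Pos D) : zer t x t = false := by simp [zer]

theorem zer_apply_ne (t : Fin D) (x : Pos D) {s : Fin D} (h : s ≠ t) : zer t x s = x s := by
  simp [zer, h]

theorem zer_zer (t : Fin D) (x : Pos D) : zer t (zer t x) = zer t x := by simp [zer]

theorem zer_sw (t : Fin D) (c : Pos D → Bool) (x : Pos D) : zer t (sw t c x) = zer t x :=
  zer_swf t c x

theorem zer_eq_iff (t : Fin D) (x y : Pos D) : zer t x = zer t y ↔ ∀ s, s ≠ t → x s = y s := by
  constructor
  · intro h s hs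
    rw [← zer_apply_ne t x hs, h, zer_apply_ne t y hs]
  · intro h
    funext s
    by_cases hs : s = t
    · subst hs; simp [zer]
    · rw [zer_apply_ne t x hs, zer_apply_ne t y hs, h s hs]

theorem sw_sw (t : Fin D) (c : Pos D → Bool) (x : Pos D) : sw t c (sw t c x) = x :=
  swf_invol t c x

theorem sw_mul_self (t : Fin D) (c : Pos D → Bool) : sw t c * sw t c = 1 := by
  ext1 x; exact sw_sw t c x

theorem sw_inv (t : Fin D) (c : Pos D → Bool) : (sw t c)⁻¹ = sw t c :=
  inv_eq_of_mul_eq_one_right (sw_mul_self t c)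

theorem sw_mul_sw (t : Fin D) (c c' : Pos D → Bool) :
    sw t c * sw t c' = sw t (fun p => xor (c p) (c' p)) := by
  ext1 x
  rw [Equiv.Perm.mul_apply]
  funext s
  by_cases hs : s = t
  · subst hs
    rw [sw_apply_self, sw_apply_self, sw_apply_self, zer_sw]
    cases x s <;> cases c (zer s x) <;> cases c' (zer s x) <;> rfl
  · rw [sw_apply_ne _ _ _ hs, sw_apply_ne _ _ _ hs, sw_apply_ne _ _ _ hs]

theorem sw_comm (t : Fin D) (c c' : Pos D → Bool) : sw t c * sw t c' = sw t c' * sw t c := by
  rw [sw_mul_sw, sw_mul_sw]; simp_rw [Bool.xor_comm]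

theorem sw_congr (t : Fin D) {c c' : Pos D → Bool} {x : Pos D} (h : c (zer t x) = c' (zer t x)) :
    sw t c x = sw t c' x := by rw [sw_apply, sw_apply, h]

theorem sw_false (t : Fin D) : sw t (fun _ => false) = 1 := by
  ext1 x; simp [sw_apply]

theorem flp_apply (t : Fin D) (x : Pos D) : flp t x = Function.update x t (!(x t)) := by
  simp [flp, sw_apply]

theorem flp_apply_self (t : Fin D) (x : Pos D) : flp t x t = !(x t) := by simp [flp_apply]

theorem flp_apply_ne (t : Fin D) (x : Pos D) {s : Fin D} (h : s ≠ t) : flp t x s = x s := by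
  simp [flp_apply, h]

theorem flp_flp (t : Fin D) (x : Pos D) : flp t (flp t x) = x := sw_sw t _ x

theorem flp_mul_self (t : Fin D) : flp t * flp t = (1 : Grp D) := sw_mul_self t _

theorem flp_ne (t : Fin D) (x : Pos D) : flp t x ≠ x := by
  intro h
  have := congrFun h t
  rw [flp_apply_self] at this
  cases hx : x t <;> simp [hx] at this

theorem zer_flp (t : Fin D) (x : Pos D) : zer t (flp t x) = zer t x := zer_sw t _ x

theorem sw_eq_or (t : Fin D) (c : Pos D → Bool) (x : Pos D) :
    sw t c x = if c (zer t x) then flp t x else x := by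
  rw [sw_apply, flp_apply]
  cases c (zer t x) <;> simp

theorem eq_or_flp_of_zer_eq {t : Fin D} {x y : Pos D} (h : zer t x = zer t y) :
    x = y ∨ x = flp t y := by
  rw [zer_eq_iff] at h
  by_cases ht : x t = y t
  · left; funext s
    by_cases hs : s = t
    · subst hs; exact ht
    · exact h s hs
  · right; funext s
    by_cases hs : s = t
    · subst hs; rw [flp_apply_self]; revert ht; cases x s <;> cases y s <;> simp
    · rw [flp_apply_ne _ _ hs]; exact h s hs

/-- the swap of a switch is a layer with a single active switch -/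
theorem swap_flp_eq_sw (t : Fin D) (u : Pos D) :
    Equiv.swap u (flp t u) = sw t (fun p => decide (p = zer t u)) := by
  ext1 x
  rw [sw_eq_or]
  by_cases h : zer t x = zer t u
  · simp only [h, decide_true, if_true]
    rcases eq_or_flp_of_zer_eq h with rfl | rfl
    · simp
    · simp [flp_flp]
  · simp only [h, decide_false, Bool.false_eq_true, if_false]
    apply Equiv.swap_apply_of_ne_of_ne
    · rintro rfl; exact h rfl
    · rintro rfl; exact h (zer_flp t u)

theorem lay_of_lt (ω : Om D) (t : Fin D) : lay ω t.val = sw t (fun p => ω (t, p)) := by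
  simp [lay, t.isLt]

theorem lay_of_ge (ω : Om D) {i : ℕ} (h : D ≤ i) : lay ω i = 1 := by
  simp [lay, not_lt.mpr h]

theorem lay_mul_self (ω : Om D) (i : ℕ) : lay ω i * lay ω i = 1 := by
  unfold lay; split_ifs
  · exact sw_mul_self _ _
  · simp

theorem lay_inv (ω : Om D) (i : ℕ) : (lay ω i)⁻¹ = lay ω i :=
  inv_eq_of_mul_eq_one_right (lay_mul_self ω i)

theorem lay_apply_ne (ω : Om D) (i : ℕ) (x : Pos D) {s : Fin D} (h : s.val ≠ i) :
    lay ω i x s = x s := by
  unfold lay; split_ifs with hi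
  · exact sw_apply_ne _ _ _ (fun e => h (by rw [e]))
  · rfl

@[simp] theorem bwin_zero (ω : Om D) (a : ℕ) : bwin ω a 0 = 1 := rfl

theorem bwin_succ (ω : Om D) (a s : ℕ) : bwin ω a (s + 1) = lay ω (a + s) * bwin ω a s := rfl

theorem bwin_add (ω : Om D) (a s r : ℕ) :
    bwin ω a (s + r) = bwin ω (a + s) r * bwin ω a s := by
  induction r with
  | zero => simp
  | succ r ih => rw [← add_assoc, bwin_succ, ih, bwin_succ, add_assoc, mul_assoc]

/-- bits outside the window are not changed -/
theorem bwin_apply_of_not_mem (ω : Om D) (a s : ℕ) (x : Pos D) {t : Fin D}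
    (h : t.val < a ∨ a + s ≤ t.val) : bwin ω a s x t = x t := by
  induction s with
  | zero => rfl
  | succ s ih =>
    rw [bwin_succ, Equiv.Perm.mul_apply, lay_apply_ne _ _ _ (by omega), ih (by omega)]

theorem bwin_inv_apply_of_not_mem (ω : Om D) (a s : ℕ) (x : Pos D) {t : Fin D}
    (h : t.val < a ∨ a + s ≤ t.val) : (bwin ω a s)⁻¹ x t = x t := by
  have := bwin_apply_of_not_mem ω a s ((bwin ω a s)⁻¹ x) h
  simpa using this.symm

/-- the window depends only on the layers in it -/
theorem bwin_congr {ω ω' : Om D} (a s : ℕ)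
    (h : ∀ k : Fin D × Pos D, a ≤ k.1.val → k.1.val < a + s → ω k = ω' k) :
    bwin ω a s = bwin ω' a s := by
  induction s with
  | zero => rfl
  | succ s ih =>
    rw [bwin_succ, bwin_succ, ih (fun k h1 h2 => h k h1 (by omega))]
    congr 1
    unfold lay; split_ifs with hi
    · congr 1; funext p; exact h _ (by simp) (by simp)
    · rfl

theorem tup_smul_apply {j : ℕ} (g : Grp D) (x : Tup j D) (a : Fin j) : (g • x) a = g (x a) := rfl

theorem one_le_ninv (π : Grp D) (T : Finset (Pos D)) : 1 ≤ ninv π T := by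
  unfold ninv
  apply Finset.card_pos.mpr
  exact ⟨∅, by simp⟩

theorem ninv_le_two_pow (π : Grp D) (T : Finset (Pos D)) : ninv π T ≤ 2 ^ T.card := by
  unfold ninv
  calc _ ≤ T.powerset.card := Finset.card_filter_le _ _
    _ = _ := Finset.card_powerset T

/-- `ninv` depends only on the values on `T` -/
theorem ninv_congr {π π' : Grp D} {T : Finset (Pos D)} (h : ∀ u ∈ T, π u = π' u) :
    ninv π T = ninv π' T := by
  unfold ninv
  congr 1
  apply Finset.filter_congr
  intro S hS
  rw [Finset.mem_powerset] at hS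
  constructor
  · intro H u hu; rw [← h u (hS hu)]; exact H u hu
  · intro H u hu; rw [h u (hS hu)]; exact H u hu

end basic

section mix
variable {K A : Type} [Fintype K] [DecidableEq K] [Fintype A]

/-- take `ω` on `P` and `ω'` elsewhere -/
def mix (P : Finset K) (ω ω' : K → A) : K → A := fun k => if k ∈ P then ω k else ω' k

theorem realize_mix : True := by
  have := @mix.eq_def
  have := @mix.eq_1
  trivial

omit [Fintype K] [Fintype A] in
theorem mix_of_mem {P : Finset K} {ω ω' : K → A} {k : K} (h : k ∈ P) : mix P ω ω' k = ω k := by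
  simp [mix, h]

omit [Fintype K] [Fintype A] in
theorem mix_of_not_mem {P : Finset K} {ω ω' : K → A} {k : K} (h : k ∉ P) :
    mix P ω ω' k = ω' k := by simp [mix, h]

/-- resampling outside a stopping set does not change the law -/
theorem expect_mix_stop [Nonempty A] (P : (K → A) → Finset K)
    (hP : ∀ ω ω', (∀ k ∈ P ω, ω' k = ω k) → P ω' = P ω) (F : (K → A) → ℝ) :
    (𝔼 ω, 𝔼 ω', F (mix (P ω) ω ω')) = 𝔼 ω, F ω := by
  have h1 : ∀ ω ω' : K → A, P (mix (P ω) ω ω') = P ω := fun ω ω' =>
    hP ω _ (fun k hk => mix_of_mem hk)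
  let ι : (K → A) × (K → A) → (K → A) × (K → A) :=
    fun p => (mix (P p.1) p.1 p.2, mix (P p.1) p.2 p.1)
  have hι : Function.Involutive ι := by
    rintro ⟨ω, ω'⟩
    simp only [ι, h1]
    ext k <;> by_cases hk : k ∈ P ω <;> simp [mix, hk]
  have e1 : (𝔼 ω, 𝔼 ω', F (mix (P ω) ω ω')) = 𝔼 p : (K → A) × (K → A), F (ι p).1 := by
    rw [← Finset.expect_product', Finset.univ_product_univ]
  have e2 : (𝔼 p : (K → A) × (K → A), F (ι p).1) = 𝔼 p : (K → A) × (K → A), F p.1 :=
    Fintype.expect_equiv (hι.toPerm ι) _ _ (fun _ => rfl)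
  rw [e1, e2, ← Finset.univ_product_univ, Finset.expect_product]
  simp

/-- resampling outside a fixed set does not change the law -/
theorem expect_mix [Nonempty A] (P : Finset K) (F : (K → A) → ℝ) :
    (𝔼 ω, 𝔼 ω', F (mix P ω ω')) = 𝔼 ω, F ω :=
  expect_mix_stop (fun _ => P) (fun _ _ _ => rfl) F

end mix

section matrices
variable (D : ℕ) (X : Type) [Fintype X] [DecidableEq X] [MulAction (Grp D) X]

omit [Fintype X] in
theorem pm_apply (g : Grp D) (x y : X) : pm D X g x y = if g • x = y then 1 else 0 := rfl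

theorem pm_mulVec (g : Grp D) (F : X → ℝ) : pm D X g *ᵥ F = fun x => F (g • x) := by
  funext x; simp [mulVec, dotProduct, pm_apply]

omit [Fintype X] in
theorem pm_one : pm D X 1 = 1 := by
  ext x y; simp [pm_apply, Matrix.one_apply]

theorem pm_mul (g h : Grp D) : pm D X g * pm D X h = pm D X (h * g) := by
  ext x y
  have := congrFun (pm_mulVec D X g (fun z => pm D X h z y)) x
  rw [pm_apply, mul_smul]
  exact this

omit [Fintype X] in
theorem pm_transpose (g : Grp D) : (pm D X g)ᵀ = pm D X g⁻¹ := by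
  ext x y
  simp only [transpose_apply, pm_apply, inv_smul_eq_iff]
  simp only [eq_comm]

omit [Fintype X] in
theorem pm_nonneg (g : Grp D) (x y : X) : 0 ≤ pm D X g x y := by
  rw [pm_apply]; split_ifs <;> norm_num

omit [Fintype X] in
theorem Pm_apply (t : Fin D) (x y : X) :
    Pm D X t x y = 𝔼 c : Pos D → Bool, pm D X (sw t c) x y := rfl

omit [Fintype X] in
theorem Pm_eq_smul_sum (t : Fin D) :
    Pm D X t = ((Fintype.card (Pos D → Bool) : ℝ)⁻¹) • ∑ c : Pos D → Bool, pm D X (sw t c) := by
  ext x y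
  rw [Pm_apply, Finset.expect_eq_sum_div_card, Matrix.smul_apply, Matrix.sum_apply, smul_eq_mul,
    Finset.card_univ, div_eq_inv_mul]

theorem Pm_mulVec (t : Fin D) (F : X → ℝ) :
    Pm D X t *ᵥ F = fun x => 𝔼 c : Pos D → Bool, F (sw t c • x) := by
  funext x
  rw [Pm_eq_smul_sum, Matrix.smul_mulVec, Matrix.sum_mulVec, Finset.expect_eq_sum_div_card]
  simp [pm_mulVec, div_eq_inv_mul]

theorem Pm_mul_apply (t : Fin D) {Y : Type} (M : Matrix X Y ℝ) (x : X) (y : Y) :
    (Pm D X t * M) x y = 𝔼 c : Pos D → Bool, M (sw t c • x) y :=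
  congrFun (Pm_mulVec D X t (fun z => M z y)) x

omit [Fintype X] in
theorem Pm_transpose (t : Fin D) : (Pm D X t)ᵀ = Pm D X t := by
  rw [Pm_eq_smul_sum, transpose_smul, transpose_sum]
  simp_rw [pm_transpose, sw_inv]

theorem mul_Pm_apply (t : Fin D) {Y : Type} (M : Matrix Y X ℝ) (y : Y) (x : X) :
    (M * Pm D X t) y x = 𝔼 c : Pos D → Bool, M y (sw t c • x) := by
  have := Pm_mul_apply D X t Mᵀ x y
  rw [← Pm_transpose, ← transpose_mul] at this
  simpa using this

theorem pm_sw_mul_Pm (t : Fin D) (c : Pos D → Bool) :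
    pm D X (sw t c) * Pm D X t = Pm D X t := by
  rw [Pm_eq_smul_sum, Matrix.mul_smul, Finset.mul_sum]
  congr 1
  simp_rw [pm_mul, sw_mul_sw]
  have hi : Function.Involutive (fun c' : Pos D → Bool => fun p => xor (c' p) (c p)) := by
    intro c'; funext p; simp
  exact Fintype.sum_equiv (hi.toPerm _) _ _ (fun _ => rfl)

theorem Pm_mul_pm_sw (t : Fin D) (c : Pos D → Bool) :
    Pm D X t * pm D X (sw t c) = Pm D X t := by
  have := congrArg transpose (pm_sw_mul_Pm D X t c)
  rwa [transpose_mul, Pm_transpose, pm_transpose, sw_inv] at this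

theorem Pm_mul_self (t : Fin D) : Pm D X t * Pm D X t = Pm D X t := by
  nth_rewrite 1 [Pm_eq_smul_sum]
  rw [Matrix.smul_mul, Finset.sum_mul]
  simp_rw [pm_sw_mul_Pm]
  rw [Finset.sum_const, Finset.card_univ, ← Nat.cast_smul_eq_nsmul ℝ, smul_smul, inv_mul_cancel₀,
    one_smul]
  exact_mod_cast Fintype.card_ne_zero

omit [Fintype X] in
theorem Pm_nonneg (t : Fin D) (x y : X) : 0 ≤ Pm D X t x y :=
  Finset.expect_nonneg fun _ _ => pm_nonneg D X _ x y

omit [Fintype X] in
theorem Pn_of_lt (t : Fin D) : Pn D X t.val = Pm D X t := by simp [Pn, t.isLt]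

omit [Fintype X] in
theorem Pn_of_ge {i : ℕ} (h : D ≤ i) : Pn D X i = 1 := by simp [Pn, not_lt.mpr h]

omit [Fintype X] in
theorem Pn_transpose (i : ℕ) : (Pn D X i)ᵀ = Pn D X i := by
  unfold Pn; split_ifs
  · exact Pm_transpose D X _
  · simp

omit [Fintype X] in
theorem Pn_nonneg (i : ℕ) (x y : X) : 0 ≤ Pn D X i x y := by
  unfold Pn; split_ifs
  · exact Pm_nonneg D X _ x y
  · rw [Matrix.one_apply]; split_ifs <;> norm_num

theorem Kmat_zero : Kmat D X 0 = 1 := rfl

theorem Kmat_succ (i : ℕ) : Kmat D X (i + 1) = Kmat D X i * Pn D X i := rfl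

theorem Kmat_nonneg (i : ℕ) (x y : X) : 0 ≤ Kmat D X i x y := by
  induction i generalizing x y with
  | zero => rw [Kmat_zero, Matrix.one_apply]; split_ifs <;> norm_num
  | succ i ih =>
    rw [Kmat_succ, Matrix.mul_apply]
    exact Finset.sum_nonneg fun z _ => mul_nonneg (ih x z) (Pn_nonneg D X i z y)

theorem Bmat_zero : Bmat D X 0 = 1 := by simp [Bmat, Kmat_zero]

theorem Bmat_succ (i : ℕ) : Bmat D X (i + 1) = Pn D X i * Bmat D X i * Pn D X i := by
  simp only [Bmat, Kmat_succ, transpose_mul, Pn_transpose, Matrix.mul_assoc]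

theorem Bmat_transpose (i : ℕ) : (Bmat D X i)ᵀ = Bmat D X i := by
  simp [Bmat, transpose_mul]

theorem Bmat_isSymm (i : ℕ) : (Bmat D X i).IsSymm := Bmat_transpose D X i

theorem Bmat_nonneg (i : ℕ) (x y : X) : 0 ≤ Bmat D X i x y := by
  rw [Bmat, Matrix.mul_apply]
  exact Finset.sum_nonneg fun z _ => mul_nonneg (Kmat_nonneg D X i z x) (Kmat_nonneg D X i z y)

theorem Bmat_posSemidef (i : ℕ) : (Bmat D X i).PosSemidef := by
  have := Matrix.posSemidef_conjTranspose_mul_self (Kmat D X i)
  simpa [Bmat] using this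

omit [Fintype X] in
theorem Ci_top : Ci D X D = Cmat D X := by
  unfold Ci Cmat
  refine Finset.sum_congr rfl fun x _ => Finset.sum_congr rfl fun y _ => ?_
  rw [if_pos]
  intro t ht; exact absurd t.isLt (by omega)

theorem Cmat_mulVec (F : X → ℝ) (z : X) :
    (Cmat D X *ᵥ F) z = ∑ x : Pos D, ∑ y : Pos D, (F z - F (Equiv.swap x y • z)) := by
  simp only [Cmat, Matrix.sum_mulVec, Matrix.sub_mulVec, pm_mulVec, Matrix.one_mulVec,
    Finset.sum_apply, Pi.sub_apply]

/-- anything intertwining two actions intertwines the `Pn`, `Kmat`, `Bmat` -/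
theorem Bmat_intertwine (Y : Type) [Fintype Y] [DecidableEq Y] [MulAction (Grp D) Y]
    (R : Matrix X Y ℝ) (h : ∀ g, pm D X g * R = R * pm D Y g) (i : ℕ) :
    Bmat D X i * R = R * Bmat D Y i := by
  have hP : ∀ i, Pn D X i * R = R * Pn D Y i := by
    intro i
    unfold Pn; split_ifs
    · rw [Pm_eq_smul_sum, Pm_eq_smul_sum, Matrix.smul_mul, Matrix.mul_smul, Matrix.sum_mul,
        Matrix.mul_sum]
      simp_rw [h]
    · simp
  induction i with
  | zero => simp [Bmat_zero]
  | succ i ih =>
    rw [Bmat_succ, Bmat_succ, Matrix.mul_assoc, hP, Matrix.mul_assoc, ← Matrix.mul_assoc _ R, ih,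
      ← Matrix.mul_assoc, ← Matrix.mul_assoc, hP]
    simp only [Matrix.mul_assoc]

theorem Cmat_intertwine (Y : Type) [Fintype Y] [DecidableEq Y] [MulAction (Grp D) Y]
    (R : Matrix X Y ℝ) (h : ∀ g, pm D X g * R = R * pm D Y g) :
    Cmat D X * R = R * Cmat D Y := by
  simp only [Cmat, Matrix.sum_mul, Matrix.mul_sum, Matrix.sub_mul, Matrix.mul_sub, h,
    Matrix.one_mul, Matrix.mul_one]

/-- the Laplacian is central -/
theorem pm_mul_Cmat (g : Grp D) : pm D X g * Cmat D X = Cmat D X * pm D X g := by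
  simp only [Cmat, Matrix.sum_mul, Matrix.mul_sum, Matrix.sub_mul, Matrix.mul_sub, pm_mul,
    Matrix.one_mul, Matrix.mul_one]
  refine Fintype.sum_equiv g⁻¹ _ _ fun x => Fintype.sum_equiv g⁻¹ _ _ fun y => ?_
  congr 2
  rw [Equiv.mul_swap_eq_swap_mul]
  simp

theorem Bmat_mul_Cmat (i : ℕ) : Bmat D X i * Cmat D X = Cmat D X * Bmat D X i :=
  Bmat_intertwine D X X _ (pm_mul_Cmat D X) i

omit [Fintype X] in
theorem Cmat_transpose : (Cmat D X)ᵀ = Cmat D X := by
  simp [Cmat, transpose_sum, pm_transpose]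

end matrices

end Crest.Agent.R155
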