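import Crest.Agent.R155.Basic

/-!
# Row 155, part D3: the product over the levels (window Hölder inequality)
-/

set_option autoImplicit false

namespace Crest.Agent.R155

open Finset Matrix
open scoped BigOperators

namespace Block

variable {D j : ℕ}

/-- the switches in layers `< l` -/
def lo (D l : ℕ) : Finset (Fin D × Pos D) := univ.filter fun k => k.1.val < l

theorem mem_lo {l : ℕ} {k : Fin D × Pos D} : k ∈ lo D l ↔ k.1.val < l := by simp [lo]

/-- conditional expectation given the layers `< l` -/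
noncomputable def cond (l : ℕ) (Y : Om D → ℝ) (ω : Om D) : ℝ :=
  𝔼 ω' : Om D, Y (mix (lo D l) ω ω')

theorem cond_pos {l : ℕ} {Y : Om D → ℝ} (hY : ∀ ω, 0 < Y ω) (ω : Om D) : 0 < cond l Y ω :=
  expect_pos (fun _ _ => hY _) univ_nonempty

theorem cond_tower {l l' : ℕ} (h : l ≤ l') (Y : Om D → ℝ) (ω : Om D) :
    (𝔼 ω' : Om D, cond l' Y (mix (lo D l) ω ω')) = cond l Y ω := by
  unfold cond
  rw [← expect_mix (lo D l') (fun ω' => Y (mix (lo D l) ω ω'))]
  refine expect_congr rfl fun ω' _ => expect_congr rfl fun ω'' _ => ?_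
  congr 1
  funext k
  simp only [mix, mem_lo]
  split_ifs <;> first | rfl | omega

theorem cond_of_dep {i l : ℕ} (h : i ≤ l) {Y : Om D → ℝ}
    (hdep : ∀ ω ω' : Om D, (∀ k : Fin D × Pos D, k.1.val < i → ω k = ω' k) → Y ω = Y ω')
    (ω : Om D) : cond l Y ω = Y ω := by
  unfold cond
  rw [← Fintype.expect_const (ι := Om D) (Y ω)]
  refine expect_congr rfl fun ω' _ => hdep _ _ fun k hk => mix_of_mem (mem_lo.mpr (by omega))

theorem expect_prod_rpow_le {ι Ω : Type} [Fintype Ω] [Nonempty Ω] (J : Finset ι)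
    (X : ι → Ω → ℝ) (w c : ι → ℝ) (hX : ∀ i ∈ J, ∀ ω, 0 ≤ X i ω) (hw : ∀ i ∈ J, 0 ≤ w i)
    (hs : ∑ i ∈ J, w i ≤ 1) (hc : ∀ i ∈ J, 0 < c i) (hE : ∀ i ∈ J, (𝔼 ω, X i ω) ≤ c i) :
    (𝔼 ω, ∏ i ∈ J, X i ω ^ w i) ≤ ∏ i ∈ J, c i ^ w i := by
  have hP : 0 < ∏ i ∈ J, c i ^ w i := prod_pos fun i hi => Real.rpow_pos_of_pos (hc i hi) _
  have key : ∀ ω, ∏ i ∈ J, X i ω ^ w i ≤
      (∏ i ∈ J, c i ^ w i) * ((1 - ∑ i ∈ J, w i) + ∑ i ∈ J, w i * (X i ω / c i)) := by
    intro ω
    have h := Real.geom_mean_le_arith_mean_weighted (insertNone J)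
      (fun o => o.elim (1 - ∑ i ∈ J, w i) w) (fun o => o.elim 1 (fun i => X i ω / c i))
      (by
        intro o ho
        cases o with
        | none => simpa using hs
        | some i => exact hw i (by simpa using ho))
      (by rw [sum_insertNone]; simp)
      (by
        intro o ho
        cases o with
        | none => simp
        | some i =>
          have hi : i ∈ J := by simpa using ho
          exact div_nonneg (hX i hi ω) (hc i hi).le)
    rw [prod_insertNone, sum_insertNone] at h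
    simp only [Option.elim, Real.one_rpow, one_mul, mul_one] at h
    have e : ∏ i ∈ J, X i ω ^ w i = (∏ i ∈ J, c i ^ w i) * ∏ i ∈ J, (X i ω / c i) ^ w i := by
      rw [← prod_mul_distrib]
      refine prod_congr rfl fun i hi => ?_
      rw [Real.div_rpow (hX i hi ω) (hc i hi).le, mul_div_cancel₀]
      exact (Real.rpow_pos_of_pos (hc i hi) _).ne'
    rw [e]
    exact mul_le_mul_of_nonneg_left h hP.le
  calc (𝔼 ω, ∏ i ∈ J, X i ω ^ w i) ≤ _ := expect_le_expect fun ω _ => key ω
    _ = (∏ i ∈ J, c i ^ w i) * ((1 - ∑ i ∈ J, w i) + ∑ i ∈ J, w i * ((𝔼 ω, X i ω) / c i)) := by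
        rw [← mul_expect, expect_add_distrib, Fintype.expect_const, expect_sum_comm]
        simp_rw [← mul_expect, ← expect_div]
    _ ≤ (∏ i ∈ J, c i ^ w i) * ((1 - ∑ i ∈ J, w i) + ∑ i ∈ J, w i) := by
        apply mul_le_mul_of_nonneg_left _ hP.le
        apply add_le_add le_rfl
        refine sum_le_sum fun i hi => ?_
        exact mul_le_of_le_one_right (hw i hi) ((div_le_one (hc i hi)).mpr (hE i hi))
    _ = _ := by ring

theorem window_holder (I : Finset (Fin D)) (Y : Fin D → Om D → ℝ) (a : Fin D → ℕ)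
    (m w : Fin D → ℝ) (hY : ∀ i ∈ I, ∀ ω, 0 < Y i ω)
    (hdep : ∀ i ∈ I, ∀ ω ω' : Om D, (∀ k : Fin D × Pos D, k.1.val < i.val → ω k = ω' k) →
      Y i ω = Y i ω')
    (ha : ∀ i ∈ I, a i ≤ i.val)
    (hm : ∀ i ∈ I, ∀ ω, cond (a i) (Y i) ω ≤ m i) (hw : ∀ i ∈ I, 0 ≤ w i)
    (hsum : ∀ l, ∑ i ∈ I.filter (fun i => a i ≤ l ∧ l < i.val), w i ≤ 1) :
    (𝔼 ω : Om D, ∏ i ∈ I, Y i ω ^ w i) ≤ ∏ i ∈ I, m i ^ w i := by
  set b : ℕ → Fin D → Om D → ℝ := fun l i ω => if l ≤ a i then m i else cond l (Y i) ω with hb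
  have hcb : ∀ l, ∀ i ∈ I, ∀ ω, a i ≤ l → cond l (Y i) ω ≤ b l i ω := by
    intro l i hi ω hl
    simp only [hb]
    split_ifs with h
    · have : l = a i := le_antisymm h hl
      rw [this]; exact hm i hi ω
    · exact le_rfl
  have hbpos : ∀ l, ∀ i ∈ I, ∀ ω, 0 < b l i ω := by
    intro l i hi ω
    simp only [hb]
    split_ifs with h
    · exact (cond_pos (hY i hi) ω).trans_le (hm i hi ω)
    · exact cond_pos (hY i hi) ω
  have step : ∀ l ω, (𝔼 ω' : Om D, ∏ i ∈ I, b (l + 1) i (mix (lo D l) ω ω') ^ w i)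
      ≤ ∏ i ∈ I, b l i ω ^ w i := by
    intro l ω
    set p : Fin D → Prop := fun i => a i ≤ l ∧ l < i.val with hp
    rw [← prod_filter_mul_prod_filter_not I p]
    have h1 : ∀ ω', ∏ i ∈ I, b (l + 1) i (mix (lo D l) ω ω') ^ w i ≤
        (∏ i ∈ I.filter p, cond (l + 1) (Y i) (mix (lo D l) ω ω') ^ w i) *
          ∏ i ∈ I.filter (fun i => ¬ p i), b l i ω ^ w i := by
      intro ω'
      rw [← prod_filter_mul_prod_filter_not I p]
      apply mul_le_mul
      · apply le_of_eq
        refine prod_congr rfl fun i hi => ?_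
        have := (mem_filter.mp hi).2
        simp only [hb]
        rw [if_neg (by simp only [hp] at this; omega)]
      · refine prod_le_prod (fun i hi => Real.rpow_nonneg (hbpos _ i (mem_filter.mp hi).1 _).le _)
          fun i hi => ?_
        obtain ⟨hiI, hi⟩ := mem_filter.mp hi
        apply Real.rpow_le_rpow (hbpos _ i hiI _).le _ (hw i hiI)
        by_cases hl : a i ≤ l
        · have hil : i.val ≤ l := by simp only [hp] at hi; omega
          refine le_trans (le_of_eq ?_) (hcb l i hiI ω hl)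
          simp only [hb]
          rw [if_neg (by omega), cond_of_dep (by omega) (hdep i hiI),
            cond_of_dep hil (hdep i hiI)]
          exact hdep i hiI _ _ fun k hk => mix_of_mem (mem_lo.mpr (by omega))
        · simp only [hb]
          rw [if_pos (by omega), if_pos (by omega)]
      · exact prod_nonneg fun i hi => Real.rpow_nonneg (hbpos _ i (mem_filter.mp hi).1 _).le _
      · exact prod_nonneg fun i hi =>
          Real.rpow_nonneg (cond_pos (hY i (mem_filter.mp hi).1) _).le _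
    refine (expect_le_expect fun ω' _ => h1 ω').trans ?_
    rw [← expect_mul]
    apply mul_le_mul_of_nonneg_right _
      (prod_nonneg fun i hi => Real.rpow_nonneg (hbpos _ i (mem_filter.mp hi).1 _).le _)
    apply expect_prod_rpow_le (I.filter p) (fun i ω' => cond (l + 1) (Y i) (mix (lo D l) ω ω')) w
      (fun i => b l i ω)
    · exact fun i hi ω' => (cond_pos (hY i (mem_filter.mp hi).1) _).le
    · exact fun i hi => hw i (mem_filter.mp hi).1
    · exact hsum l
    · exact fun i hi => hbpos _ i (mem_filter.mp hi).1 _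
    · intro i hi
      rw [cond_tower (Nat.le_succ l)]
      exact hcb l i (mem_filter.mp hi).1 ω (mem_filter.mp hi).2.1
  have all : ∀ l, (𝔼 ω : Om D, ∏ i ∈ I, b l i ω ^ w i) ≤ ∏ i ∈ I, m i ^ w i := by
    intro l
    induction l with
    | zero => simp [hb]
    | succ l ih =>
      rw [← expect_mix (lo D l)]
      exact (expect_le_expect fun ω _ => step l ω).trans ih
  refine le_trans (le_of_eq ?_) (all D)
  refine expect_congr rfl fun ω _ => prod_congr rfl fun i hi => ?_
  have := ha i hi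
  have := i.isLt
  simp only [hb]
  rw [if_neg (by omega), cond_of_dep i.isLt.le (hdep i hi)]

theorem bwin_side (t : Fin D) (ν μ : Om D) (a s : ℕ) (h : a + s ≤ t.val) (b : Bool)
    (hag : ∀ k : Fin D × Pos D, a ≤ k.1.val → k.2 t = b → ν k = μ k) (p : Pos D)
    (hp : p t = b) : bwin ν a s p = bwin μ a s p := by
  induction s with
  | zero => rfl
  | succ s ih =>
    rw [bwin_succ, bwin_succ, Equiv.Perm.mul_apply, Equiv.Perm.mul_apply, ih (by omega)]
    have hlt : a + s < D := by have := t.isLt; omega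
    have e1 := lay_of_lt ν ⟨a + s, hlt⟩
    have e2 := lay_of_lt μ ⟨a + s, hlt⟩
    simp only at e1 e2
    rw [e1, e2]
    apply sw_congr
    apply hag _ (by simp)
    have hne : t ≠ ⟨a + s, hlt⟩ := by
      intro e; rw [e] at h; simp at h
    simp only
    rw [zer_apply_ne _ _ hne, bwin_apply_of_not_mem _ _ _ _ (Or.inr (by omega)), hp]

theorem ninv_le_conj (π g : Grp D) (T : Finset (Pos D)) :
    ninv π T ≤ ninv (g * π * g⁻¹) (T.image g) := by
  unfold ninv
  apply card_le_card_of_injOn (fun S => S.image g)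
  · intro S hS
    simp only [coe_filter, mem_powerset, Set.mem_ofPred_eq] at hS ⊢
    refine ⟨image_subset_image hS.1, ?_⟩
    intro u hu
    obtain ⟨v, hv, rfl⟩ := mem_image.mp hu
    exact mem_image.mpr ⟨π v, hS.2 v hv, by simp⟩
  · intro S _ S' _ h
    exact image_injective g.injective h

theorem Lam_dep (t : Fin D) (ωf : Om D) (z : Tup j D) (ω ω' : Om D)
    (h : ∀ k : Fin D × Pos D, k.1.val < t.val → ω k = ω' k) : Lam t ωf ω z = Lam t ωf ω' z := by
  unfold Lam
  rw [bwin_congr (ω := ω) (ω' := ω') 0 t.val fun k _ hk => h k (by omega)]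

theorem level_bound (hK : LemmaK) (t : Fin D) (ωf : Om D) (z : Tup j D) (J L : ℕ) (e y z' : ℝ)
    (hJ : J ≤ t.val) (hL : 1 ≤ L) (he : 0 ≤ e) (hy : (2 : ℝ) ^ e ≤ y) (hz : 0 < z')
    (hzL : z' ^ 2 * L ≤ 2 ^ J) (ω : Om D) :
    cond (t.val - J) (fun ωb => (Lam t ωf ωb z : ℝ) ^ e) ω ≤
      (2 : ℝ) ^ (e * (dbl t (bwin ωf 0 t.val • z)).card / L) *
        Real.exp (y * L / z' * (dbl t (bwin ωf 0 t.val • z)).card) := by
  set a := t.val - J with ha
  have hta : t.val = a + J := by omega
  set φ := bwin ωf 0 t.val with hφ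
  set T := dbl t (φ • z) with hT
  set P : Finset (Fin D × Pos D) := univ.filter fun k => ¬ (a ≤ k.1.val ∧ k.2 t = true) with hP
  unfold cond
  rw [← expect_mix P]
  refine expect_le univ_nonempty fun ω' _ => ?_
  set μ := mix (lo D a) ω ω' with hμ
  set ψ1 := flp t * φ * (bwin μ 0 t.val)⁻¹ * flp t with hψ1
  set ψ2 := bwin μ 0 a * φ⁻¹ with hψ2
  have h := hK D a J L e y z' (ψ2 * ψ1) (T.image ψ2) (by have := t.isLt; omega) hL he hy hz hzL
  rw [card_image_of_injective _ ψ2.injective] at h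
  refine le_trans (expect_le_expect fun ω'' _ => ?_) h
  apply Real.rpow_le_rpow (Nat.cast_nonneg _) _ he
  norm_cast
  set ν := mix (lo D a) ω (mix P ω' ω'') with hν
  have hν1 : ∀ k : Fin D × Pos D, a ≤ k.1.val → k.2 t = true → ν k = ω'' k := by
    intro k h1 h2
    rw [hν, mix_of_not_mem (by rw [mem_lo]; omega), mix_of_not_mem (by simp [hP, h1, h2])]
  have hν2 : ∀ k : Fin D × Pos D, ¬ (a ≤ k.1.val ∧ k.2 t = true) → ν k = μ k := by
    intro k h1
    have : k ∈ P := by simp only [hP, mem_filter, mem_univ, true_and]; exact h1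
    simp only [hν, hμ, mix, this, if_true]
  have e1 : Lam t ωf ν z = ninv (ψ1 * bwin ω'' a J * ψ2) T := by
    unfold Lam
    apply ninv_congr
    intro p hp
    have hpt : p t = true := by
      simp only [dbl, mem_filter] at hp; exact hp.2.1
    have hβ : bwin ν 0 t.val = bwin ν a J * bwin μ 0 a := by
      rw [hta, bwin_add, zero_add]
      congr 1
      exact bwin_congr 0 a fun k _ hk => hν2 k (by omega)
    have h1 : (ψ2 p) t = true := by
      rw [hψ2, Equiv.Perm.mul_apply, bwin_apply_of_not_mem _ _ _ _ (Or.inr (by omega)), hφ,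
        bwin_inv_apply_of_not_mem _ _ _ _ (Or.inr (by omega)), hpt]
    have h2 : bwin ν 0 t.val (φ⁻¹ p) = bwin ω'' a J (ψ2 p) := by
      rw [hβ, Equiv.Perm.mul_apply]
      exact bwin_side t ν ω'' a J (by omega) true hν1 _ h1
    have h3 : (flp t (bwin ω'' a J (ψ2 p))) t = false := by
      rw [flp_apply_self, bwin_apply_of_not_mem _ _ _ _ (Or.inr (by omega)), h1]; rfl
    have h4 : ∀ q : Pos D, q t = false → (bwin ν 0 t.val)⁻¹ q = (bwin μ 0 t.val)⁻¹ q := by
      intro q hq
      rw [Equiv.Perm.inv_eq_iff_eq, bwin_side t ν μ 0 t.val (by omega) false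
        (fun k _ hk => hν2 k (by simp [hk])) _
        (by rw [bwin_inv_apply_of_not_mem _ _ _ _ (Or.inr (by omega)), hq])]
      simp
    simp only [Equiv.Perm.mul_apply, hψ1]
    rw [← hφ, h2, h4 _ h3]
  rw [e1]
  refine (ninv_le_conj _ ψ2 T).trans (le_of_eq ?_)
  congr 1
  group

theorem sum_window_le (l : ℕ) :
    ∑ i ∈ (univ.filter fun t : Fin D => 42 ≤ t.val).filter
      (fun i => i.val - 7 * (i.val / 14) ≤ l ∧ l < i.val), (1 / (i.val : ℝ)) ≤ 1 := by
  set S := (univ.filter fun t : Fin D => 42 ≤ t.val).filter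
      (fun i => i.val - 7 * (i.val / 14) ≤ l ∧ l < i.val) with hS
  have hc : S.card ≤ l := by
    calc S.card ≤ (Ioc l (2 * l)).card := by
          apply card_le_card_of_injOn (fun i => i.val)
          · intro i hi
            simp only [hS, coe_filter, mem_filter, Set.mem_ofPred_eq] at hi
            simp only [coe_Ioc, Set.mem_Ioc]
            omega
          · intro i _ i' _ h; exact Fin.ext h
      _ = l := by simp; omega
  calc ∑ i ∈ S, (1 / (i.val : ℝ)) ≤ S.card • (1 / ((l : ℝ) + 1)) := by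
        apply sum_le_card_nsmul
        intro i hi
        have : l < i.val := (mem_filter.mp hi).2.2
        apply one_div_le_one_div_of_le (by positivity)
        exact_mod_cast this
    _ ≤ 1 := by
        rw [nsmul_eq_mul, mul_one_div, div_le_one (by positivity)]
        have : (S.card : ℝ) ≤ l := by exact_mod_cast hc
        linarith

end Block

open Block in
theorem blockStmt_of (hK : LemmaK) : BlockStmt := by
  intro D j ωf z
  set M : Fin D → ℕ := fun t => (dbl t (bwin ωf 0 t.val • z)).card with hM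
  set I : Finset (Fin D) := univ.filter fun t : Fin D => 42 ≤ t.val with hI
  have hL1 : ∀ t ωb, (1 : ℝ) ≤ Lam t ωf ωb z := fun t ωb => by
    exact_mod_cast one_le_ninv _ _
  have hw := window_holder I (fun t ωb => (Lam t ωf ωb z : ℝ) ^ ((t.val : ℝ) / 63))
    (fun t => t.val - 7 * (t.val / 14))
    (fun t => (2 : ℝ) ^ ((t.val : ℝ) / 63 * M t / ((2 ^ (t.val / 14) : ℕ) : ℝ)) *
      Real.exp ((2 : ℝ) ^ (t.val / 14) * ((2 ^ (t.val / 14) : ℕ) : ℝ) / (2 : ℝ) ^ (3 * (t.val / 14))
        * M t))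
    (fun t => 1 / (t.val : ℝ))
    (fun t _ ω => Real.rpow_pos_of_pos (lt_of_lt_of_le one_pos (hL1 t ω)) _)
    (fun t _ ω ω' h => by simp only [Lam_dep t ωf z ω ω' h])
    (fun t _ => Nat.sub_le _ _)
    (fun t ht ω => by
      have h42 : 42 ≤ t.val := (mem_filter.mp ht).2
      apply level_bound hK t ωf z (7 * (t.val / 14)) (2 ^ (t.val / 14)) _ _ _ (by omega)
        Nat.one_le_two_pow (by positivity) _ (by positivity)
      · push_cast
        rw [← pow_mul, ← pow_add]
        apply le_of_eq; congr 1; omega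
      · rw [← Real.rpow_natCast]
        apply Real.rpow_le_rpow_of_exponent_le (by norm_num)
        rw [div_le_iff₀ (by norm_num)]
        exact_mod_cast (by omega : t.val ≤ t.val / 14 * 63))
    (fun t _ => by positivity) sum_window_le
  rw [mul_sum, Real.rpow_sum_of_pos (by norm_num),
    ← prod_filter_mul_prod_filter_not univ (fun t : Fin D => 42 ≤ t.val)]
  have h1 : ∀ ωb : Om D, ∏ t : Fin D, (Lam t ωf ωb z : ℝ) ^ (1 / 63 : ℝ) ≤
      (∏ t ∈ I, ((Lam t ωf ωb z : ℝ) ^ ((t.val : ℝ) / 63)) ^ (1 / (t.val : ℝ))) *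
        ∏ t ∈ univ.filter (fun t : Fin D => ¬ 42 ≤ t.val),
          (2 : ℝ) ^ ((1 / 63 : ℝ) * (eta t.val * M t)) := by
    intro ωb
    rw [← prod_filter_mul_prod_filter_not univ (fun t : Fin D => 42 ≤ t.val)]
    apply mul_le_mul
    · apply le_of_eq
      refine prod_congr rfl fun t ht => ?_
      have h42 : 42 ≤ t.val := (mem_filter.mp ht).2
      have : (t.val : ℝ) ≠ 0 := by
        have : 0 < t.val := by omega
        positivity
      rw [← Real.rpow_mul (Nat.cast_nonneg _)]
      congr 1; field_simp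
    · refine prod_le_prod (fun t _ => by positivity) fun t ht => ?_
      have h42 : ¬ 42 ≤ t.val := (mem_filter.mp ht).2
      rw [eta, if_pos (by omega), one_mul, mul_comm, Real.rpow_mul (by norm_num), Real.rpow_natCast]
      apply Real.rpow_le_rpow (Nat.cast_nonneg _) _ (by norm_num)
      exact_mod_cast ninv_le_two_pow _ _
    · exact prod_nonneg fun t _ => by positivity
    · exact prod_nonneg fun t _ => by positivity
  refine (expect_le_expect fun ωb _ => h1 ωb).trans ?_
  rw [← expect_mul]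
  apply mul_le_mul_of_nonneg_right _ (prod_nonneg fun t _ => by positivity)
  refine hw.trans (prod_le_prod (fun t _ => by positivity) fun t ht => ?_)
  have h42 : 42 ≤ t.val := (mem_filter.mp ht).2
  have ht0 : (42 : ℝ) ≤ t.val := by exact_mod_cast h42
  set q := t.val / 14 with hq
  have hQ : (0 : ℝ) < 2 ^ q := by positivity
  rw [Real.rpow_def_of_pos (by norm_num : (0 : ℝ) < 2), Real.rpow_def_of_pos (by norm_num : (0 : ℝ) < 2),
    ← Real.exp_add, ← Real.exp_mul]
  apply Real.exp_le_exp.mpr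
  rw [eta, if_neg (by omega), ← hq]
  push_cast
  have e3 : (2 : ℝ) ^ (3 * q) = 2 ^ q * 2 ^ q * 2 ^ q := by rw [← pow_add, ← pow_add]; congr 1; omega
  rw [e3]
  have hl := Real.log_two_gt_d9
  have hM0 : (0 : ℝ) ≤ M t := Nat.cast_nonneg _
  have e4 : (Real.log 2 * ((t.val : ℝ) / 63 * M t / 2 ^ q) +
      2 ^ q * 2 ^ q / (2 ^ q * 2 ^ q * 2 ^ q) * M t) * (1 / (t.val : ℝ))
      = (M t / 2 ^ q) * (Real.log 2 / 63 + 1 / (t.val : ℝ)) := by
    field_simp
  have e5 : Real.log 2 * (1 / 63 * (7 / 2 / 2 ^ q * (M t : ℝ)))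
      = (M t / 2 ^ q) * (Real.log 2 / 18) := by
    field_simp; ring
  rw [e4]
  refine le_trans ?_ (le_of_eq e5.symm)
  apply mul_le_mul_of_nonneg_left _ (by positivity)
  have : 1 / (t.val : ℝ) ≤ 1 / 42 := one_div_le_one_div_of_le (by norm_num) ht0
  linarith

end Crest.Agent.R155
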