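import Mathlib
import Crest.Prelude.Def_Shuffle

/-!
# Row 155 (Thorp shuffle): definitions and the interface statements

`D` bits, `n = 2 ^ D` positions.  Layer `t` of the butterfly network swaps the two positions that
differ in bit `t` according to a fair coin.  `Kmat` is the Markov matrix of one pass of the
butterfly, `Bmat = Kᵀ K` the Beneš network.
-/

set_option autoImplicit false

namespace Crest.Agent.R155

open Finset Matrix
open scoped BigOperators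

/-- positions: bit strings of length `D` -/
abbrev Pos (D : ℕ) := Fin D → Bool
/-- arrangements of the deck -/
abbrev Grp (D : ℕ) := Equiv.Perm (Pos D)
/-- positions of `j` tracked cards -/
abbrev Tup (j D : ℕ) := Fin j ↪ Pos D
/-- tables of switch settings: layer and switch name -/
abbrev Om (D : ℕ) := Fin D × Pos D → Bool

section basic
variable {D : ℕ}

/-- the name of the layer-`t` switch through `x`: clear bit `t` -/
def zer (t : Fin D) (x : Pos D) : Pos D := Function.update x t false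

/-- layer `t` with switch settings `c` -/
def swf (t : Fin D) (c : Pos D → Bool) (x : Pos D) : Pos D :=
  Function.update x t (xor (x t) (c (zer t x)))

theorem zer_swf (t : Fin D) (c : Pos D → Bool) (x : Pos D) : zer t (swf t c x) = zer t x := by
  simp [zer, swf]

theorem swf_invol (t : Fin D) (c : Pos D → Bool) : Function.Involutive (swf t c) := by
  intro x
  have h := zer_swf t c x
  unfold swf at h ⊢
  rw [h]
  simp

/-- layer `t` with switch settings `c`, as a permutation -/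
def sw (t : Fin D) (c : Pos D → Bool) : Grp D := (swf_invol t c).toPerm _

/-- flip bit `t` -/
def flp (t : Fin D) : Grp D := sw t (fun _ => true)

/-- layer number `i` of the table `ω` (identity if `i ≥ D`) -/
def lay (ω : Om D) (i : ℕ) : Grp D :=
  if h : i < D then sw ⟨i, h⟩ (fun p => ω (⟨i, h⟩, p)) else 1

/-- layers `a, a+1, …, a+s-1` applied in this order -/
def bwin (ω : Om D) (a : ℕ) : ℕ → Grp D
  | 0 => 1
  | s + 1 => lay ω (a + s) * bwin ω a s

/-- number of `π`-closed subsets of `T` -/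
def ninv (π : Grp D) (T : Finset (Pos D)) : ℕ :=
  (T.powerset.filter fun S => ∀ u ∈ S, π u ∈ S).card

/-- `x` and `y` agree in all bits `≥ i` (same node of level `i`) -/
def sameHi (i : ℕ) (x y : Pos D) : Prop := ∀ t : Fin D, i ≤ t.val → x t = y t

instance (i : ℕ) (x y : Pos D) : Decidable (sameHi i x y) := by
  unfold sameHi; infer_instance

end basic

section matrices
variable (D : ℕ) (X : Type) [Fintype X] [DecidableEq X] [MulAction (Grp D) X]

/-- the matrix of `F ↦ F (g • ·)` -/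
def pm (g : Grp D) : Matrix X X ℝ := Matrix.of fun x y => if g • x = y then 1 else 0

/-- the Markov matrix of layer `t` -/
noncomputable def Pm (t : Fin D) : Matrix X X ℝ :=
  Matrix.of fun x y => 𝔼 c : Pos D → Bool, pm D X (sw t c) x y

/-- the Markov matrix of layer number `i` (identity if `i ≥ D`) -/
noncomputable def Pn (i : ℕ) : Matrix X X ℝ := if h : i < D then Pm D X ⟨i, h⟩ else 1

/-- layers `0, …, i-1` -/
noncomputable def Kmat : ℕ → Matrix X X ℝ
  | 0 => 1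
  | i + 1 => Kmat i * Pn D X i

/-- `B_i = K_iᵀ K_i` -/
noncomputable def Bmat (i : ℕ) : Matrix X X ℝ := (Kmat D X i)ᵀ * Kmat D X i

/-- the complete-graph Laplacian `∑_{x,y} (1 - (x y))` -/
def Cmat : Matrix X X ℝ := ∑ x : Pos D, ∑ y : Pos D, (1 - pm D X (Equiv.swap x y))

/-- the sum of the complete-graph Laplacians of the level-`i` nodes -/
def Ci (i : ℕ) : Matrix X X ℝ :=
  ∑ x : Pos D, ∑ y : Pos D, if sameHi i x y then 1 - pm D X (Equiv.swap x y) else 0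

/-- `W_t = C_{t+1} / 2 - C_t` -/
noncomputable def Wm (t : Fin D) : Matrix X X ℝ :=
  (1 / 2 : ℝ) • Ci D X (t.val + 1) - Ci D X t.val

end matrices

/-! ### Part B: the dominating kernel -/

section super
variable {Nd : Type} [Fintype Nd] [DecidableEq Nd]

/-- the dominating (dual) kernel on functions of node counts -/
noncomputable def That (m : ℕ) (jw : Nd → ℕ) (φ : (Nd → ℕ) → ℝ) (o : Nd → ℕ) : ℝ :=
  ∑ w, (4 * (m : ℝ) * (o w : ℝ) * φ o
    + 2 * ((o w * (o w - 1) : ℕ) : ℝ) * φ (Function.update o w (o w - 2))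
    + 2 * ((min (2 * jw w * (m - 1)) (m * (m - 1)) : ℕ) : ℝ) * φ (Function.update o w (o w + 2)))

/-- iterates of `That` on the indicator of `0` -/
noncomputable def hseq (m : ℕ) (jw : Nd → ℕ) : ℕ → (Nd → ℕ) → ℝ
  | 0 => fun o => if o = 0 then 1 else 0
  | s + 1 => That m jw (hseq m jw s)

end super

/-! ### Part C: exploration of cycles -/

section kraft
variable {D : ℕ}

/-- the switches in layers `a, …, a+J-1` met by the input `u` -/
def path (ω : Om D) (a J : ℕ) (u : Pos D) : Finset (Fin D × Pos D) :=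
  univ.filter fun k => a ≤ k.1.val ∧ k.1.val < a + J ∧ k.2 = zer k.1 (bwin ω a (k.1.val - a) u)

/-- the switches met by `v, π v, …, π^(ℓ-1) v`, where `π = φ * bwin ω a J` -/
def expl (φ : Grp D) (ω : Om D) (a J : ℕ) (v : Pos D) (ℓ : ℕ) : Finset (Fin D × Pos D) :=
  (range ℓ).biUnion fun r => path ω a J (((φ * bwin ω a J) ^ r) v)

/-- the switches seen before the last path of the exploration from `v` -/
def before (φ : Grp D) (ω : Om D) (a J : ℕ) (rk lam : Pos D → ℕ) (v : Pos D) :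
    Finset (Fin D × Pos D) :=
  ((univ.filter fun v' => rk v' < rk v).biUnion fun v' => expl φ ω a J v' (lam v'))
    ∪ expl φ ω a J v (lam v - 1)

/-- the Kraft weight of the program `lam` run in the order `rk` -/
def kraftW (φ : Grp D) (ω : Om D) (a J : ℕ) (rk lam : Pos D → ℕ) : ℝ :=
  ∏ v : Pos D, if lam v = 0 then 1 else
    if ((φ * bwin ω a J) ^ lam v) v = v then
      (2 : ℝ) ^ (path ω a J (((φ * bwin ω a J) ^ (lam v - 1)) v) \ before φ ω a J rk lam v).card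
    else 0

end kraft

/-! ### Part D: doubly tracked switches -/

section trace
variable {D j : ℕ}

/-- upper positions of the layer-`t` switches both of whose positions carry a tracked card -/
def dbl (t : Fin D) (x : Tup j D) : Finset (Pos D) :=
  univ.filter fun p => p t = true ∧ (∃ a, x a = p) ∧ (∃ a, x a = flp t p)

/-- the cycle-space count at level `t` -/
def Lam (t : Fin D) (ωf ωb : Om D) (z : Tup j D) : ℕ :=
  ninv (flp t * bwin ωf 0 t.val * (bwin ωb 0 t.val)⁻¹ * flp t * bwin ωb 0 t.val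
      * (bwin ωf 0 t.val)⁻¹) (dbl t (bwin ωf 0 t.val • z))

/-- the entropy cost of level `i` -/
noncomputable def eta (i : ℕ) : ℝ := if i < 42 then 1 else (7 / 2) / 2 ^ (i / 14)

end trace

/-! ### Part E: levels -/

section levels
variable {D : ℕ}

/-- `u g` depends only on the restriction of `g` to `A` -/
def DepOn (A : Finset (Pos D)) (u : Grp D → ℝ) : Prop :=
  ∀ g h : Grp D, (∀ a ∈ A, g a = h a) → u g = u h

/-- `u` is orthogonal to all functions of `k` cards -/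
def Orth (k : ℕ) (u : Grp D → ℝ) : Prop :=
  ∀ A : Finset (Pos D), A.card = k → ∀ w : Grp D → ℝ, DepOn A w → u ⬝ᵥ w = 0

/-- `lam` is an eigenvalue of `B` on level `k`, with a witness depending on `k` cards -/
def Wit (D k : ℕ) (lam : ℝ) : Prop :=
  ∃ (A : Finset (Pos D)) (u : Grp D → ℝ) (c : ℝ), A.card = k ∧ u ≠ 0 ∧ DepOn A u ∧
    Orth (k - 1) u ∧ Bmat D (Grp D) D *ᵥ u = lam • u ∧ Cmat D (Grp D) *ᵥ u = c • u

/-- the three bounds on a level-`k` eigenvalue -/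
def wbound (D k : ℕ) (w : ℝ) : Prop :=
  w ≤ Real.exp (0.015 * k - k / 24) ∧
  w ≤ Real.exp (0.015 * k - 2 * k * (2 ^ D - k + 1) / (24 * 2 ^ D)) ∧
  ∀ b : ℕ, 1 ≤ b → k * b ≤ 2 ^ D → 2 * k < 2 ^ D →
    w ^ 64 ≤ Real.exp (2 ^ 54 * ((k : ℝ) * b) ^ 2 / 2 ^ D) * (1 / (b : ℝ)) ^ k
      * Real.exp (k * b * ((k : ℝ) / (2 ^ D - 2 * k)) ^ 2)

end levels

/-! ### The interface statements -/

/-- A1: total variation is at most half the Hilbert–Schmidt distance -/
def LinkStmt : Prop :=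
  ∀ d s : ℕ, Crest.ProbabilityR.Shuffle.tvFromUniform (2 ^ d) (s * (d + 1)) ≤
    (1 / 2) * Real.sqrt (∑ x : Grp (d + 1), ∑ y : Grp (d + 1),
      ((Kmat (d + 1) (Grp (d + 1)) (d + 1) ^ s) x y - 1 / (Fintype.card (Grp (d + 1)) : ℝ)) ^ 2)

/-- A2: Dyson's trace inequality -/
def DysonStmt : Prop :=
  ∀ (X : Type) [Fintype X] [DecidableEq X] (K : Matrix X X ℝ) (s : ℕ),
    ((K ^ s)ᵀ * K ^ s).trace ≤ ((Kᵀ * K) ^ s).trace

/-- A2: Hilbert–Schmidt distance against the trace of a power of `B` -/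
def HSStmt : Prop :=
  ∀ D s : ℕ, 1 ≤ s → (∑ x : Grp D, ∑ y : Grp D,
      ((Kmat D (Grp D) D ^ s) x y - 1 / (Fintype.card (Grp D) : ℝ)) ^ 2)
    ≤ (Bmat D (Grp D) D ^ s).trace - 1

/-- B1: the supersolution bound -/
def SuperStmt : Prop :=
  ∀ (Nd : Type) [Fintype Nd] [DecidableEq Nd] (m : ℕ) (jw : Nd → ℕ) (J : ℕ), 1 ≤ m →
    ∑ s ∈ range J, (1 / (24 * (m : ℝ))) ^ s / (s.factorial : ℝ) * hseq m jw s 0
      ≤ Real.exp (0.0225 * ((∑ w, jw w : ℕ) : ℝ) * ((m : ℝ) - 1) / (m : ℝ) ^ 2)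

/-- B2: the compressed exponential of `W` (partial sums) -/
def PWStmt : Prop :=
  ∀ (D j : ℕ) (t : Fin D) (F : Tup j D → ℝ) (J : ℕ),
    ∑ s ∈ range J, (1 / (24 * (2 : ℝ) ^ t.val)) ^ s / (s.factorial : ℝ) *
        (F ⬝ᵥ ((Pm D (Tup j D) t * Wm D (Tup j D) t ^ s * Pm D (Tup j D) t) *ᵥ F))
      ≤ Real.exp (0.0225 * (j : ℝ) * ((2 : ℝ) ^ t.val - 1) / ((2 : ℝ) ^ t.val) ^ 2) * (F ⬝ᵥ F)

/-- B3: comparison of the Beneš network with the random transposition semigroup -/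
def PropP : Prop :=
  ∀ (D j : ℕ) (F : Tup j D → ℝ) (c : ℝ), Cmat D (Tup j D) *ᵥ F = c • F →
    F ⬝ᵥ (Bmat D (Tup j D) D *ᵥ F) ≤ Real.exp (0.015 * j - c / (24 * 2 ^ D)) * (F ⬝ᵥ F)

/-- C1: Kraft inequality -/
def KraftStmt : Prop :=
  ∀ (D a J : ℕ) (φ : Grp D) (rk lam : Pos D → ℕ), Function.Injective rk →
    (𝔼 ω : Om D, kraftW φ ω a J rk lam) ≤ 1

/-- C2: few short cycles -/
def LemmaK : Prop :=
  ∀ (D a J L : ℕ) (e y z : ℝ) (φ : Grp D) (T : Finset (Pos D)), a + J ≤ D → 1 ≤ L → 0 ≤ e →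
    (2 : ℝ) ^ e ≤ y → 0 < z → z ^ 2 * L ≤ 2 ^ J →
    (𝔼 ω : Om D, (ninv (φ * bwin ω a J) T : ℝ) ^ e)
      ≤ (2 : ℝ) ^ (e * T.card / L) * Real.exp (y * L / z * T.card)

/-- D1: Russo's inequality for `p = 64` -/
def RussoStmt : Prop :=
  ∀ (X : Type) [Fintype X] [DecidableEq X] (B : Matrix X X ℝ), B.IsSymm → (∀ x y, 0 ≤ B x y) →
    (B ^ 64).trace ≤ ∑ x, (∑ y, (B x y) ^ (64 / 63 : ℝ)) ^ 63

/-- D2: the row sums of `B ^ (64/63)` through the recursive structure -/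
def RhoStmt : Prop :=
  ∀ (D j : ℕ) (x : Tup j D),
    ∑ y, (Bmat D (Tup j D) D x y) ^ (64 / 63 : ℝ) ≤
      𝔼 ωf : Om D, 𝔼 ωb : Om D, ∏ t : Fin D,
        ((Lam t ωf ωb ((bwin ωf 0 D)⁻¹ • x) : ℝ) / 2 ^ j) ^ (1 / 63 : ℝ)

/-- D3: the product over the levels -/
def BlockStmt : Prop :=
  ∀ (D j : ℕ) (ωf : Om D) (z : Tup j D),
    (𝔼 ωb : Om D, ∏ t : Fin D, (Lam t ωf ωb z : ℝ) ^ (1 / 63 : ℝ)) ≤
      (2 : ℝ) ^ ((1 / 63 : ℝ) * ∑ t : Fin D, eta t.val * (dbl t (bwin ωf 0 t.val • z)).card)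

/-- D4: trace bound, all `j` -/
def PropT1 : Prop :=
  ∀ D j : ℕ, (Bmat D (Tup j D) D ^ 64).trace ≤ Real.exp (19.1 * j)

/-- D4: trace bound, small `j` -/
def PropT2 : Prop :=
  ∀ D j : ℕ, (Bmat D (Tup j D) D ^ 64).trace ≤ Real.exp (2 ^ 54 * (j : ℝ) ^ 2 / 2 ^ D)

/-- E1: decomposition into levels -/
def LevelStmt : Prop :=
  ∀ D : ℕ, ∃ w : ℕ → ℝ, (∀ k, 1 ≤ k → k ≤ 2 ^ D → 0 ≤ w k ∧ (w k = 0 ∨ Wit D k (w k))) ∧
    (Bmat D (Grp D) D ^ 1600).trace - 1 ≤
      ∑ k ∈ Icc 1 (2 ^ D), w k ^ 1536 * (((2 ^ D).choose k : ℝ) * Real.exp (19.1 * k))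

/-- E2: the Laplacian on level `k` -/
def RepStmt : Prop :=
  ∀ (D k : ℕ) (A : Finset (Pos D)) (u : Grp D → ℝ) (c : ℝ), 1 ≤ k → A.card = k → u ≠ 0 →
    DepOn A u → Orth (k - 1) u → Cmat D (Grp D) *ᵥ u = c • u →
    (2 : ℝ) ^ D * k ≤ c ∧ 2 * (k : ℝ) * (2 ^ D - k + 1) ≤ c

/-- E2: near orthogonality of translates -/
def GramStmt : Prop :=
  ∀ (D k : ℕ) (A : Finset (Pos D)) (u u' : Grp D → ℝ) (h : Grp D), 1 ≤ k → A.card = k →
    2 * k < 2 ^ D → DepOn A u → DepOn A u' → Orth (k - 1) u → (∀ a ∈ A, h a = a ∨ h a ∉ A) →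
    |∑ g, u' g * u (g * h)| ≤ ((k : ℝ) / (2 ^ D - 2 * k)) ^ (A.filter fun a => h a ≠ a).card
      * (Real.sqrt (u' ⬝ᵥ u') * Real.sqrt (u ⬝ᵥ u))

/-- E3: numerics -/
def NumStmt : Prop :=
  ∀ w : ℕ → ℕ → ℝ, (∀ D k, 1 ≤ k → k ≤ 2 ^ D → 0 ≤ w D k ∧ wbound D k (w D k)) →
    Filter.Tendsto (fun D : ℕ =>
      ∑ k ∈ Icc 1 (2 ^ D), w D k ^ 1536 * (((2 ^ D).choose k : ℝ) * Real.exp (19.1 * k)))
      Filter.atTop (nhds 0)

/-- E4: bounds on level eigenvalues -/
def VarpiStmt : Prop :=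
  ∀ (D k : ℕ) (lam : ℝ), 1 ≤ k → k ≤ 2 ^ D → 0 ≤ lam → Wit D k lam → wbound D k lam

end Crest.Agent.R155
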