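import Crest.Agent.R155.Basic

/-!
# Row 155: Dyson's trace inequality and the Hilbert–Schmidt bound
-/

set_option autoImplicit false

namespace Crest.Agent.R155

open Finset Matrix
open scoped BigOperators

namespace Dyson

/-- number of adjacent equal letters -/
def df : List Bool → ℕ
  | a :: b :: l => (if a = b then 1 else 0) + df (b :: l)
  | _ => 0

/-- the transposed word -/
def tw (w : List Bool) : List Bool := (w.map not).reverse

theorem df_cons_cons (a b : Bool) (l : List Bool) :
    df (a :: b :: l) = (if a = b then 1 else 0) + df (b :: l) := rfl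

theorem df_append_mid (p : List Bool) (a b : Bool) (q : List Bool) :
    df (p ++ a :: b :: q) = df (p ++ [a]) + (if a = b then 1 else 0) + df (b :: q) := by
  induction p with
  | nil => simp [df]
  | cons c p ih =>
    cases p with
    | nil => simp [df, add_assoc]
    | cons d p =>
      simp only [List.cons_append, df_cons_cons] at ih ⊢
      omega

theorem df_append_ge (u v : List Bool) : df u + df v ≤ df (u ++ v) := by
  rcases List.eq_nil_or_concat u with rfl | ⟨p, a, rfl⟩
  · simp [df]
  cases v with
  | nil => simp [df]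
  | cons b q =>
    have := df_append_mid p a b q
    simp only [List.concat_eq_append, List.append_assoc, List.cons_append, List.nil_append]
    omega

theorem df_append_le (u v : List Bool) : df (u ++ v) ≤ df u + df v + 1 := by
  rcases List.eq_nil_or_concat u with rfl | ⟨p, a, rfl⟩
  · simp [df]
  cases v with
  | nil => simp [df]
  | cons b q =>
    have := df_append_mid p a b q
    simp only [List.concat_eq_append, List.append_assoc, List.cons_append, List.nil_append]
    split_ifs at this <;> omega

theorem tw_cons (a : Bool) (l : List Bool) : tw (a :: l) = tw l ++ [!a] := by simp [tw]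

theorem tw_concat (l : List Bool) (a : Bool) : tw (l ++ [a]) = (!a) :: tw l := by simp [tw]

theorem tw_tw (l : List Bool) : tw (tw l) = l := by
  simp [tw, List.map_reverse, Function.comp_def]

theorem length_tw (l : List Bool) : (tw l).length = l.length := by simp [tw]

theorem df_tw (l : List Bool) : df (tw l) = df l := by
  induction l with
  | nil => rfl
  | cons a l ih =>
    cases l with
    | nil => rfl
    | cons b l =>
      rw [tw_cons, tw_cons, List.append_assoc, List.singleton_append, df_append_mid, ← tw_cons, ih,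
        df_cons_cons]
      cases a <;> cases b <;> simp [df, add_comm]

theorem df_append_tw (l : List Bool) : df (l ++ tw l) = 2 * df l := by
  rcases List.eq_nil_or_concat l with rfl | ⟨p, a, rfl⟩
  · simp [df, tw]
  rw [List.concat_eq_append, tw_concat, List.append_assoc, List.singleton_append, df_append_mid,
    ← tw_concat, df_tw]
  cases a <;> simp <;> omega

theorem exists_of_df_pos (l : List Bool) (h : 0 < df l) : ∃ p a q, l = p ++ a :: a :: q := by
  induction l with
  | nil => simp [df] at h
  | cons a l ih =>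
    cases l with
    | nil => simp [df] at h
    | cons b l =>
      by_cases hab : a = b
      · subst hab; exact ⟨[], a, l, rfl⟩
      · rw [df_cons_cons, if_neg hab, zero_add] at h
        obtain ⟨p, c, q, e⟩ := ih h
        exact ⟨a :: p, c, q, by rw [e]; rfl⟩

variable {X : Type} [Fintype X] [DecidableEq X]

/-- the letter -/
def lt (K : Matrix X X ℝ) (b : Bool) : Matrix X X ℝ := if b then K else Kᵀ

/-- evaluation of a word -/
def ev (K : Matrix X X ℝ) (w : List Bool) : Matrix X X ℝ := (w.map (lt K)).prod

omit [Fintype X] [DecidableEq X] in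
theorem lt_not (K : Matrix X X ℝ) (b : Bool) : lt K (!b) = (lt K b)ᵀ := by
  cases b <;> simp [lt]

theorem ev_cons (K : Matrix X X ℝ) (a : Bool) (l : List Bool) : ev K (a :: l) = lt K a * ev K l := by
  simp [ev]

theorem ev_append (K : Matrix X X ℝ) (u v : List Bool) : ev K (u ++ v) = ev K u * ev K v := by
  simp [ev]

theorem ev_tw (K : Matrix X X ℝ) (l : List Bool) : ev K (tw l) = (ev K l)ᵀ := by
  induction l with
  | nil => simp [ev, tw]
  | cons a l ih => rw [tw_cons, ev_append, ih, ev_cons, ev_cons, transpose_mul, lt_not]; simp [ev]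

/-- squared Hilbert–Schmidt norm -/
def hs (A : Matrix X X ℝ) : ℝ := (A * Aᵀ).trace

omit [DecidableEq X] in
theorem hs_eq (A : Matrix X X ℝ) : hs A = ∑ p : X × X, A p.1 p.2 ^ 2 := by
  simp [hs, trace, mul_apply, Fintype.sum_prod_type, sq]

omit [DecidableEq X] in
theorem hs_nonneg (A : Matrix X X ℝ) : 0 ≤ hs A := by
  rw [hs_eq]; positivity

omit [DecidableEq X] in
theorem trace_sq_le (A B : Matrix X X ℝ) : (A * B).trace ^ 2 ≤ hs A * hs B := by
  have h1 : (A * B).trace = ∑ p : X × X, A p.1 p.2 * B p.2 p.1 := by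
    simp [trace, mul_apply, Fintype.sum_prod_type]
  have h2 : hs B = ∑ p : X × X, B p.2 p.1 ^ 2 := by
    rw [hs_eq, Fintype.sum_prod_type, Fintype.sum_prod_type, Finset.sum_comm]
  rw [h1, h2, hs_eq]
  exact Finset.sum_mul_sq_le_sq_mul_sq _ _ _

theorem ev_alt (K : Matrix X X ℝ) (l : List Bool) (a : Bool) (h : df (a :: l) = 0) :
    ev K (a :: l) * (ev K (a :: l))ᵀ = (lt K a * (lt K a)ᵀ) ^ (l.length + 1) := by
  induction l generalizing a with
  | nil => simp [ev]
  | cons b l ih =>
    rw [df_cons_cons] at h
    have hab : b = !a := by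
      cases a <;> cases b <;> simp at h ⊢
    have h2 := ih b (by omega)
    rw [ev_cons, transpose_mul, Matrix.mul_assoc, ← Matrix.mul_assoc (ev K (b :: l)), h2, hab, lt_not,
      transpose_transpose, ← Matrix.mul_assoc, ← mul_pow_mul, List.length_cons, pow_succ _ (_ + 1),
      Matrix.mul_assoc]

theorem trace_pow_comm (A B : Matrix X X ℝ) (s : ℕ) : ((A * B) ^ s).trace = ((B * A) ^ s).trace := by
  cases s with
  | zero => simp
  | succ s =>
    rw [pow_succ, ← Matrix.mul_assoc, mul_pow_mul, trace_mul_comm, pow_succ', Matrix.mul_assoc]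

theorem hs_alt (K : Matrix X X ℝ) (l : List Bool) (h : df l = 0) :
    hs (ev K l) = ((Kᵀ * K) ^ l.length).trace := by
  cases l with
  | nil => simp [hs, ev]
  | cons a l =>
    rw [hs, ev_alt K l a h, List.length_cons]
    cases a
    · simp [lt]
    · simp only [lt, if_true]
      exact trace_pow_comm _ _ _

theorem max_eq (K : Matrix X X ℝ) (s : ℕ) (k : ℕ) : ∀ u : List Bool, u.length = s → df u = k →
    (∀ v : List Bool, v.length = s → hs (ev K v) ≤ hs (ev K u)) → 0 < hs (ev K u) →
    hs (ev K u) = ((Kᵀ * K) ^ s).trace := by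
  induction k using Nat.strong_induction_on with
  | _ k ih =>
  intro u hu hk hmax hpos
  rcases Nat.eq_zero_or_pos k with rfl | hk0
  · rw [hs_alt K u hk, hu]
  obtain ⟨p, a, q, rfl⟩ := exists_of_df_pos u (hk ▸ hk0)
  set P := p ++ [a] with hP
  set Q := a :: q with hQ
  have e1 : p ++ a :: a :: q = P ++ Q := by simp [hP, hQ]
  have e2 : k = df P + df Q + 1 := by
    have := df_append_mid p a a q
    rw [if_pos rfl, ← hP, ← hQ] at this
    omega
  rw [e1] at hu hmax hpos ⊢
  set W := (Q ++ tw Q) ++ (tw P ++ P) with hW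
  have hWl : W.length = 2 * s := by
    simp only [hW, List.length_append, length_tw] at hu ⊢; omega
  have hWd : df W ≤ 2 * df Q + 2 * df P + 1 := by
    have h1 := df_append_le (Q ++ tw Q) (tw P ++ P)
    have h2 := df_append_tw (tw P)
    rw [tw_tw, df_tw] at h2
    rw [df_append_tw, h2] at h1
    exact h1
  have hWt : (ev K W).trace = hs (ev K (P ++ Q)) := by
    simp only [hW, hs, ev_append, ev_tw, transpose_mul]
    rw [← Matrix.mul_assoc, trace_mul_comm]
    simp only [Matrix.mul_assoc]
  have hsplit : W = W.take s ++ W.drop s := (List.take_append_drop s W).symm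
  have l1 : (W.take s).length = s := by simp [hWl]; omega
  have l2 : (W.drop s).length = s := by simp [hWl]; omega
  have hd := df_append_ge (W.take s) (W.drop s)
  rw [← hsplit] at hd
  have hcs := trace_sq_le (ev K (W.take s)) (ev K (W.drop s))
  rw [← ev_append, ← hsplit, hWt] at hcs
  have m1 := hmax _ l1
  have m2 := hmax _ l2
  have n1 := hs_nonneg (ev K (W.take s))
  have n2 := hs_nonneg (ev K (W.drop s))
  have q1 : hs (ev K (W.take s)) = hs (ev K (P ++ Q)) := by
    refine le_antisymm m1 (le_of_not_gt fun h => ?_)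
    nlinarith
  have q2 : hs (ev K (W.drop s)) = hs (ev K (P ++ Q)) := by
    refine le_antisymm m2 (le_of_not_gt fun h => ?_)
    nlinarith
  by_cases hlt : df (W.take s) < k
  · rw [← q1]
    exact ih _ hlt _ l1 rfl (fun v hv => q1 ▸ hmax v hv) (q1 ▸ hpos)
  · rw [← q2]
    exact ih _ (by omega) _ l2 rfl (fun v hv => q2 ▸ hmax v hv) (q2 ▸ hpos)

theorem exists_alt (s : ℕ) : ∃ l : List Bool, l.length = s ∧ df l = 0 := by
  induction s with
  | zero => exact ⟨[], rfl, rfl⟩
  | succ s ih =>
    obtain ⟨l, hl, hd⟩ := ih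
    cases l with
    | nil => exact ⟨[true], by simp [← hl], rfl⟩
    | cons b l =>
      refine ⟨(!b) :: b :: l, by simp [← hl], ?_⟩
      rw [df_cons_cons, hd]
      cases b <;> simp

theorem hs_le (K : Matrix X X ℝ) (v : List Bool) : hs (ev K v) ≤ ((Kᵀ * K) ^ v.length).trace := by
  obtain ⟨u, hu, hmax⟩ := Set.exists_max_image {l : List Bool | l.length = v.length}
    (fun l => hs (ev K l)) (List.finite_length_eq Bool _) ⟨v, rfl⟩
  refine (hmax v rfl).trans ?_
  rcases (hs_nonneg (ev K u)).eq_or_lt with h | h
  · obtain ⟨l, hl, hd⟩ := exists_alt v.length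
    rw [← h, ← hl, ← hs_alt K l hd]
    exact hs_nonneg _
  · exact (max_eq K _ _ u hu rfl hmax h).le

theorem ev_replicate (K : Matrix X X ℝ) (s : ℕ) : ev K (List.replicate s true) = K ^ s := by
  simp [ev, lt]

theorem sub_pow {R : Type*} [Ring R] {A J : R} (h1 : A * J = J) (h2 : J * A = J) (h3 : J * J = J)
    (s : ℕ) : (A - J) ^ (s + 1) = A ^ (s + 1) - J ∧ A ^ (s + 1) * J = J := by
  induction s with
  | zero => simpa using h1
  | succ s ih =>
    refine ⟨?_, by rw [pow_succ, mul_assoc, h1, ih.2]⟩
    rw [pow_succ, ih.1, sub_mul, mul_sub, mul_sub, ih.2, h2, h3, ← pow_succ]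
    abel

end Dyson

theorem dysonStmt : DysonStmt := by
  intro X _ _ K s
  have := Dyson.hs_le K (List.replicate s true)
  rw [Dyson.ev_replicate, List.length_replicate, Dyson.hs, trace_mul_comm] at this
  exact this

theorem hsStmt : HSStmt := by
  intro D s hs
  obtain ⟨s, rfl⟩ : ∃ r, s = r + 1 := ⟨s - 1, by omega⟩
  set J : Matrix (Grp D) (Grp D) ℝ := Matrix.of fun _ _ => 1 / (Fintype.card (Grp D) : ℝ) with hJ
  have hc : (Fintype.card (Grp D) : ℝ) ≠ 0 := by exact_mod_cast Fintype.card_ne_zero
  have hP : ∀ i, Pn D (Grp D) i * J = J ∧ J * Pn D (Grp D) i = J := by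
    intro i
    unfold Pn
    split_ifs
    · constructor
      · ext x y; rw [Pm_mul_apply]; simp [hJ]
      · ext x y; rw [mul_Pm_apply]; simp [hJ]
    · simp
  have hK : ∀ i, Kmat D (Grp D) i * J = J ∧ J * Kmat D (Grp D) i = J := by
    intro i
    induction i with
    | zero => simp [Kmat_zero]
    | succ i ih =>
      rw [Kmat_succ, Matrix.mul_assoc, (hP i).1, ih.1, ← Matrix.mul_assoc, ih.2, (hP i).2]
      exact ⟨rfl, rfl⟩
  have hJJ : J * J = J := by
    ext x y
    simp only [hJ, mul_apply, of_apply, Finset.sum_const, Finset.card_univ, nsmul_eq_mul]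
    field_simp
  have hJt : Jᵀ = J := by ext x y; simp [hJ]
  have htr : J.trace = 1 := by
    simp only [hJ, trace, Matrix.diag, of_apply, Finset.sum_const, Finset.card_univ, nsmul_eq_mul]
    field_simp
  set K := Kmat D (Grp D) D with hKdef
  have k1 : K * J = J := (hK D).1
  have k2 : J * K = J := (hK D).2
  have k3 : Kᵀ * J = J := by
    have := congrArg transpose k2
    rwa [transpose_mul, hJt] at this
  have k4 : J * Kᵀ = J := by
    have := congrArg transpose k1
    rwa [transpose_mul, hJt] at this
  have e1 : (K - J)ᵀ * (K - J) = Kᵀ * K - J := by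
    rw [transpose_sub, hJt, sub_mul, mul_sub, mul_sub, k3, k2, hJJ]; abel
  have e2 := (Dyson.sub_pow k1 k2 hJJ s).1
  have e3 := (Dyson.sub_pow (A := Kᵀ * K) (J := J) (by rw [Matrix.mul_assoc, k1, k3])
    (by rw [← Matrix.mul_assoc, k4, k2]) hJJ s).1
  have h := dysonStmt _ (K - J) (s + 1)
  rw [e1, e2, e3, trace_sub, htr, trace_mul_comm] at h
  have h2 := Dyson.hs_eq (K ^ (s + 1) - J)
  rw [Dyson.hs, Fintype.sum_prod_type] at h2
  rw [h2] at h
  simpa [hJ, Bmat] using h

end Crest.Agent.R155
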