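import Crest.Agent.R155.Basic

/-!
# Row 155, part C1: the Kraft inequality
-/

set_option autoImplicit false

namespace Crest.Agent.R155

open Finset
open scoped BigOperators

namespace Kraft

variable {D : ℕ}

theorem mem_path {ω : Om D} {a J : ℕ} {u : Pos D} {k : Fin D × Pos D} :
    k ∈ path ω a J u ↔
      a ≤ k.1.val ∧ k.1.val < a + J ∧ k.2 = zer k.1 (bwin ω a (k.1.val - a) u) := by
  simp [path]

/-! ### locality -/

theorem bwin_local {ω ω' : Om D} {a J : ℕ} {u : Pos D}
    (h : ∀ k ∈ path ω a J u, ω' k = ω k) : ∀ s, s ≤ J → bwin ω' a s u = bwin ω a s u := by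
  intro s
  induction s with
  | zero => intro _; rfl
  | succ s ih =>
    intro hs
    rw [bwin_succ, bwin_succ, Equiv.Perm.mul_apply, Equiv.Perm.mul_apply, ih (by omega)]
    unfold lay
    split_ifs with hi
    · apply sw_congr
      apply h
      rw [mem_path]
      refine ⟨by simp, by simp; omega, ?_⟩
      simp
    · rfl

theorem path_local {ω ω' : Om D} {a J : ℕ} {u : Pos D}
    (h : ∀ k ∈ path ω a J u, ω' k = ω k) : path ω' a J u = path ω a J u := by
  ext k
  rw [mem_path, mem_path]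
  constructor
  · rintro ⟨h1, h2, h3⟩
    exact ⟨h1, h2, by rw [h3, bwin_local h _ (by omega)]⟩
  · rintro ⟨h1, h2, h3⟩
    exact ⟨h1, h2, by rw [h3, bwin_local h _ (by omega)]⟩

theorem path_subset_expl (φ : Grp D) (ω : Om D) (a J : ℕ) (v : Pos D) {ℓ r : ℕ} (hr : r < ℓ) :
    path ω a J (((φ * bwin ω a J) ^ r) v) ⊆ expl φ ω a J v ℓ := by
  intro k hk
  exact Finset.mem_biUnion.2 ⟨r, Finset.mem_range.2 hr, hk⟩

theorem pow_local {φ : Grp D} {ω ω' : Om D} {a J : ℕ} {v : Pos D} {ℓ : ℕ}
    (h : ∀ k ∈ expl φ ω a J v ℓ, ω' k = ω k) :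
    ∀ r, r ≤ ℓ → ((φ * bwin ω' a J) ^ r) v = ((φ * bwin ω a J) ^ r) v := by
  intro r
  induction r with
  | zero => intro _; rfl
  | succ r ih =>
    intro hr
    rw [pow_succ', pow_succ', Equiv.Perm.mul_apply, Equiv.Perm.mul_apply _ _ v, ih (by omega),
      Equiv.Perm.mul_apply, Equiv.Perm.mul_apply,
      bwin_local (fun k hk => h k (path_subset_expl φ ω a J v (by omega) hk)) J le_rfl]

theorem path_pow_local {φ : Grp D} {ω ω' : Om D} {a J : ℕ} {v : Pos D} {ℓ : ℕ}
    (h : ∀ k ∈ expl φ ω a J v ℓ, ω' k = ω k) {r : ℕ} (hr : r < ℓ) :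
    path ω' a J (((φ * bwin ω' a J) ^ r) v) = path ω a J (((φ * bwin ω a J) ^ r) v) := by
  rw [pow_local h r hr.le]
  exact path_local fun k hk => h k (path_subset_expl φ ω a J v hr hk)

theorem expl_local {φ : Grp D} {ω ω' : Om D} {a J : ℕ} {v : Pos D} {ℓ : ℕ}
    (h : ∀ k ∈ expl φ ω a J v ℓ, ω' k = ω k) : expl φ ω' a J v ℓ = expl φ ω a J v ℓ := by
  unfold expl
  apply Finset.biUnion_congr rfl
  intro r hr
  exact path_pow_local h (Finset.mem_range.1 hr)

theorem expl_mono (φ : Grp D) (ω : Om D) (a J : ℕ) (v : Pos D) {ℓ ℓ' : ℕ} (h : ℓ ≤ ℓ') :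
    expl φ ω a J v ℓ ⊆ expl φ ω a J v ℓ' :=
  Finset.biUnion_subset_biUnion_of_subset_left _ (Finset.range_subset_range.2 h)

theorem expl_subset_before (φ : Grp D) (ω : Om D) (a J : ℕ) (rk lam : Pos D → ℕ) {v v' : Pos D}
    (h : rk v' < rk v) : expl φ ω a J v' (lam v') ⊆ before φ ω a J rk lam v := by
  intro k hk
  exact Finset.mem_union_left _ (Finset.mem_biUnion.2 ⟨v', by simpa using h, hk⟩)

theorem expl_subset_before' (φ : Grp D) (ω : Om D) (a J : ℕ) (rk lam : Pos D → ℕ) (v : Pos D) :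
    expl φ ω a J v (lam v - 1) ⊆ before φ ω a J rk lam v := Finset.subset_union_right

theorem before_subset_before (φ : Grp D) (ω : Om D) (a J : ℕ) (rk lam : Pos D → ℕ)
    {v v' : Pos D} (h : rk v' < rk v) : before φ ω a J rk lam v' ⊆ before φ ω a J rk lam v := by
  intro k hk
  rcases Finset.mem_union.1 hk with hk | hk
  · obtain ⟨v'', hv'', hk⟩ := Finset.mem_biUnion.1 hk
    exact expl_subset_before φ ω a J rk lam ((Finset.mem_filter.1 hv'').2.trans h) hk
  · exact expl_subset_before φ ω a J rk lam h (expl_mono φ ω a J v' (Nat.sub_le _ _) hk)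

theorem before_local {φ : Grp D} {ω ω' : Om D} {a J : ℕ} {rk lam : Pos D → ℕ} {v : Pos D}
    (h : ∀ k ∈ before φ ω a J rk lam v, ω' k = ω k) :
    before φ ω' a J rk lam v = before φ ω a J rk lam v := by
  have h1 : expl φ ω' a J v (lam v - 1) = expl φ ω a J v (lam v - 1) :=
    expl_local fun k hk => h k (expl_subset_before' φ ω a J rk lam v hk)
  unfold before
  rw [h1]
  congr 1
  apply Finset.biUnion_congr rfl
  intro v' hv'
  exact expl_local fun k hk =>
    h k (expl_subset_before φ ω a J rk lam (Finset.mem_filter.1 hv').2 hk)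

/-- the factor of `v` in the Kraft weight -/
def fac (φ : Grp D) (ω : Om D) (a J : ℕ) (rk lam : Pos D → ℕ) (v : Pos D) : ℝ :=
  if lam v = 0 then 1 else
    if ((φ * bwin ω a J) ^ lam v) v = v then
      (2 : ℝ) ^ (path ω a J (((φ * bwin ω a J) ^ (lam v - 1)) v) \ before φ ω a J rk lam v).card
    else 0

theorem fac_nonneg (φ : Grp D) (ω : Om D) (a J : ℕ) (rk lam : Pos D → ℕ) (v : Pos D) :
    0 ≤ fac φ ω a J rk lam v := by
  unfold fac
  split_ifs <;> positivity

theorem fac_local {φ : Grp D} {ω ω' : Om D} {a J : ℕ} {rk lam : Pos D → ℕ} {v v' : Pos D}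
    (h : ∀ k ∈ before φ ω a J rk lam v, ω' k = ω k) (hv : rk v' < rk v) :
    fac φ ω' a J rk lam v' = fac φ ω a J rk lam v' := by
  have h1 : ∀ k ∈ expl φ ω a J v' (lam v'), ω' k = ω k := fun k hk =>
    h k (expl_subset_before φ ω a J rk lam hv hk)
  have h2 : before φ ω' a J rk lam v' = before φ ω a J rk lam v' :=
    before_local fun k hk => h k (before_subset_before φ ω a J rk lam hv hk)
  unfold fac
  by_cases h0 : lam v' = 0
  · simp [h0]
  · rw [if_neg h0, if_neg h0, pow_local h1 _ le_rfl, h2, path_pow_local h1 (by omega)]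

/-! ### the last path -/

theorem expect_ind {K : Type} [Fintype K] [DecidableEq K] (S : Finset K) (val : K → Bool) :
    (𝔼 ω : K → Bool, if ∀ k ∈ S, ω k = val k then (2 : ℝ) ^ S.card else 0) = 1 := by
  have h1 : ∀ ω : K → Bool, (if ∀ k ∈ S, ω k = val k then (2 : ℝ) ^ S.card else 0)
      = ∏ k : K, if k ∈ S then (if ω k = val k then (2 : ℝ) else 0) else 1 := by
    intro ω
    rw [Finset.prod_ite_mem, Finset.univ_inter]
    split_ifs with h
    · rw [← Finset.prod_const]
      exact Finset.prod_congr rfl fun k hk => by rw [if_pos (h k hk)]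
    · push Not at h
      obtain ⟨k, hk, hne⟩ := h
      exact (Finset.prod_eq_zero hk (by rw [if_neg hne])).symm
  simp_rw [h1]
  rw [Finset.expect_eq_sum_div_card, ← Fintype.piFinset_univ,
    ← Finset.prod_univ_sum (fun _ : K => (univ : Finset Bool))
      (fun k b => if k ∈ S then (if b = val k then (2 : ℝ) else 0) else 1)]
  have h2 : ∀ k : K, (∑ b : Bool, if k ∈ S then (if b = val k then (2 : ℝ) else 0) else 1) = 2 := by
    intro k
    by_cases hk : k ∈ S
    · simp [hk]
    · simp [hk]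
  simp_rw [h2]
  simp

/-- the path forced by the entry `u` and the exit `w` -/
def mid (a s : ℕ) (u w : Pos D) : Pos D := fun t => if a ≤ t.val ∧ t.val < a + s then w t else u t

theorem bwin_eq_mid {ν : Om D} {a J : ℕ} {u w : Pos D} (h : bwin ν a J u = w) {s : ℕ}
    (hs : s ≤ J) : bwin ν a s u = mid a s u w := by
  funext t
  unfold mid
  split_ifs with ht
  · obtain ⟨r, rfl⟩ := Nat.exists_eq_add_of_le hs
    rw [← h, bwin_add, Equiv.Perm.mul_apply, bwin_apply_of_not_mem ν (a + s) r _ (Or.inl ht.2)]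
  · exact bwin_apply_of_not_mem ν a s u (by omega)

/-- the forced set of switches -/
def path0 (a J : ℕ) (u w : Pos D) : Finset (Fin D × Pos D) :=
  univ.filter fun k => a ≤ k.1.val ∧ k.1.val < a + J ∧ k.2 = zer k.1 (mid a (k.1.val - a) u w)

theorem path_eq_path0 {ν : Om D} {a J : ℕ} {u w : Pos D} (h : bwin ν a J u = w) :
    path ν a J u = path0 a J u w := by
  unfold path path0
  apply Finset.filter_congr
  intro k _
  constructor
  · rintro ⟨h1, h2, h3⟩
    exact ⟨h1, h2, by rw [h3, bwin_eq_mid h (by omega)]⟩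
  · rintro ⟨h1, h2, h3⟩
    exact ⟨h1, h2, by rw [h3, bwin_eq_mid h (by omega)]⟩

theorem val_forced {ν : Om D} {a J : ℕ} {u w : Pos D} (h : bwin ν a J u = w)
    {k : Fin D × Pos D} (hk : k ∈ path ν a J u) : ν k = xor (u k.1) (w k.1) := by
  obtain ⟨t, p⟩ := k
  obtain ⟨h1, h2, h3⟩ := mem_path.1 hk
  simp only at h1 h2 h3 ⊢
  have e1 := congrFun (bwin_eq_mid h (s := t.val - a + 1) (by omega)) t
  have e2 : bwin ν a (t.val - a) u t = u t := bwin_apply_of_not_mem ν a _ u (by omega)
  rw [bwin_succ, Equiv.Perm.mul_apply, show a + (t.val - a) = t.val by omega, lay_of_lt,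
    sw_apply_self, ← h3, e2] at e1
  unfold mid at e1
  rw [if_pos ⟨h1, by omega⟩] at e1
  rw [← e1]
  cases u t <;> cases ν (t, p) <;> rfl

theorem last_path (Q : Finset (Fin D × Pos D)) (ω : Om D) (a J : ℕ) (u w : Pos D) :
    (𝔼 ω' : Om D, if bwin (mix Q ω ω') a J u = w then
      (2 : ℝ) ^ (path (mix Q ω ω') a J u \ Q).card else 0) ≤ 1 := by
  rw [← expect_ind (path0 a J u w \ Q) (fun k => xor (u k.1) (w k.1))]
  apply Finset.expect_le_expect
  intro ω' _
  split_ifs with h1 h2 h2
  · rw [path_eq_path0 h1]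
  · exfalso
    apply h2
    intro k hk
    obtain ⟨hk1, hk2⟩ := Finset.mem_sdiff.1 hk
    rw [← path_eq_path0 h1] at hk1
    rw [← val_forced h1 hk1, mix_of_not_mem hk2]
  · positivity
  · exact le_rfl

/-! ### the induction -/

/-- the partial Kraft weight -/
def part (φ : Grp D) (ω : Om D) (a J : ℕ) (rk lam : Pos D → ℕ) (N : ℕ) : ℝ :=
  ∏ v ∈ univ.filter (fun v => rk v < N), fac φ ω a J rk lam v

theorem part_nonneg (φ : Grp D) (ω : Om D) (a J : ℕ) (rk lam : Pos D → ℕ) (N : ℕ) :
    0 ≤ part φ ω a J rk lam N := Finset.prod_nonneg fun v _ => fac_nonneg φ ω a J rk lam v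

theorem part_step (φ : Grp D) (a J : ℕ) (rk lam : Pos D → ℕ) (v : Pos D) :
    (𝔼 ω : Om D, part φ ω a J rk lam (rk v) * fac φ ω a J rk lam v)
      ≤ 𝔼 ω : Om D, part φ ω a J rk lam (rk v) := by
  by_cases h0 : lam v = 0
  · simp [fac, h0]
  rw [← expect_mix_stop (fun ω => before φ ω a J rk lam v) (fun ω ω' h => before_local h)]
  apply Finset.expect_le_expect
  intro ω _
  set Q := before φ ω a J rk lam v with hQ
  have hag : ∀ ω' : Om D, ∀ k ∈ before φ ω a J rk lam v, mix Q ω ω' k = ω k :=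
    fun ω' k hk => mix_of_mem hk
  have h1 : ∀ ω' : Om D, part φ (mix Q ω ω') a J rk lam (rk v) = part φ ω a J rk lam (rk v) := by
    intro ω'
    exact Finset.prod_congr rfl fun v' hv' => fac_local (hag ω') (Finset.mem_filter.1 hv').2
  have h2 : ∀ ω' : Om D, fac φ (mix Q ω ω') a J rk lam v =
      if bwin (mix Q ω ω') a J (((φ * bwin ω a J) ^ (lam v - 1)) v) = φ⁻¹ v then
        (2 : ℝ) ^ (path (mix Q ω ω') a J (((φ * bwin ω a J) ^ (lam v - 1)) v) \ Q).card
      else 0 := by
    intro ω'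
    have e1 : ((φ * bwin (mix Q ω ω') a J) ^ (lam v - 1)) v
        = ((φ * bwin ω a J) ^ (lam v - 1)) v :=
      pow_local (fun k hk => hag ω' k (expl_subset_before' φ ω a J rk lam v hk)) _ le_rfl
    have e2 : ((φ * bwin (mix Q ω ω') a J) ^ lam v) v
        = φ (bwin (mix Q ω ω') a J (((φ * bwin ω a J) ^ (lam v - 1)) v)) := by
      rw [← e1, ← Equiv.Perm.mul_apply φ, ← Equiv.Perm.mul_apply, ← pow_succ',
        Nat.sub_add_cancel (by omega)]
    unfold fac
    rw [if_neg h0, e2, e1, before_local (hag ω')]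
    congr 1
    exact propext (Equiv.Perm.eq_inv_iff_eq).symm
  simp_rw [h1, h2]
  rw [← Finset.mul_expect]
  exact mul_le_of_le_one_right (part_nonneg φ ω a J rk lam _) (last_path Q ω a J _ _)

theorem part_le (φ : Grp D) (a J : ℕ) (rk lam : Pos D → ℕ) (hrk : Function.Injective rk) (N : ℕ) :
    (𝔼 ω : Om D, part φ ω a J rk lam N) ≤ 1 := by
  induction N with
  | zero => simp [part]
  | succ N ih =>
    by_cases h : ∃ v, rk v = N
    · obtain ⟨v, rfl⟩ := h
      refine le_trans (le_of_eq ?_) ((part_step φ a J rk lam v).trans ih)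
      refine Finset.expect_congr rfl fun ω _ => ?_
      unfold part
      have : (univ.filter fun v' => rk v' < rk v + 1)
          = insert v (univ.filter fun v' => rk v' < rk v) := by
        ext v'
        simp only [Finset.mem_filter, Finset.mem_univ, true_and, Finset.mem_insert]
        constructor
        · intro h1
          by_cases h2 : rk v' = rk v
          · exact Or.inl (hrk h2)
          · right; omega
        · rintro (rfl | h1) <;> omega
      rw [this, Finset.prod_insert (by simp), mul_comm]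
    · push Not at h
      refine le_trans (le_of_eq ?_) ih
      refine Finset.expect_congr rfl fun ω _ => ?_
      unfold part
      congr 1
      apply Finset.filter_congr
      intro v _
      have := h v
      omega

end Kraft

open Kraft in
theorem kraftStmt : KraftStmt := by
  intro D a J φ rk lam hrk
  refine le_trans (le_of_eq ?_) (part_le φ a J rk lam hrk (univ.sup rk + 1))
  refine Finset.expect_congr rfl fun ω _ => ?_
  unfold part kraftW
  rw [Finset.filter_true_of_mem]
  · rfl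
  · intro v hv
    exact Nat.lt_succ_of_le (Finset.le_sup hv)

end Crest.Agent.R155
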