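import Crest.Agent.R155.Basic

/-!
# Row 155, part C2: few short cycles (`LemmaK`) from the Kraft inequality
-/

set_option autoImplicit false

namespace Crest.Agent.R155

open Finset
open scoped BigOperators

namespace LK

variable {D : ℕ}

/-! ### partners and closers -/

/-- `w` meets `u` at layer `t` -/
def Meet (ω : Om D) (a : ℕ) (t : Fin D) (w u : Pos D) : Prop :=
  zer t (bwin ω a (t.val - a) w) = zer t (bwin ω a (t.val - a) u)

instance (ω : Om D) (a : ℕ) (t : Fin D) (w u : Pos D) : Decidable (Meet ω a t w u) := by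
  unfold Meet; infer_instance

theorem meet_hi {ω : Om D} {a : ℕ} {t : Fin D} {w u : Pos D} (ha : a ≤ t.val)
    (h : Meet ω a t w u) {t' : Fin D} (ht : t.val < t'.val) : w t' = u t' := by
  have h1 := (zer_eq_iff t _ _).1 h t' (fun e => by rw [e] at ht; omega)
  rwa [bwin_apply_of_not_mem ω a _ w (by omega), bwin_apply_of_not_mem ω a _ u (by omega)] at h1

theorem meet_flp {ω : Om D} {a : ℕ} {t : Fin D} {w u : Pos D}
    (h : Meet ω a t w u) (hne : w ≠ u) :
    bwin ω a (t.val - a) w = flp t (bwin ω a (t.val - a) u) := by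
  rcases eq_or_flp_of_zer_eq h with h1 | h1
  · exact absurd ((bwin ω a (t.val - a)).injective h1) hne
  · exact h1

theorem meet_bit {ω : Om D} {a : ℕ} {t : Fin D} {w u : Pos D} (ha : a ≤ t.val)
    (h : Meet ω a t w u) (hne : w ≠ u) : w t ≠ u t := by
  have h1 := congrFun (meet_flp h hne) t
  rw [flp_apply_self, bwin_apply_of_not_mem ω a _ w (by omega),
    bwin_apply_of_not_mem ω a _ u (by omega)] at h1
  rw [h1]
  cases u t <;> simp

theorem meet_unique {ω : Om D} {a : ℕ} {t : Fin D} {w w' u : Pos D}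
    (h : Meet ω a t w u) (hne : w ≠ u) (h' : Meet ω a t w' u) (hne' : w' ≠ u) : w = w' :=
  (bwin ω a (t.val - a)).injective ((meet_flp h hne).trans (meet_flp h' hne').symm)

/-- the layers among the first `s` at which the partner of `u` lies in `C` -/
def intl (ω : Om D) (a s : ℕ) (u : Pos D) (C : Finset (Pos D)) : Finset (Fin D) :=
  univ.filter fun t : Fin D => a ≤ t.val ∧ t.val < a + s ∧ ∃ w ∈ C, w ≠ u ∧ Meet ω a t w u

theorem closer_exists (ω : Om D) (a s : ℕ) : ∀ C : Finset (Pos D), C.Nonempty →
    ∃ u ∈ C, 2 ^ (intl ω a s u C).card ≤ C.card := by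
  induction s with
  | zero =>
    intro C hC
    obtain ⟨u, hu⟩ := hC
    refine ⟨u, hu, ?_⟩
    have : intl ω a 0 u C = ∅ := by
      unfold intl
      apply Finset.filter_false_of_mem
      intro t _ h
      omega
    rw [this]
    exact Finset.card_pos.mpr ⟨u, hu⟩
  | succ s ih =>
    intro C hC
    by_cases hD : a + s < D
    · set t0 : Fin D := ⟨a + s, hD⟩ with ht0
      have ht0v : t0.val = a + s := rfl
      by_cases hall : ∀ w ∈ C, ∀ u ∈ C, w t0 = u t0
      · obtain ⟨u, hu, h⟩ := ih C hC
        refine ⟨u, hu, le_trans (Nat.pow_le_pow_right (by norm_num) (Finset.card_le_card ?_)) h⟩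
        intro t ht
        simp only [intl, Finset.mem_filter, Finset.mem_univ, true_and] at ht ⊢
        obtain ⟨h1, h2, w, hw, hne, hm⟩ := ht
        refine ⟨h1, ?_, w, hw, hne, hm⟩
        by_contra h3
        have : t = t0 := Fin.ext (by omega)
        subst this
        exact meet_bit h1 hm hne (hall w hw u hu)
      · push Not at hall
        obtain ⟨w0, hw0, u0, hu0, hne0⟩ := hall
        have hsum : (C.filter fun x => x t0 = true).card + (C.filter fun x => x t0 = false).card
            = C.card := by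
          have := Finset.card_filter_add_card_filter_not (s := C) (fun x => x t0 = true)
          simpa using this
        have hne : ∀ b : Bool, (C.filter fun x => x t0 = b).Nonempty := by
          intro b
          by_cases hb : w0 t0 = b
          · exact ⟨w0, Finset.mem_filter.2 ⟨hw0, hb⟩⟩
          · refine ⟨u0, Finset.mem_filter.2 ⟨hu0, ?_⟩⟩
            revert hne0 hb
            cases w0 t0 <;> cases u0 t0 <;> cases b <;> simp
        obtain ⟨b, hb⟩ : ∃ b : Bool, 2 * (C.filter fun x => x t0 = b).card ≤ C.card := by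
          by_cases h : (C.filter fun x => x t0 = true).card ≤ (C.filter fun x => x t0 = false).card
          · exact ⟨true, by omega⟩
          · exact ⟨false, by omega⟩
        obtain ⟨u, hu, h⟩ := ih _ (hne b)
        rw [Finset.mem_filter] at hu
        refine ⟨u, hu.1, ?_⟩
        have hsub : intl ω a (s + 1) u C ⊆ insert t0 (intl ω a s u (C.filter fun x => x t0 = b)) := by
          intro t ht
          simp only [intl, Finset.mem_filter, Finset.mem_univ, true_and, Finset.mem_insert] at ht ⊢
          obtain ⟨h1, h2, w, hw, hne', hm⟩ := ht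
          by_cases h3 : t = t0
          · exact Or.inl h3
          · right
            have h4 : t.val < a + s := by
              have : t.val ≠ t0.val := fun e => h3 (Fin.ext e)
              omega
            refine ⟨h1, h4, w, ⟨hw, ?_⟩, hne', hm⟩
            rw [meet_hi h1 hm (t' := t0) (by omega)]
            exact hu.2
        have hc := (Finset.card_le_card hsub).trans (Finset.card_insert_le _ _)
        calc 2 ^ (intl ω a (s + 1) u C).card
            ≤ 2 ^ ((intl ω a s u (C.filter fun x => x t0 = b)).card + 1) :=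
              Nat.pow_le_pow_right (by norm_num) hc
          _ ≤ C.card := by rw [pow_succ]; omega
    · obtain ⟨u, hu, h⟩ := ih C hC
      refine ⟨u, hu, le_trans (Nat.pow_le_pow_right (by norm_num) (Finset.card_le_card ?_)) h⟩
      intro t ht
      simp only [intl, Finset.mem_filter, Finset.mem_univ, true_and] at ht ⊢
      obtain ⟨h1, h2, hw⟩ := ht
      exact ⟨h1, by have := t.isLt; omega, hw⟩

theorem mem_path {ω : Om D} {a J : ℕ} {u : Pos D} {k : Fin D × Pos D} :
    k ∈ path ω a J u ↔
      a ≤ k.1.val ∧ k.1.val < a + J ∧ k.2 = zer k.1 (bwin ω a (k.1.val - a) u) := by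
  simp [path]

theorem card_path (ω : Om D) {a J : ℕ} (h : a + J ≤ D) (u : Pos D) :
    J ≤ (path ω a J u).card := by
  have : (Finset.univ : Finset (Fin J)).card ≤ (path ω a J u).card := by
    apply Finset.card_le_card_of_injOn
      (fun r : Fin J => ((⟨a + r.val, by have := r.isLt; omega⟩ : Fin D),
        zer ⟨a + r.val, by have := r.isLt; omega⟩ (bwin ω a r.val u)))
    · intro r _
      have := r.isLt
      simp only [Finset.mem_coe, mem_path]
      refine ⟨by omega, by omega, ?_⟩
      simp
    · intro r _ r' _ e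
      have := congrArg (fun k : Fin D × Pos D => k.1.val) e
      simp only at this
      exact Fin.ext (by omega)
  simpa using this

theorem card_le_intl (ω : Om D) (a J : ℕ) (u : Pos D) (C : Finset (Pos D))
    (Q : Finset (Fin D × Pos D)) (hQ : Q ⊆ path ω a J u)
    (h : ∀ k ∈ Q, ∃ w ∈ C, w ≠ u ∧ k ∈ path ω a J w) : Q.card ≤ (intl ω a J u C).card := by
  apply Finset.card_le_card_of_injOn (fun k => k.1)
  · intro k hk
    obtain ⟨w, hw, hne, hk'⟩ := h k hk
    have h1 := mem_path.1 (hQ hk)
    have h2 := mem_path.1 hk'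
    simp only [intl, Finset.coe_filter, Finset.mem_univ, true_and, Set.mem_ofPred_eq]
    exact ⟨h1.1, h1.2.1, w, hw, hne, h2.2.2.symm.trans h1.2.2⟩
  · intro k hk k' hk' e
    have h1 := mem_path.1 (hQ hk)
    have h2 := mem_path.1 (hQ hk')
    simp only at e
    refine Prod.ext e ?_
    rw [h1.2.2, h2.2.2, e]

/-! ### orbits -/

/-- the orbit of `u` -/
def orb (π : Grp D) (u : Pos D) : Finset (Pos D) := univ.filter fun w => π.SameCycle u w

theorem mem_orb {π : Grp D} {u w : Pos D} : w ∈ orb π u ↔ π.SameCycle u w := by simp [orb]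

theorem self_mem_orb (π : Grp D) (u : Pos D) : u ∈ orb π u :=
  mem_orb.2 (Equiv.Perm.SameCycle.refl _ _)

theorem orb_eq_of_mem {π : Grp D} {u w : Pos D} (h : w ∈ orb π u) : orb π w = orb π u := by
  ext x
  rw [mem_orb] at h
  rw [mem_orb, mem_orb]
  exact ⟨fun h' => h.trans h', fun h' => h.symm.trans h'⟩

theorem pow_mem_orb (π : Grp D) (u : Pos D) (r : ℕ) : (π ^ r) u ∈ orb π u :=
  mem_orb.2 ⟨r, by simp⟩

theorem apply_mem_orb {π : Grp D} {u w : Pos D} (h : w ∈ orb π u) : π w ∈ orb π u := by
  have := pow_mem_orb π w 1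
  rw [orb_eq_of_mem h] at this
  simpa using this

theorem minimalPeriod_pos (π : Grp D) (u : Pos D) : 0 < Function.minimalPeriod π u := by
  apply Function.minimalPeriod_pos_of_mem_periodicPts
  refine ⟨orderOf π, orderOf_pos π, ?_⟩
  change π^[orderOf π] u = u
  rw [← Equiv.Perm.coe_pow, pow_orderOf_eq_one]
  rfl

theorem orb_eq_image (π : Grp D) (u : Pos D) :
    orb π u = (range (Function.minimalPeriod π u)).image fun r => (π ^ r) u := by
  ext w
  rw [Finset.mem_image]
  constructor
  · intro h
    obtain ⟨i, -, hi⟩ := (mem_orb.1 h).exists_pow_eq'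
    refine ⟨i % Function.minimalPeriod π u,
      Finset.mem_range.2 (Nat.mod_lt _ (minimalPeriod_pos π u)), ?_⟩
    rw [Equiv.Perm.coe_pow, Function.iterate_mod_minimalPeriod_eq, ← Equiv.Perm.coe_pow, hi]
  · rintro ⟨r, -, rfl⟩
    exact pow_mem_orb π u r

theorem pow_injOn (π : Grp D) (u : Pos D) {r r' : ℕ} (hr : r < Function.minimalPeriod π u)
    (hr' : r' < Function.minimalPeriod π u) (e : (π ^ r) u = (π ^ r') u) : r = r' := by
  rw [Equiv.Perm.coe_pow, Equiv.Perm.coe_pow] at e
  exact Function.iterate_injOn_Iio_minimalPeriod hr hr' e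

theorem card_orb (π : Grp D) (u : Pos D) : (orb π u).card = Function.minimalPeriod π u := by
  rw [orb_eq_image, Finset.card_image_of_injOn, Finset.card_range]
  intro r hr r' hr' e
  exact pow_injOn π u (by simpa using hr) (by simpa using hr') e

theorem card_orb_pos (π : Grp D) (u : Pos D) : 0 < (orb π u).card :=
  Finset.card_pos.2 ⟨u, self_mem_orb π u⟩

theorem pow_card_orb (π : Grp D) (u : Pos D) : (π ^ (orb π u).card) u = u := by
  rw [card_orb, Equiv.Perm.coe_pow]
  exact Function.iterate_minimalPeriod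

theorem orb_subset_of_closed {π : Grp D} {S : Finset (Pos D)} (hS : ∀ u ∈ S, π u ∈ S) {u : Pos D}
    (hu : u ∈ S) : orb π u ⊆ S := by
  intro w hw
  obtain ⟨i, -, rfl⟩ := (mem_orb.1 hw).exists_pow_eq'
  clear hw
  induction i with
  | zero => simpa using hu
  | succ i ih => rw [pow_succ', Equiv.Perm.mul_apply]; exact hS _ ih

/-! ### counting closed sets -/

section count
variable (π : Grp D) (cl : Finset (Pos D) → Pos D)

/-- starts of orbits inside `T` -/
def starts (T : Finset (Pos D)) : Finset (Pos D) :=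
  univ.filter fun v => v = π (cl (orb π v)) ∧ orb π v ⊆ T

variable {π cl}

theorem starts_eq {T : Finset (Pos D)} {v v' : Pos D} (hv : v ∈ starts π cl T)
    (hv' : v' ∈ starts π cl T) (e : orb π v = orb π v') : v = v' := by
  simp only [starts, Finset.mem_filter, Finset.mem_univ, true_and] at hv hv'
  calc v = π (cl (orb π v)) := hv.1
    _ = π (cl (orb π v')) := by rw [e]
    _ = v' := hv'.1.symm

theorem ninv_le (hcl : ∀ C : Finset (Pos D), C.Nonempty → cl C ∈ C) (T : Finset (Pos D)) :
    ninv π T ≤ 2 ^ (starts π cl T).card := by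
  rw [← Finset.card_powerset]
  unfold ninv
  have key : ∀ S S' : Finset (Pos D), S ⊆ T → (∀ u ∈ S, π u ∈ S) → (∀ u ∈ S', π u ∈ S') →
      S ∩ starts π cl T = S' ∩ starts π cl T → S ⊆ S' := by
    intro S S' hT hS hS' e u hu
    have h1 : π (cl (orb π u)) ∈ orb π u := apply_mem_orb (hcl _ ⟨u, self_mem_orb π u⟩)
    have h2 := orb_eq_of_mem h1
    have h3 : π (cl (orb π u)) ∈ S ∩ starts π cl T := by
      refine Finset.mem_inter.2 ⟨orb_subset_of_closed hS hu h1, ?_⟩
      simp only [starts, Finset.mem_filter, Finset.mem_univ, true_and]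
      rw [h2]
      exact ⟨rfl, (orb_subset_of_closed hS hu).trans hT⟩
    rw [e] at h3
    have h4 := orb_subset_of_closed hS' (Finset.mem_inter.1 h3).1
    rw [h2] at h4
    exact h4 (self_mem_orb π u)
  apply Finset.card_le_card_of_injOn (fun S => S ∩ starts π cl T)
  · intro S _
    simp
  · intro S hS S' hS' e
    simp only [Finset.coe_filter, Finset.mem_powerset, Set.mem_ofPred_eq] at hS hS'
    exact Finset.Subset.antisymm (key S S' hS.1 hS.2 hS'.2 e) (key S' S hS'.1 hS'.2 hS.2 e.symm)

theorem long_le (T : Finset (Pos D)) (L : ℕ) :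
    ((starts π cl T).filter fun v => ¬ (orb π v).card ≤ L).card * L ≤ T.card := by
  set A := (starts π cl T).filter fun v => ¬ (orb π v).card ≤ L with hA
  have hdisj : (A : Set (Pos D)).PairwiseDisjoint (orb π) := by
    intro v hv v' hv' hne
    rw [Function.onFun, Finset.disjoint_left]
    intro w hw hw'
    exact hne (starts_eq (Finset.mem_filter.1 hv).1 (Finset.mem_filter.1 hv').1
      ((orb_eq_of_mem hw).symm.trans (orb_eq_of_mem hw')))
  have h1 : (A.biUnion (orb π)).card ≤ T.card := by
    apply Finset.card_le_card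
    intro w hw
    obtain ⟨v, hv, hw⟩ := Finset.mem_biUnion.1 hw
    have := (Finset.mem_filter.1 hv).1
    simp only [starts, Finset.mem_filter, Finset.mem_univ, true_and] at this
    exact this.2 hw
  rw [Finset.card_biUnion hdisj] at h1
  refine le_trans ?_ h1
  rw [← smul_eq_mul]
  apply Finset.card_nsmul_le_sum
  intro v hv
  have := (Finset.mem_filter.1 hv).2
  omega

end count

/-! ### the program and the two orders -/

section prog
variable (φ : Grp D) (ω : Om D) (a J L : ℕ) (cl : Finset (Pos D) → Pos D) (T : Finset (Pos D))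

/-- starts of the short orbits inside `T` -/
def shorts : Finset (Pos D) :=
  (starts (φ * bwin ω a J) cl T).filter fun v => (orb (φ * bwin ω a J) v).card ≤ L

/-- the program -/
def prog (v : Pos D) : ℕ :=
  if v ∈ shorts φ ω a J L cl T then (orb (φ * bwin ω a J) v).card else 0

variable {φ ω a J L cl T}

theorem prog_of_mem {v : Pos D} (h : v ∈ shorts φ ω a J L cl T) :
    prog φ ω a J L cl T v = (orb (φ * bwin ω a J) v).card := by simp [prog, h]

theorem prog_of_not_mem {v : Pos D} (h : v ∉ shorts φ ω a J L cl T) :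
    prog φ ω a J L cl T v = 0 := by simp [prog, h]

theorem last_eq {v : Pos D} (h : v ∈ shorts φ ω a J L cl T) :
    ((φ * bwin ω a J) ^ ((orb (φ * bwin ω a J) v).card - 1)) v = cl (orb (φ * bwin ω a J) v) := by
  set π := φ * bwin ω a J with hπ
  have h1 := (Finset.mem_filter.1 h).1
  simp only [starts, Finset.mem_filter, Finset.mem_univ, true_and] at h1
  apply π.injective
  rw [← h1.1, ← Equiv.Perm.mul_apply, ← pow_succ', Nat.sub_add_cancel (card_orb_pos π v)]
  exact pow_card_orb π v

/-- a switch seen before the last path lies on the path of another explored input -/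
theorem before_cases {rk : Pos D → ℕ} {v : Pos D} (h : v ∈ shorts φ ω a J L cl T)
    {k : Fin D × Pos D} (hk : k ∈ before φ ω a J rk (prog φ ω a J L cl T) v) :
    ∃ w, k ∈ path ω a J w ∧
      ((w ∈ orb (φ * bwin ω a J) v ∧ w ≠ cl (orb (φ * bwin ω a J) v)) ∨
        ∃ v' ∈ shorts φ ω a J L cl T, rk v' < rk v ∧ w ∈ orb (φ * bwin ω a J) v') := by
  unfold before at hk
  rcases Finset.mem_union.1 hk with hk | hk
  · obtain ⟨v', hv', hk⟩ := Finset.mem_biUnion.1 hk
    unfold expl at hk
    obtain ⟨r, hr, hk⟩ := Finset.mem_biUnion.1 hk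
    refine ⟨_, hk, Or.inr ⟨v', ?_, (Finset.mem_filter.1 hv').2, pow_mem_orb _ _ _⟩⟩
    by_contra hn
    rw [prog_of_not_mem hn] at hr
    simp at hr
  · unfold expl at hk
    obtain ⟨r, hr, hk⟩ := Finset.mem_biUnion.1 hk
    refine ⟨_, hk, Or.inl ⟨pow_mem_orb _ _ _, ?_⟩⟩
    rw [prog_of_mem h, Finset.mem_range] at hr
    rw [← last_eq h]
    intro e
    have h0 := card_orb (φ * bwin ω a J) v
    have := pow_injOn _ v (by omega) (by omega) e
    omega

theorem free_add (hcl : ∀ C : Finset (Pos D), C.Nonempty → cl C ∈ C) (hJ : a + J ≤ D)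
    {rk rk' : Pos D → ℕ} (hrk : ∀ v v', rk v' < rk v → ¬ rk' v' < rk' v)
    {v : Pos D} (h : v ∈ shorts φ ω a J L cl T) :
    J ≤ (path ω a J (cl (orb (φ * bwin ω a J) v))
          \ before φ ω a J rk (prog φ ω a J L cl T) v).card
        + (path ω a J (cl (orb (φ * bwin ω a J) v))
          \ before φ ω a J rk' (prog φ ω a J L cl T) v).card
        + (intl ω a J (cl (orb (φ * bwin ω a J) v)) (orb (φ * bwin ω a J) v)).card := by
  set π := φ * bwin ω a J with hπ
  set u := cl (orb π v) with hu
  set B := before φ ω a J rk (prog φ ω a J L cl T) v with hB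
  set B' := before φ ω a J rk' (prog φ ω a J L cl T) v with hB'
  have huv : u ∈ orb π v := hcl _ ⟨v, self_mem_orb π v⟩
  have h1 : (path ω a J u ∩ B ∩ B').card ≤ (intl ω a J u (orb π v)).card := by
    apply card_le_intl ω a J u
    · intro k hk
      exact (Finset.mem_inter.1 (Finset.mem_inter.1 hk).1).1
    · intro k hk
      obtain ⟨hk1, hk3⟩ := Finset.mem_inter.1 hk
      obtain ⟨hk1, hk2⟩ := Finset.mem_inter.1 hk1
      obtain ⟨w, hw, hc⟩ := before_cases h hk2
      obtain ⟨w', hw', hc'⟩ := before_cases h hk3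
      rcases hc with hc | ⟨v1, hv1, hr1, hw1⟩
      · exact ⟨w, hc.1, hc.2, hw⟩
      rcases hc' with hc' | ⟨v2, hv2, hr2, hw2⟩
      · exact ⟨w', hc'.1, hc'.2, hw'⟩
      exfalso
      have hs := (Finset.mem_filter.1 h).1
      have hs1 := (Finset.mem_filter.1 hv1).1
      have hs2 := (Finset.mem_filter.1 hv2).1
      have hne1 : w ≠ u := by
        rintro rfl
        have := starts_eq hs1 hs ((orb_eq_of_mem hw1).symm.trans (orb_eq_of_mem huv))
        rw [this] at hr1
        omega
      have hne2 : w' ≠ u := by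
        rintro rfl
        have := starts_eq hs2 hs ((orb_eq_of_mem hw2).symm.trans (orb_eq_of_mem huv))
        rw [this] at hr2
        omega
      have m1 : Meet ω a k.1 w u := (mem_path.1 hw).2.2.symm.trans (mem_path.1 hk1).2.2
      have m2 : Meet ω a k.1 w' u := (mem_path.1 hw').2.2.symm.trans (mem_path.1 hk1).2.2
      have e := meet_unique m1 hne1 m2 hne2
      subst e
      have := starts_eq hs1 hs2 ((orb_eq_of_mem hw1).symm.trans (orb_eq_of_mem hw2))
      subst this
      exact hrk v v1 hr1 hr2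
  have h2 : path ω a J u ⊆ (path ω a J u \ B) ∪ (path ω a J u \ B') ∪ (path ω a J u ∩ B ∩ B') := by
    intro k hk
    simp only [Finset.mem_union, Finset.mem_sdiff, Finset.mem_inter]
    tauto
  have h3 := (Finset.card_le_card h2).trans ((Finset.card_union_le _ _).trans
    (Nat.add_le_add_right (Finset.card_union_le _ _) _))
  have h4 := card_path ω hJ u
  omega

theorem kraftW_nonneg (φ : Grp D) (ω : Om D) (a J : ℕ) (rk lam : Pos D → ℕ) :
    0 ≤ kraftW φ ω a J rk lam := by
  unfold kraftW
  apply Finset.prod_nonneg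
  intro v _
  split_ifs <;> positivity

theorem kraftW_prog {rk : Pos D → ℕ} :
    kraftW φ ω a J rk (prog φ ω a J L cl T) = ∏ v ∈ shorts φ ω a J L cl T,
      (2 : ℝ) ^ (path ω a J (cl (orb (φ * bwin ω a J) v))
          \ before φ ω a J rk (prog φ ω a J L cl T) v).card := by
  unfold kraftW
  symm
  apply Finset.prod_subset_one_on_sdiff (Finset.subset_univ _)
  · intro v hv
    rw [if_pos (prog_of_not_mem (Finset.mem_sdiff.1 hv).2)]
  · intro v hv
    have h0 := card_orb_pos (φ * bwin ω a J) v
    rw [if_neg (by rw [prog_of_mem hv]; omega), if_pos (by rw [prog_of_mem hv]; exact pow_card_orb _ _)]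
    rw [← last_eq hv, ← prog_of_mem hv]

theorem z_pow_le (hcl : ∀ C : Finset (Pos D), C.Nonempty →
      cl C ∈ C ∧ 2 ^ (intl ω a J (cl C) C).card ≤ C.card) (hJ : a + J ≤ D) (hL : 1 ≤ L)
    {rk rk' : Pos D → ℕ} (hrk : ∀ v v', rk v' < rk v → ¬ rk' v' < rk' v) {z : ℝ} (hz : 0 < z)
    (hzL : z ^ 2 * L ≤ 2 ^ J) :
    z ^ (shorts φ ω a J L cl T).card ≤
      (kraftW φ ω a J rk (prog φ ω a J L cl T) + kraftW φ ω a J rk' (prog φ ω a J L cl T)) / 2 := by
  have h1 : (z ^ (shorts φ ω a J L cl T).card) ^ 2 ≤
      kraftW φ ω a J rk (prog φ ω a J L cl T) * kraftW φ ω a J rk' (prog φ ω a J L cl T) := by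
    rw [kraftW_prog, kraftW_prog, ← Finset.prod_mul_distrib, ← pow_mul, mul_comm, pow_mul,
      ← Finset.prod_const]
    apply Finset.prod_le_prod (fun _ _ => by positivity)
    intro v hv
    have h2 := free_add (fun C hC => (hcl C hC).1) hJ hrk hv
    have h3 := (hcl _ ⟨v, self_mem_orb (φ * bwin ω a J) v⟩).2
    have h4 : (orb (φ * bwin ω a J) v).card ≤ L := (Finset.mem_filter.1 hv).2
    rw [← pow_add]
    generalize (path ω a J (cl (orb (φ * bwin ω a J) v))
          \ before φ ω a J rk (prog φ ω a J L cl T) v).card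
        + (path ω a J (cl (orb (φ * bwin ω a J) v))
          \ before φ ω a J rk' (prog φ ω a J L cl T) v).card = f at h2 ⊢
    generalize (intl ω a J (cl (orb (φ * bwin ω a J) v)) (orb (φ * bwin ω a J) v)).card = i at h2 h3
    have h5 : 2 ^ J ≤ 2 ^ f * L :=
      calc 2 ^ J ≤ 2 ^ (f + i) := Nat.pow_le_pow_right (by norm_num) h2
        _ = 2 ^ f * 2 ^ i := pow_add _ _ _
        _ ≤ 2 ^ f * L := Nat.mul_le_mul_left _ (h3.trans h4)
    have h6 : (2 : ℝ) ^ J ≤ 2 ^ f * L := by exact_mod_cast h5
    have hL' : (0 : ℝ) < L := by exact_mod_cast hL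
    exact le_of_mul_le_mul_right (hzL.trans h6) hL'
  have hW := kraftW_nonneg φ ω a J rk (prog φ ω a J L cl T)
  have hW' := kraftW_nonneg φ ω a J rk' (prog φ ω a J L cl T)
  refine (pow_le_pow_iff_left₀ (by positivity) (by positivity) two_ne_zero).1 ?_
  nlinarith [sq_nonneg (kraftW φ ω a J rk (prog φ ω a J L cl T)
    - kraftW φ ω a J rk' (prog φ ω a J L cl T))]

end prog

/-- the possible programs -/
def progs (T : Finset (Pos D)) (L : ℕ) : Finset (Pos D → ℕ) :=
  Fintype.piFinset fun v => if v ∈ T then range (L + 1) else {0}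

/-- the cost of a program -/
noncomputable def cost (q : ℝ) (lam : Pos D → ℕ) : ℝ := ∏ v, if lam v = 0 then 1 else q

theorem cost_nonneg {q : ℝ} (hq : 0 ≤ q) (lam : Pos D → ℕ) : 0 ≤ cost q lam := by
  unfold cost
  apply Finset.prod_nonneg
  intro v _
  split_ifs
  · norm_num
  · exact hq

theorem sum_cost_le {q : ℝ} (hq : 0 ≤ q) (T : Finset (Pos D)) (L : ℕ) :
    ∑ lam ∈ progs T L, cost q lam ≤ Real.exp (q * L * T.card) := by
  unfold progs cost
  rw [← Finset.prod_univ_sum (fun v => if v ∈ T then range (L + 1) else {0})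
    (fun (_ : Pos D) (l : ℕ) => if l = 0 then (1 : ℝ) else q)]
  have h1 : ∀ v : Pos D, (∑ l ∈ (if v ∈ T then range (L + 1) else {0}),
      if l = 0 then (1 : ℝ) else q) = if v ∈ T then 1 + q * L else 1 := by
    intro v
    split_ifs
    · rw [Finset.sum_range_succ']
      simp [mul_comm, add_comm]
    · simp
  simp_rw [h1]
  rw [Finset.prod_ite_mem, Finset.univ_inter, Finset.prod_const, mul_comm _ (T.card : ℝ),
    Real.exp_nat_mul]
  apply pow_le_pow_left₀ (by positivity)
  have := Real.add_one_le_exp (q * L)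
  linarith

theorem pointwise {a J L : ℕ} {e y z : ℝ} (φ : Grp D) (T : Finset (Pos D)) (hJ : a + J ≤ D)
    (hL : 1 ≤ L) (he : 0 ≤ e) (hy : (2 : ℝ) ^ e ≤ y) (hz : 0 < z) (hzL : z ^ 2 * L ≤ 2 ^ J)
    {rk rk' : Pos D → ℕ} (hrk : ∀ v v', rk v' < rk v → ¬ rk' v' < rk' v) (ω : Om D) :
    (ninv (φ * bwin ω a J) T : ℝ) ^ e ≤ (2 : ℝ) ^ (e * T.card / L) *
      ∑ lam ∈ progs T L, cost (y / z) lam *
        ((kraftW φ ω a J rk lam + kraftW φ ω a J rk' lam) / 2) := by
  classical
  have hex : ∀ C : Finset (Pos D), ∃ u, C.Nonempty →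
      u ∈ C ∧ 2 ^ (intl ω a J u C).card ≤ C.card := by
    intro C
    by_cases hC : C.Nonempty
    · obtain ⟨u, hu, h⟩ := closer_exists ω a J C hC
      exact ⟨u, fun _ => ⟨hu, h⟩⟩
    · exact ⟨fun _ => false, fun h => absurd h hC⟩
  choose cl hcl using hex
  have h2e : (0 : ℝ) < 2 ^ e := by positivity
  have hy0 : 0 < y := h2e.trans_le hy
  have hq : 0 ≤ y / z := by positivity
  set N := (shorts φ ω a J L cl T).card with hN
  set M := ((starts (φ * bwin ω a J) cl T).filter
    fun v => ¬ (orb (φ * bwin ω a J) v).card ≤ L).card with hM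
  have hNM : N + M = (starts (φ * bwin ω a J) cl T).card :=
    Finset.card_filter_add_card_filter_not _
  have h1 : (ninv (φ * bwin ω a J) T : ℝ) ≤ 2 ^ (N + M) := by
    rw [hNM]
    exact_mod_cast ninv_le (fun C hC => (hcl C hC).1) T
  have h2 : (M : ℝ) * L ≤ T.card := by exact_mod_cast long_le T L
  have hL' : (0 : ℝ) < L := by exact_mod_cast hL
  have h3 : (ninv (φ * bwin ω a J) T : ℝ) ^ e ≤ (2 : ℝ) ^ (e * T.card / L) * y ^ N := by
    calc (ninv (φ * bwin ω a J) T : ℝ) ^ e ≤ ((2 : ℝ) ^ (N + M)) ^ e :=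
          Real.rpow_le_rpow (by positivity) h1 he
      _ = (2 : ℝ) ^ (e * M) * ((2 : ℝ) ^ e) ^ N := by
          rw [← Real.rpow_natCast, ← Real.rpow_natCast, ← Real.rpow_mul (by norm_num),
            ← Real.rpow_mul (by norm_num), ← Real.rpow_add (by norm_num)]
          congr 1
          push_cast
          ring
      _ ≤ _ := by
          apply mul_le_mul _ (pow_le_pow_left₀ h2e.le hy N) (by positivity) (by positivity)
          apply Real.rpow_le_rpow_of_exponent_le (by norm_num)
          rw [le_div_iff₀ hL', mul_assoc]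
          exact mul_le_mul_of_nonneg_left h2 he
  refine h3.trans (mul_le_mul_of_nonneg_left ?_ (by positivity))
  have hmem : prog φ ω a J L cl T ∈ progs T L := by
    unfold progs
    rw [Fintype.mem_piFinset]
    intro v
    by_cases hv : v ∈ shorts φ ω a J L cl T
    · have hs := (Finset.mem_filter.1 hv)
      have hs1 := hs.1
      simp only [starts, Finset.mem_filter, Finset.mem_univ, true_and] at hs1
      rw [if_pos (hs1.2 (self_mem_orb _ v)), prog_of_mem hv, Finset.mem_range]
      have := hs.2
      omega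
    · rw [prog_of_not_mem hv]
      split_ifs <;> simp
  have hcost : cost (y / z) (prog φ ω a J L cl T) = (y / z) ^ N := by
    unfold cost
    rw [hN, ← Finset.prod_const]
    symm
    apply Finset.prod_subset_one_on_sdiff (Finset.subset_univ _)
    · intro v hv
      rw [if_pos (prog_of_not_mem (Finset.mem_sdiff.1 hv).2)]
    · intro v hv
      have h0 := card_orb_pos (φ * bwin ω a J) v
      rw [if_neg (by rw [prog_of_mem hv]; omega)]
  have h4 := z_pow_le (φ := φ) (T := T) hcl hJ hL hrk hz hzL
  calc y ^ N = (y / z) ^ N * z ^ N := by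
        rw [← mul_pow, div_mul_cancel₀ _ hz.ne']
    _ ≤ cost (y / z) (prog φ ω a J L cl T) * ((kraftW φ ω a J rk (prog φ ω a J L cl T)
          + kraftW φ ω a J rk' (prog φ ω a J L cl T)) / 2) := by
        rw [hcost]
        exact mul_le_mul_of_nonneg_left h4 (by positivity)
    _ ≤ _ := by
        apply Finset.single_le_sum (f := fun lam => cost (y / z) lam *
          ((kraftW φ ω a J rk lam + kraftW φ ω a J rk' lam) / 2)) _ hmem
        intro lam _
        have := kraftW_nonneg φ ω a J rk lam
        have := kraftW_nonneg φ ω a J rk' lam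
        have := cost_nonneg hq lam
        positivity

end LK

open LK in
theorem lemmaK_of (h : KraftStmt) : LemmaK := by
  intro D a J L e y z φ T hJ hL he hy hz hzL
  have h2e : (0 : ℝ) < 2 ^ e := by positivity
  have hy0 : 0 < y := h2e.trans_le hy
  have hq : 0 ≤ y / z := by positivity
  set rk : Pos D → ℕ := fun v => (Fintype.equivFin (Pos D) v).val with hrk
  set rk' : Pos D → ℕ := fun v => Fintype.card (Pos D) - rk v with hrk'
  have hlt : ∀ v, rk v < Fintype.card (Pos D) := fun v => (Fintype.equivFin (Pos D) v).isLt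
  have hinj : Function.Injective rk := fun v v' e =>
    (Fintype.equivFin (Pos D)).injective (Fin.ext e)
  have hinj' : Function.Injective rk' := by
    intro v v' e
    apply hinj
    have h1 := hlt v
    have h2 := hlt v'
    simp only [hrk'] at e
    omega
  have hanti : ∀ v v', rk v' < rk v → ¬ rk' v' < rk' v := by
    intro v v' h1
    simp only [hrk']
    omega
  calc (𝔼 ω : Om D, (ninv (φ * bwin ω a J) T : ℝ) ^ e)
      ≤ 𝔼 ω : Om D, (2 : ℝ) ^ (e * T.card / L) * ∑ lam ∈ progs T L, cost (y / z) lam *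
          ((kraftW φ ω a J rk lam + kraftW φ ω a J rk' lam) / 2) :=
        Finset.expect_le_expect fun ω _ => pointwise φ T hJ hL he hy hz hzL hanti ω
    _ = (2 : ℝ) ^ (e * T.card / L) * ∑ lam ∈ progs T L, cost (y / z) lam *
          (((𝔼 ω : Om D, kraftW φ ω a J rk lam) + 𝔼 ω : Om D, kraftW φ ω a J rk' lam) / 2) := by
        rw [← Finset.mul_expect, Finset.expect_sum_comm]
        congr 1
        refine Finset.sum_congr rfl fun lam _ => ?_
        rw [← Finset.mul_expect, ← Finset.expect_add_distrib, Finset.expect_div]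
    _ ≤ (2 : ℝ) ^ (e * T.card / L) * ∑ lam ∈ progs T L, cost (y / z) lam := by
        refine mul_le_mul_of_nonneg_left (Finset.sum_le_sum fun lam _ => ?_) (by positivity)
        have h1 := h D a J φ rk lam hinj
        have h2 := h D a J φ rk' lam hinj'
        have h3 := cost_nonneg hq lam
        nlinarith
    _ ≤ _ := by
        refine mul_le_mul_of_nonneg_left ?_ (by positivity)
        have := sum_cost_le hq T L
        rwa [show y / z * L = y * L / z by ring] at this

end Crest.Agent.R155
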