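import Crest.Agent.R155.LevelA

/-!
# Row 155, part E1: decomposition into levels
-/

set_option autoImplicit false

namespace Crest.Agent.R155

open Finset Matrix
open scoped BigOperators

namespace Level

variable {D : ℕ}

/-- functions of the cards in `A` -/
def W (A : Finset (Pos D)) : Submodule ℝ (Grp D → ℝ) where
  carrier := {u | DepOn A u}
  add_mem' := fun {u v} hu hv g h hgh => by
    simp only [Pi.add_apply]; rw [hu g h hgh, hv g h hgh]
  zero_mem' := fun _ _ _ => rfl
  smul_mem' := fun c u hu g h hgh => by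
    simp only [Pi.smul_apply]; rw [hu g h hgh]

/-- functions spanned by functions of `k` cards -/
def V (D k : ℕ) : Submodule ℝ (Grp D → ℝ) := ⨆ A : {A : Finset (Pos D) // A.card = k}, W A.1

theorem W_le_V {k : ℕ} {A : Finset (Pos D)} (h : A.card = k) : W A ≤ V D k :=
  le_iSup (fun A : {A : Finset (Pos D) // A.card = k} => W A.1) ⟨A, h⟩

theorem V_mono {k : ℕ} (hk : k + 1 ≤ 2 ^ D) : V D k ≤ V D (k + 1) := by
  refine iSup_le fun A => ?_
  obtain ⟨A', hA, hc⟩ := Finset.exists_superset_card_eq (s := A.1) (n := k + 1)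
    (by rw [A.2]; omega) (by rw [card_Pos]; exact hk)
  have h1 : W A.1 ≤ W A' := fun u hu g h hgh => hu g h fun a ha => hgh a (hA ha)
  exact le_trans h1 (W_le_V hc)

theorem V_top (u : Grp D → ℝ) : u ∈ V D (2 ^ D) := by
  refine W_le_V (A := Finset.univ) (by rw [Finset.card_univ, card_Pos]) fun g h hgh => ?_
  rw [Equiv.ext fun a => hgh a (Finset.mem_univ a)]

theorem mem_V_zero {u : Grp D → ℝ} (hu : u ∈ V D 0) (g h : Grp D) : u g = u h := by
  have : V D 0 ≤ W ∅ := iSup_le fun A => by rw [Finset.card_eq_zero.1 A.2]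
  exact this hu g h (by simp)

theorem pm_mem_W (A : Finset (Pos D)) (g : Grp D) {u : Grp D → ℝ} (hu : u ∈ W A) :
    pm D (Grp D) g *ᵥ u ∈ W A := by
  rw [pm_mulVec]
  intro x y hxy
  refine hu _ _ fun a ha => ?_
  simp [hxy a ha]

theorem pm_mem_V (k : ℕ) (g : Grp D) {u : Grp D → ℝ} (hu : u ∈ V D k) :
    pm D (Grp D) g *ᵥ u ∈ V D k := by
  have : V D k ≤ (V D k).comap (pm D (Grp D) g).mulVecLin :=
    iSup_le fun A u hu => W_le_V A.2 (pm_mem_W A.1 g hu)
  exact this hu

theorem pm_comm {S : Submodule ℝ (Grp D → ℝ)} {P : Matrix (Grp D) (Grp D) ℝ} (hP : IsProj S P)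
    (hS : ∀ g, ∀ u ∈ S, pm D (Grp D) g *ᵥ u ∈ S) (g : Grp D) :
    pm D (Grp D) g * P = P * pm D (Grp D) g :=
  hP.comm (hS g) (by rw [pm_transpose]; exact hS g⁻¹)

theorem C_mem_W (A : Finset (Pos D)) {u : Grp D → ℝ} (hu : u ∈ W A) :
    Cmat D (Grp D) *ᵥ u ∈ W A := by
  obtain ⟨P, hP⟩ := exists_proj (W A)
  have := Cmat_intertwine D (Grp D) (Grp D) P (pm_comm hP fun g u => pm_mem_W A g)
  rw [← hP.fix u hu, mulVec_mulVec, this, ← mulVec_mulVec]
  exact hP.mem _

theorem B_one : Bmat D (Grp D) D *ᵥ (fun _ => (1 : ℝ)) = fun _ => 1 := by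
  have hP : ∀ i, Pn D (Grp D) i *ᵥ (fun _ => (1 : ℝ)) = fun _ => 1 := by
    intro i
    unfold Pn
    split_ifs
    · rw [Pm_mulVec]; funext x; simp
    · exact one_mulVec _
  have : ∀ i, Bmat D (Grp D) i *ᵥ (fun _ => (1 : ℝ)) = fun _ => 1 := by
    intro i
    induction i with
    | zero => rw [Bmat_zero]; exact one_mulVec _
    | succ i ih => rw [Bmat_succ, ← mulVec_mulVec, ← mulVec_mulVec, hP, ih, hP]
  exact this D

theorem trace_zero {P : Matrix (Grp D) (Grp D) ℝ} (hP : IsProj (V D 0) P) (s : ℕ) :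
    (Bmat D (Grp D) D ^ s * P).trace = 1 := by
  have hB : Bmat D (Grp D) D * P = P := by
    ext x y
    have h1 : (fun x => P x y) = P 1 y • (fun _ => (1 : ℝ)) := by
      funext x; simp [mem_V_zero (hP.col_mem y) x 1]
    have h2 : Bmat D (Grp D) D *ᵥ (fun x => P x y) = fun x => P x y := by
      rw [h1, mulVec_smul, B_one]
    exact congrFun h2 x
  have hBs : Bmat D (Grp D) D ^ s * P = P := by
    induction s with
    | zero => simp
    | succ s ih => rw [pow_succ, Matrix.mul_assoc, hB, ih]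
  rw [hBs]
  have h1 := congrFun (hP.fix (fun _ => 1) (W_le_V (A := ∅) rfl fun _ _ _ => rfl)) 1
  simp only [mulVec, dotProduct, mul_one] at h1
  rw [← h1]
  exact Finset.sum_congr rfl fun y _ => mem_V_zero (hP.col_mem y) y 1

/-! ### the trace on `V k` -/

/-- an enumeration of `A` -/
noncomputable def enum {k : ℕ} (A : {A : Finset (Pos D) // A.card = k}) : Tup k D :=
  (Finset.equivFinOfCardEq A.2).symm.toEmbedding.trans (Function.Embedding.subtype _)

theorem enum_mem {k : ℕ} (A : {A : Finset (Pos D) // A.card = k}) (i : Fin k) : enum A i ∈ A.1 :=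
  ((Finset.equivFinOfCardEq A.2).symm i).2

theorem exists_enum {k : ℕ} (A : {A : Finset (Pos D) // A.card = k}) {a : Pos D} (ha : a ∈ A.1) :
    ∃ i, enum A i = a :=
  ⟨Finset.equivFinOfCardEq A.2 ⟨a, ha⟩, by simp [enum]⟩

theorem smul_enum_eq_iff {k : ℕ} (A : {A : Finset (Pos D) // A.card = k}) (g h : Grp D) :
    g • enum A = h • enum A ↔ ∀ a ∈ A.1, g a = h a := by
  constructor
  · intro e a ha
    obtain ⟨i, rfl⟩ := exists_enum A ha
    rw [← tup_smul_apply, e, tup_smul_apply]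
  · intro e
    ext1 i
    rw [tup_smul_apply, tup_smul_apply, e _ (enum_mem A i)]

/-- the pullback matrix of one set -/
noncomputable def RA {k : ℕ} (A : {A : Finset (Pos D) // A.card = k}) :
    Matrix (Grp D) (Tup k D) ℝ := Matrix.of fun g x => if g • enum A = x then 1 else 0

theorem pm_RA {k : ℕ} (A : {A : Finset (Pos D) // A.card = k}) (g : Grp D) :
    pm D (Grp D) g * RA A = RA A * pm D (Tup k D) g := by
  ext h x
  have h1 := congrFun (pm_mulVec D (Grp D) g (fun z => RA A z x)) h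
  refine h1.trans ?_
  simp only [RA, Matrix.mul_apply, pm_apply, Matrix.of_apply, ite_mul, one_mul, zero_mul,
    Finset.sum_ite_eq, Finset.mem_univ, if_true, smul_eq_mul, mul_smul]

theorem Bpow_RA {k : ℕ} (A : {A : Finset (Pos D) // A.card = k}) (s : ℕ) :
    Bmat D (Grp D) D ^ s * RA A = RA A * Bmat D (Tup k D) D ^ s := by
  induction s with
  | zero => simp
  | succ s ih =>
    rw [pow_succ, Matrix.mul_assoc, Bmat_intertwine D (Grp D) (Tup k D) _ (pm_RA A),
      ← Matrix.mul_assoc, ih, Matrix.mul_assoc, ← pow_succ]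

theorem trace_V {k : ℕ} {P : Matrix (Grp D) (Grp D) ℝ} (hP : IsProj (V D k) P) :
    (Bmat D (Grp D) D ^ 64 * P).trace ≤
      ((2 ^ D).choose k : ℝ) * (Bmat D (Tup k D) D ^ 64).trace := by
  classical
  let R : Matrix (Grp D) (Tup k D × {A : Finset (Pos D) // A.card = k}) ℝ :=
    Matrix.of fun g y => RA y.2 g y.1
  let N := blockDiagonal fun _ : {A : Finset (Pos D) // A.card = k} => Bmat D (Tup k D) D ^ 32
  have hN : Nᵀ * N = blockDiagonal fun _ : {A : Finset (Pos D) // A.card = k} =>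
      Bmat D (Tup k D) D ^ 64 := by
    rw [blockDiagonal_transpose, ← blockDiagonal_mul]
    simp only [transpose_pow, Bmat_transpose, ← pow_add]
  have h := trace_le_of_intertwine (M := Bmat D (Grp D) D ^ 64) (P := P) (R := R) (N := N)
    ?_ ?_ ?_
  · rw [hN, trace_blockDiagonal] at h
    simpa [Fintype.card_finset_len] using h
  · rw [hN]
    ext g ⟨x, A⟩
    have h1 := congrFun (congrFun (Bpow_RA A 64) g) x
    refine Eq.trans h1 ?_
    simp [R, Matrix.mul_apply, Fintype.sum_prod_type, blockDiagonal_apply]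
  · refine hP.mul_eq fun y => W_le_V y.2.2 fun g h hgh => ?_
    simp only [R, RA, Matrix.of_apply]
    rw [(smul_enum_eq_iff y.2 g h).2 hgh]
  · intro x'
    have hle : V D k ≤ LinearMap.range R.mulVecLin := by
      refine iSup_le fun A u hu => ?_
      refine ⟨fun y => if y.2 = A then
        (if h : ∃ g : Grp D, g • enum A = y.1 then u h.choose else 0) else 0, ?_⟩
      funext g
      have hex : ∃ g' : Grp D, g' • enum A = g • enum A := ⟨g, rfl⟩
      have h2 : u hex.choose = u g := hu _ _ ((smul_enum_eq_iff A _ _).1 hex.choose_spec)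
      simp only [mulVecLin_apply, mulVec, dotProduct, R, RA, Matrix.of_apply,
        Fintype.sum_prod_type, mul_ite, mul_zero, Finset.sum_ite_eq', Finset.mem_univ, if_true,
        ite_mul, one_mul, zero_mul, Finset.sum_ite_eq]
      rw [dif_pos hex, h2]
    exact hle (hP.col_mem x')

/-! ### the witness -/

theorem B_right (h : Grp D) (v : Grp D → ℝ) :
    Bmat D (Grp D) D *ᵥ (fun g => v (g * h)) = fun g => (Bmat D (Grp D) D *ᵥ v) (g * h) := by
  let T : Matrix (Grp D) (Grp D) ℝ := Matrix.of fun g g' => if g * h = g' then 1 else 0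
  have hT : ∀ v : Grp D → ℝ, T *ᵥ v = fun g => v (g * h) := by
    intro v; funext g; simp [T, mulVec, dotProduct]
  have h1 : ∀ g, pm D (Grp D) g * T = T * pm D (Grp D) g := by
    intro g
    refine Matrix.ext_iff_mulVec.2 fun v => ?_
    rw [← mulVec_mulVec, ← mulVec_mulVec, hT, hT, pm_mulVec, pm_mulVec]
    funext x
    simp [mul_assoc]
  rw [← hT, ← hT, mulVec_mulVec, mulVec_mulVec, Bmat_intertwine D (Grp D) (Grp D) T h1]

theorem dot_right (h : Grp D) (v w : Grp D → ℝ) :
    (fun g => v (g * h)) ⬝ᵥ w = v ⬝ᵥ fun g => w (g * h⁻¹) := by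
  unfold dotProduct
  exact Fintype.sum_equiv (Equiv.mulRight h) _ _ fun g => by simp

theorem orth_right {k : ℕ} {v : Grp D → ℝ} (hv : Orth k v) (h : Grp D) :
    Orth k fun g => v (g * h) := by
  intro A hA w hw
  rw [dot_right]
  refine hv (A.image (h⁻¹ : Grp D)) (by rw [Finset.card_image_of_injective _ (Equiv.injective _), hA]) _ ?_
  intro g g' hgg
  refine hw _ _ fun a ha => ?_
  exact hgg _ (Finset.mem_image_of_mem _ ha)

theorem wit {k : ℕ} {w : ℝ} {v : Grp D → ℝ} (hv0 : v ≠ 0) (hv : v ∈ V D k) (ho : Orth (k - 1) v)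
    (hB : Bmat D (Grp D) D *ᵥ v = w • v) : Wit D k w := by
  classical
  obtain ⟨A, hA, z, hz, hvz⟩ : ∃ A : Finset (Pos D), A.card = k ∧ ∃ z ∈ W A, v ⬝ᵥ z ≠ 0 := by
    by_contra hc
    push Not at hc
    have : V D k ≤ LinearMap.ker (dotProductBilin ℝ ℝ v) :=
      iSup_le fun A z hz => hc A.1 A.2 z hz
    exact hv0 (dotProduct_self_eq_zero.1 (this hv))
  let St : Finset (Grp D) := Finset.univ.filter fun h => ∀ a ∈ A, h a = a
  let S : Submodule ℝ (Grp D → ℝ) :=
    { carrier := {u | u ∈ W A ∧ Orth (k - 1) u ∧ Bmat D (Grp D) D *ᵥ u = w • u}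
      add_mem' := fun {u u'} hu hu' => ⟨add_mem hu.1 hu'.1, fun A' hA' z hz => by
        rw [add_dotProduct, hu.2.1 A' hA' z hz, hu'.2.1 A' hA' z hz, add_zero], by
        rw [mulVec_add, hu.2.2, hu'.2.2, smul_add]⟩
      zero_mem' := ⟨zero_mem _, fun _ _ _ _ => zero_dotProduct _, by simp⟩
      smul_mem' := fun c u hu => ⟨Submodule.smul_mem _ _ hu.1, fun A' hA' z hz => by
        rw [smul_dotProduct, hu.2.1 A' hA' z hz, smul_zero], by
        rw [mulVec_smul, hu.2.2, smul_comm]⟩ }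
  let u : Grp D → ℝ := ∑ h ∈ St, fun g => v (g * h)
  have huS : u ∈ S := by
    refine ⟨fun g g' hgg => ?_, fun A' hA' z hz => ?_, ?_⟩
    · simp only [u, Finset.sum_apply]
      have h0 : ∀ a ∈ A, (g'⁻¹ * g) a = a := fun a ha => by simp [hgg a ha]
      refine Finset.sum_equiv (Equiv.mulLeft (g'⁻¹ * g)) (fun h => ?_) (fun h _ => ?_)
      · simp only [St, Finset.mem_filter, Finset.mem_univ, true_and, Equiv.coe_mulLeft]
        refine forall₂_congr fun a ha => ?_
        rw [Equiv.Perm.mul_apply]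
        constructor
        · intro e; rw [e, h0 a ha]
        · intro e; exact (g'⁻¹ * g).injective (e.trans (h0 a ha).symm)
      · simp [← mul_assoc]
    · rw [sum_dotProduct]
      exact Finset.sum_eq_zero fun h _ => orth_right ho h A' hA' z hz
    · simp only [u]
      rw [mulVec_sum, Finset.smul_sum]
      refine Finset.sum_congr rfl fun h _ => ?_
      rw [B_right, hB]; rfl
  have hu0 : u ≠ 0 := by
    intro h0
    have h1 : u ⬝ᵥ z = St.card * (v ⬝ᵥ z) := by
      rw [sum_dotProduct, Finset.sum_congr rfl (g := fun _ => v ⬝ᵥ z)]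
      · simp
      · intro h hh
        rw [dot_right]
        congr 1
        funext g
        refine hz _ _ fun a ha => ?_
        have := (Finset.mem_filter.1 hh).2 a ha
        rw [Equiv.Perm.mul_apply, Equiv.Perm.inv_eq_iff_eq.2 this.symm]
    rw [h0, zero_dotProduct] at h1
    have h2 : (St.card : ℝ) ≠ 0 := by
      exact_mod_cast (Finset.card_pos.2 ⟨1, by simp [St]⟩).ne'
    exact hvz ((mul_eq_zero.1 h1.symm).resolve_left h2)
  obtain ⟨u', c, hu', hu'0, hc⟩ := exists_eigenvector (Cmat_transpose D (Grp D)) S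
    (fun u hu => ⟨C_mem_W A hu.1, fun A' hA' z hz => by
      rw [dotProduct_comm, dotProduct_mulVec, ← mulVec_transpose, Cmat_transpose, dotProduct_comm]
      exact hu.2.1 A' hA' _ (C_mem_W A' hz), by
      rw [mulVec_mulVec, Bmat_mul_Cmat, ← mulVec_mulVec, hu.2.2, mulVec_smul]⟩) huS hu0
  exact ⟨A, u', c, hA, hu'0, hu'.1, hu'.2.1, hu'.2.2, hc⟩

end Level

open Level in
theorem levelStmt_of (h : PropT1) : LevelStmt := by
  intro D
  choose P hP using fun k => exists_proj (V D k)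
  have hBP : ∀ k, Bmat D (Grp D) D * P k = P k * Bmat D (Grp D) D := fun k =>
    Bmat_intertwine D (Grp D) (Grp D) _ (pm_comm (hP k) fun g u => pm_mem_V k g) D
  have key : ∀ k : ℕ, ∃ w : ℝ, k + 1 ≤ 2 ^ D → (0 ≤ w ∧ (w = 0 ∨ Wit D (k + 1) w)) ∧
      (Bmat D (Grp D) D ^ 1600 * (P (k + 1) - P k)).trace ≤
        w ^ 1536 * (((2 ^ D).choose (k + 1) : ℝ) * Real.exp (19.1 * ((k + 1 : ℕ) : ℝ))) := by
    intro k
    by_cases hk : k + 1 ≤ 2 ^ D
    swap
    · exact ⟨0, fun h => absurd h hk⟩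
    obtain ⟨e1, e2⟩ := (hP k).mul_of_le (hP (k + 1)) (V_mono hk)
    obtain ⟨w, hw0, hw, htr⟩ := trace_pow_le (Q := P (k + 1) - P k) (Bmat_posSemidef D (Grp D) D)
      (by rw [transpose_sub, (hP k).symm, (hP (k + 1)).symm])
      (by rw [Matrix.mul_sub, Matrix.sub_mul, Matrix.sub_mul, e1, e2, (hP k).idem,
        (hP (k + 1)).idem]; abel)
      (by rw [Matrix.mul_sub, Matrix.sub_mul, hBP, hBP])
    refine ⟨w, fun _ => ⟨⟨hw0, hw.imp id ?_⟩, htr.trans ?_⟩⟩
    · rintro ⟨v, hv0, hQ, hB⟩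
      have h1 : P k *ᵥ v = 0 := by
        rw [← hQ, mulVec_mulVec, Matrix.mul_sub, e2, (hP k).idem, sub_self, zero_mulVec]
      refine wit hv0 ?_ (fun A hA z hz => (hP k).dot_eq_zero h1 (W_le_V hA hz)) hB
      rw [← hQ, sub_mulVec, h1, sub_zero]
      exact (hP (k + 1)).mem v
    · refine mul_le_mul_of_nonneg_left ?_ (pow_nonneg hw0 _)
      have h1 := trace_nonneg_of (N := Bmat D (Grp D) D ^ 32) (hP k).symm (hP k).idem
      rw [transpose_pow, Bmat_transpose, ← pow_add] at h1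
      have h2 := trace_V (hP (k + 1))
      have h3 := mul_le_mul_of_nonneg_left (h D (k + 1))
        (Nat.cast_nonneg (α := ℝ) ((2 ^ D).choose (k + 1)))
      rw [Matrix.mul_sub, trace_sub]
      linarith
  choose w hw using key
  refine ⟨fun k => w (k - 1), fun k h1 h2 => ?_, ?_⟩
  · obtain ⟨k, rfl⟩ : ∃ k', k = k' + 1 := ⟨k - 1, by omega⟩
    exact (hw k h2).1
  · have htop : P (2 ^ D) = 1 := by
      have := (hP (2 ^ D)).mul_eq (N := (1 : Matrix (Grp D) (Grp D) ℝ)) fun y => V_top _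
      rwa [Matrix.mul_one] at this
    have hsum : ∑ k ∈ range (2 ^ D), (Bmat D (Grp D) D ^ 1600 * (P (k + 1) - P k)).trace
        = (Bmat D (Grp D) D ^ 1600).trace - 1 := by
      simp only [Matrix.mul_sub, trace_sub]
      rw [Finset.sum_range_sub (fun k => (Bmat D (Grp D) D ^ 1600 * P k).trace), htop,
        Matrix.mul_one, trace_zero (hP 0)]
    rw [← hsum, ← Finset.Ico_add_one_right_eq_Icc, Finset.sum_Ico_eq_sum_range, Nat.add_sub_cancel]
    refine Finset.sum_le_sum fun k hk => ?_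
    have := (hw k (Finset.mem_range.1 hk)).2
    rw [add_comm 1 k]
    exact this

end Crest.Agent.R155
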