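import Crest.Agent.R155.Basic

/-!
# Row 155: link between the shuffle on `Fin (2 * 2 ^ d)` and the butterfly network
-/

set_option autoImplicit false

namespace Crest.Agent.R155

open Finset Matrix Crest.ProbabilityR.Shuffle
open scoped BigOperators

namespace Link

/-- big-endian value of a bit string -/
def val : (n : ℕ) → Pos n → ℕ
  | 0, _ => 0
  | n + 1, p => (p 0).toNat * 2 ^ n + val n (Fin.tail p)

theorem val_lt : ∀ (n : ℕ) (p : Pos n), val n p < 2 ^ n
  | 0, _ => by simp [val]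
  | n + 1, p => by
    have := val_lt n (Fin.tail p)
    rw [val, pow_succ]
    cases p 0 <;> simp <;> omega

theorem val_inj : ∀ (n : ℕ), Function.Injective (val n)
  | 0 => fun p q _ => Subsingleton.elim p q
  | n + 1 => fun p q h => by
    have h1 := val_lt n (Fin.tail p)
    have h2 := val_lt n (Fin.tail q)
    rw [val, val] at h
    have h0 : p 0 = q 0 := by
      revert h
      cases p 0 <;> cases q 0 <;> simp <;> omega
    rw [h0] at h
    have h3 := val_inj n (Nat.add_left_cancel h)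
    rw [← Fin.cons_self_tail p, ← Fin.cons_self_tail q, h0, h3]

theorem val_snoc : ∀ (n : ℕ) (y : Pos n) (b : Bool),
    val (n + 1) (Fin.snoc (α := fun _ => Bool) y b) = 2 * val n y + b.toNat
  | 0, y, b => by simp [val, Fin.snoc]
  | n + 1, y, b => by
    have h1 : Fin.tail (Fin.snoc (α := fun _ => Bool) y b) =
        Fin.snoc (α := fun _ => Bool) (Fin.tail y) b := by
      rw [← Fin.cons_self_tail y, ← Fin.cons_snoc_eq_snoc_cons]
      simp
    have h2 : (Fin.snoc (α := fun _ => Bool) y b : Pos (n + 2)) 0 = y 0 := by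
      rw [← Fin.castSucc_zero, Fin.snoc_castSucc]
    rw [val, h1, val_snoc n, h2, val]
    ring

/-- binary encoding -/
noncomputable def enc (n N : ℕ) (h : N = 2 ^ n) : Pos n ≃ Fin N :=
  Equiv.ofBijective (fun p => ⟨val n p, h ▸ val_lt n p⟩) (by
    rw [Fintype.bijective_iff_injective_and_card]
    exact ⟨fun p q hpq => val_inj n (by simpa using hpq), by simp [h]⟩)

theorem enc_val (n N : ℕ) (h : N = 2 ^ n) (p : Pos n) : (enc n N h p).val = val n p := rfl

variable {d : ℕ}

/-- encoding of the positions of the deck -/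
noncomputable def eD (d : ℕ) : Pos (d + 1) ≃ Fin (2 * 2 ^ d) := enc _ _ (by ring)

/-- encoding of the pairs -/
noncomputable def ed (d : ℕ) : Pos d ≃ Fin (2 ^ d) := enc _ _ rfl

/-- cyclic rotation of the bits -/
def rot (d : ℕ) : Grp (d + 1) := Equiv.arrowCongr (finRotate (d + 1)).symm (Equiv.refl Bool)

theorem rot_apply (p : Pos (d + 1)) (t : Fin (d + 1)) : rot d p t = p (t + 1) := by
  simp [rot]

theorem rot_eq_snoc (p : Pos (d + 1)) :
    rot d p = Fin.snoc (α := fun _ => Bool) (Fin.tail p) (p 0) := by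
  funext t
  rw [rot_apply]
  refine Fin.lastCases ?_ (fun i => ?_) t
  · simp
  · simp [Fin.tail]

/-- the bits of one shuffle, read on the positions -/
noncomputable def lift (c : Fin (2 ^ d) → Bool) : Pos (d + 1) → Bool := fun q => c (ed d (Fin.tail q))

theorem step_eq (c : Fin (2 ^ d) → Bool) (p : Pos (d + 1)) :
    stepPos (2 ^ d) c (eD d p) = eD d (rot d (sw 0 (lift c) p)) := by
  have hlt := val_lt d (Fin.tail p)
  have hv : (eD d p).val = (p 0).toNat * 2 ^ d + val d (Fin.tail p) := rfl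
  have hmod : (eD d p).val % 2 ^ d = val d (Fin.tail p) := by
    rw [hv, Nat.mul_add_mod_self_right, Nat.mod_eq_of_lt hlt]
  have hdec : decide (2 ^ d ≤ (eD d p).val) = p 0 := by
    rw [hv]
    cases p 0 <;> simp
    omega
  have ht : Fin.tail (sw 0 (lift c) p) = Fin.tail p := by
    funext i; exact sw_apply_ne _ _ _ (Fin.succ_ne_zero i)
  have hz : Fin.tail (zer 0 p) = Fin.tail p := by
    funext i; exact zer_apply_ne _ _ (Fin.succ_ne_zero i)
  apply Fin.ext
  have e1 : (eD d (rot d (sw 0 (lift c) p))).val = val (d + 1) (rot d (sw 0 (lift c) p)) := rfl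
  rw [e1, rot_eq_snoc, val_snoc, ht, sw_apply_self, lift, hz]
  have e2 : (⟨val d (Fin.tail p), hlt⟩ : Fin (2 ^ d)) = ed d (Fin.tail p) := rfl
  simp only [stepPos, hdec, hmod, e2]
  cases xor (p 0) (c (ed d (Fin.tail p))) <;> rfl

/-- the random arrangement after `t` shuffles -/
noncomputable def Gam : (t : ℕ) → (Fin t → Fin (2 ^ d) → Bool) → Grp (d + 1)
  | 0, _ => 1
  | t + 1, cs => rot d * sw 0 (lift (cs (Fin.last t))) * Gam t (fun i => cs i.castSucc)

theorem iter_eq : ∀ (t : ℕ) (cs : Fin t → Fin (2 ^ d) → Bool) (p : Pos (d + 1)),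
    iterPos (2 ^ d) t cs (eD d p) = eD d (Gam t cs p)
  | 0, _, _ => rfl
  | t + 1, cs, p => by
    rw [iterPos, iter_eq t, step_eq]; rfl

theorem expect_comp_inj {K K' A : Type} [Fintype K] [DecidableEq K] [Fintype K'] [DecidableEq K']
    [Fintype A] [Nonempty A] (ι : K' → K) (hι : Function.Injective ι) (H : (K' → A) → ℝ) :
    (𝔼 c : K → A, H (c ∘ ι)) = 𝔼 c : K' → A, H c := by
  let σ : (K → A) × (K' → A) → (K → A) × (K' → A) :=
    fun p => (Function.extend ι p.2 p.1, p.1 ∘ ι)
  have hσ : Function.Involutive σ := by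
    rintro ⟨c, c'⟩
    simp only [σ, Prod.mk.injEq]
    refine ⟨?_, Function.extend_comp hι _ _⟩
    funext k
    by_cases hk : ∃ a, ι a = k
    · obtain ⟨a, rfl⟩ := hk
      rw [hι.extend_apply]; rfl
    · rw [Function.extend_apply' _ _ _ hk, Function.extend_apply' _ _ _ hk]
  have e1 : (𝔼 p : (K → A) × (K' → A), H (σ p).2) = 𝔼 p : (K → A) × (K' → A), H p.2 :=
    Fintype.expect_equiv (hσ.toPerm σ) _ _ (fun _ => rfl)
  rw [← Finset.univ_product_univ, Finset.expect_product, Finset.expect_product] at e1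
  simpa [σ] using e1

theorem expect_lift (H : Grp (d + 1) → ℝ) :
    (𝔼 c : Fin (2 ^ d) → Bool, H (sw 0 (lift c))) = 𝔼 c : Pos (d + 1) → Bool, H (sw 0 c) := by
  let ι : Fin (2 ^ d) → Pos (d + 1) := fun u => Fin.cons false ((ed d).symm u)
  have hι : Function.Injective ι := fun u v h => (ed d).symm.injective (by
    simpa [ι] using congrArg Fin.tail h)
  rw [← expect_comp_inj ι hι fun c => H (sw 0 (lift c))]
  refine Finset.expect_congr rfl fun c _ => ?_
  congr 1
  ext1 x
  apply sw_congr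
  simp only [lift, Function.comp, ι, Equiv.symm_apply_apply]
  congr 1
  conv_rhs => rw [← Fin.cons_self_tail (zer 0 x), zer_apply_self]

/-- the Markov matrix of one shuffle -/
noncomputable def Th (d : ℕ) : Matrix (Grp (d + 1)) (Grp (d + 1)) ℝ :=
  Pm (d + 1) (Grp (d + 1)) 0 * pm (d + 1) (Grp (d + 1)) (rot d)

theorem Th_pow_mulVec : ∀ (t : ℕ) (F : Grp (d + 1) → ℝ) (x : Grp (d + 1)),
    ((Th d ^ t) *ᵥ F) x = 𝔼 cs : Fin t → Fin (2 ^ d) → Bool, F (Gam t cs * x)
  | 0, F, x => by simp [Gam]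
  | t + 1, F, x => by
    rw [pow_succ, ← Matrix.mulVec_mulVec, Th_pow_mulVec t]
    have h1 : ∀ y, (Th d *ᵥ F) y = 𝔼 c : Fin (2 ^ d) → Bool, F (rot d * sw 0 (lift c) * y) := by
      intro y
      rw [expect_lift fun g => F (rot d * g * y), Th, ← Matrix.mulVec_mulVec, Pm_mulVec, pm_mulVec]
      simp only [smul_eq_mul, mul_assoc]
    simp only [h1]
    rw [Finset.expect_comm, ← Finset.expect_product', Finset.univ_product_univ]
    refine Fintype.expect_equiv (Fin.snocEquiv fun _ => Fin (2 ^ d) → Bool) _ _ fun p => ?_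
    simp [Gam, Fin.snocEquiv, mul_assoc]

/-- the law of the arrangement -/
noncomputable def mu (d t : ℕ) (h : Grp (d + 1)) : ℝ :=
  𝔼 cs : Fin t → Fin (2 ^ d) → Bool, if Gam t cs = h then 1 else 0

theorem Th_pow_apply (t : ℕ) (x y : Grp (d + 1)) : (Th d ^ t) x y = mu d t (y * x⁻¹) := by
  have := Th_pow_mulVec t (fun z => if z = y then 1 else 0) x
  simp only [mulVec, dotProduct, mul_ite, mul_one, mul_zero, sum_ite_eq', mem_univ, if_true] at this
  rw [this, mu]
  simp only [eq_mul_inv_iff_mul_eq]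

theorem sw_mul_rot (s : Fin (d + 1)) (c : Pos (d + 1) → Bool) :
    sw s c * rot d = rot d * sw (s + 1) (c ∘ rot d) := by
  ext1 p
  have hz : zer s (rot d p) = rot d (zer (s + 1) p) := by
    funext t
    rw [rot_apply]
    by_cases ht : t = s
    · subst ht; rw [zer_apply_self, zer_apply_self]
    · rw [zer_apply_ne _ _ ht, zer_apply_ne _ _ (by simpa using ht), rot_apply]
  funext t
  rw [Equiv.Perm.mul_apply, Equiv.Perm.mul_apply, rot_apply]
  by_cases ht : t = s
  · subst ht
    rw [sw_apply_self, sw_apply_self, rot_apply, hz]; rfl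
  · rw [sw_apply_ne _ _ _ ht, sw_apply_ne _ _ _ (by simpa using ht), rot_apply]

theorem pm_rot_mul_Pm (s : Fin (d + 1)) :
    pm (d + 1) (Grp (d + 1)) (rot d) * Pm (d + 1) (Grp (d + 1)) s =
      Pm (d + 1) (Grp (d + 1)) (s + 1) * pm (d + 1) (Grp (d + 1)) (rot d) := by
  have key : ∀ (G : Grp (d + 1) → Matrix (Grp (d + 1)) (Grp (d + 1)) ℝ),
      ∑ c : Pos (d + 1) → Bool, G (sw s c * rot d) =
        ∑ c : Pos (d + 1) → Bool, G (rot d * sw (s + 1) c) := by
    intro G
    have hb : Function.Bijective (fun c : Pos (d + 1) → Bool => c ∘ rot d) :=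
      (rot d).bijective.comp_right
    exact Fintype.sum_bijective _ hb _ _ fun c => by rw [sw_mul_rot]
  rw [Pm_eq_smul_sum, Pm_eq_smul_sum, Matrix.mul_smul, Matrix.smul_mul, Finset.mul_sum,
    Finset.sum_mul]
  simp_rw [pm_mul]
  rw [key (pm (d + 1) (Grp (d + 1)))]

theorem pm_rot_pow_mul (i : ℕ) (hi : i < d + 1) :
    pm (d + 1) (Grp (d + 1)) (rot d ^ i) * Pm (d + 1) (Grp (d + 1)) 0 =
      Pm (d + 1) (Grp (d + 1)) ⟨i, hi⟩ * pm (d + 1) (Grp (d + 1)) (rot d ^ i) := by
  induction i with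
  | zero => simp [pm_one]
  | succ i ih =>
    have h : (⟨i + 1, hi⟩ : Fin (d + 1)) = ⟨i, by omega⟩ + 1 := by
      apply Fin.ext
      rw [Fin.val_add_one_of_lt]
      exact Fin.lt_def.2 (by simp; omega)
    rw [pow_succ, ← pm_mul, Matrix.mul_assoc, ih (by omega), ← Matrix.mul_assoc, pm_rot_mul_Pm, h,
      Matrix.mul_assoc]

theorem Th_pow_eq (i : ℕ) (hi : i ≤ d + 1) :
    Th d ^ i = Kmat (d + 1) (Grp (d + 1)) i * pm (d + 1) (Grp (d + 1)) (rot d ^ i) := by
  induction i with
  | zero => simp [pm_one, Kmat_zero]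
  | succ i ih =>
    rw [pow_succ, ih (by omega), Th, Matrix.mul_assoc, ← Matrix.mul_assoc (pm _ _ _),
      pm_rot_pow_mul i (by omega), Kmat_succ, ← Pn_of_lt, Matrix.mul_assoc, pm_mul, ← pow_succ',
      Matrix.mul_assoc]

theorem rot_pow_apply (i : ℕ) (p : Pos (d + 1)) (t : Fin (d + 1)) :
    (rot d ^ i) p t = p (t + Fin.ofNat (d + 1) i) := by
  induction i generalizing t with
  | zero => simp
  | succ i ih =>
    rw [pow_succ', Equiv.Perm.mul_apply, rot_apply, ih]
    congr 1
    apply Fin.ext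
    simp [Fin.val_add, add_assoc, add_comm 1 i]

theorem rot_pow_card : rot d ^ (d + 1) = 1 := by
  ext p t
  rw [rot_pow_apply]
  simp

theorem Th_pow_mul (s : ℕ) : Th d ^ (s * (d + 1)) = Kmat (d + 1) (Grp (d + 1)) (d + 1) ^ s := by
  rw [mul_comm, pow_mul, Th_pow_eq _ le_rfl, rot_pow_card, pm_one, Matrix.mul_one]

theorem card_Grp (d : ℕ) : Fintype.card (Grp (d + 1)) = (2 * 2 ^ d).factorial := by
  rw [Fintype.card_perm, card_Pos, pow_succ']

theorem tv_eq (d t : ℕ) : tvFromUniform (2 ^ d) t =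
    (1 / 2) * ∑ h : Grp (d + 1), |mu d t h - 1 / (Fintype.card (Grp (d + 1)) : ℝ)| := by
  rw [tvFromUniform, card_Grp]
  congr 1
  refine (Fintype.sum_equiv (eD d).permCongr _ _ fun h => ?_).symm
  congr 2
  rw [mu, Finset.expect_eq_sum_div_card, Crest.FinProb.uniformProb, Finset.card_univ,
    Finset.sum_boole]
  congr 3
  ext cs
  simp only [Finset.mem_filter, Finset.mem_univ, true_and, Set.mem_ofPred_eq]
  constructor
  · rintro rfl
    funext x
    obtain ⟨p, rfl⟩ := (eD d).surjective x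
    simp [iter_eq]
  · intro H
    ext1 p
    have := congrFun H (eD d p)
    simpa [iter_eq] using this

theorem sum_mu (d t : ℕ) : ∑ h, mu d t h = 1 := by
  simp only [mu]
  rw [← Finset.expect_sum_comm]
  simp

theorem tv_lower (d t : ℕ) :
    1 - (2 : ℝ) ^ (2 ^ d * t) / ((2 * 2 ^ d).factorial : ℝ) ≤ tvFromUniform (2 ^ d) t := by
  rw [tv_eq, ← card_Grp]
  set q : ℝ := 1 / (Fintype.card (Grp (d + 1)) : ℝ) with hq
  let S : Finset (Grp (d + 1)) := univ.image (Gam (d := d) t)
  have hS : (S.card : ℝ) ≤ 2 ^ (2 ^ d * t) := by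
    have : S.card ≤ 2 ^ (2 ^ d * t) := by
      refine Finset.card_image_le.trans (le_of_eq ?_)
      simp [← pow_mul]
    exact_mod_cast this
  have h0 : ∀ h ∈ Sᶜ, mu d t h = 0 := by
    intro h hh
    refine Finset.expect_eq_zero fun cs _ => if_neg ?_
    rintro rfl
    simp [S] at hh
  have hc : (0 : ℝ) < Fintype.card (Grp (d + 1)) := by exact_mod_cast Fintype.card_pos
  have hq0 : 0 ≤ q := by positivity
  have h1 : ∑ h ∈ S, mu d t h = 1 := by
    rw [← sum_mu d t, ← Finset.sum_add_sum_compl S, Finset.sum_eq_zero h0, add_zero]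
  have h2 : 1 - S.card * q ≤ ∑ h ∈ S, |mu d t h - q| := by
    refine le_trans (le_of_eq ?_) (Finset.sum_le_sum fun h _ => le_abs_self _)
    rw [Finset.sum_sub_distrib, h1]; simp
  have h3 : ∑ h ∈ Sᶜ, |mu d t h - q| = 1 - S.card * q := by
    rw [Finset.sum_congr rfl fun h hh => by rw [h0 h hh, zero_sub, abs_neg, abs_of_nonneg hq0],
      Finset.sum_const, Finset.card_compl, nsmul_eq_mul, Nat.cast_sub (Finset.card_le_univ S), hq]
    field_simp
  rw [← Finset.sum_add_sum_compl S, h3]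
  have h4 : S.card * q ≤ 2 ^ (2 ^ d * t) / (Fintype.card (Grp (d + 1)) : ℝ) := by
    rw [hq, mul_one_div]; gcongr
  linarith

end Link

open Link in
theorem linkStmt : LinkStmt := by
  intro d s
  rw [tv_eq]
  refine mul_le_mul_of_nonneg_left (Real.le_sqrt_of_sq_le ?_) (by norm_num)
  refine (sq_sum_le_card_mul_sum_sq).trans (le_of_eq ?_)
  rw [← Th_pow_mul, Finset.card_univ, ← nsmul_eq_mul, ← Finset.card_univ, ← Finset.sum_const]
  refine Finset.sum_congr rfl fun x _ => ?_
  simp only [Th_pow_apply, sq_abs]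
  exact (Fintype.sum_equiv (Equiv.mulRight x⁻¹) _ _ fun y => rfl).symm

end Crest.Agent.R155
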