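import Crest.Agent.R155.PW2

/-! Row 155, part B2: the compressed exponential of `W`. -/

set_option autoImplicit false

namespace Crest.Agent.R155.PW

open Finset Matrix
open scoped BigOperators symmDiff

variable {D j : ℕ} (t : Fin D)

lemma hseq_nonneg {Nd : Type} [Fintype Nd] [DecidableEq Nd] (m : ℕ) (jw : Nd → ℕ) (s : ℕ) :
    ∀ o, 0 ≤ hseq m jw s o := by
  induction s with
  | zero => intro o; simp only [hseq]; split_ifs <;> norm_num
  | succ s ih =>
    intro o
    simp only [hseq, That]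
    refine sum_nonneg fun w _ => ?_
    have := ih o
    have := ih (Function.update o w (o w - 2))
    have := ih (Function.update o w (o w + 2))
    positivity

lemma dom_pow (x₀ : Tup j D) (s : ℕ) :
    Dom t x₀ (Pm D (Tup j D) t * Wm D (Tup j D) t ^ s) (hseq (2 ^ t.val) (jw t x₀) s) := by
  induction s with
  | zero =>
    intro O hO F hF _
    rw [pow_zero, Matrix.mul_one]
    simp only [hseq]
    split_ifs with h
    · rw [one_mul]; exact l1_Pm_le t F
    · have : O.Nonempty := by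
        rw [nonempty_iff_ne_empty]
        rintro rfl
        exact h (by funext w; simp [cnt])
      rw [Pm_eq_zero t hO this hF]
      simp [l1]
  | succ s ih =>
    rw [pow_succ, ← Matrix.mul_assoc]
    exact ih.step t (hseq_nonneg _ _ s)

lemma col_le (x₀ : Tup j D) (s : ℕ) :
    ∑ y, |(Pm D (Tup j D) t * Wm D (Tup j D) t ^ s * Pm D (Tup j D) t) y x₀| ≤
      hseq (2 ^ t.val) (jw t x₀) s 0 := by
  set F : Tup j D → ℝ := Pm D (Tup j D) t *ᵥ Pi.single x₀ 1 with hF
  have h1 : Sec t ∅ F := by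
    intro w _
    have : A (sig t w) F = pm D (Tup j D) (sig t w) *ᵥ F := (pm_mulVec _ _ _ _).symm
    rw [this, hF, mulVec_mulVec, sig, pm_sw_mul_Pm]
    simp [sgn]
  have h2 : Supp t x₀ F := by
    intro x hx a
    by_contra hc
    apply hx
    rw [hF, Pm_mulVec]
    refine expect_eq_zero fun c _ => ?_
    rw [Pi.single_apply, if_neg]
    rintro rfl
    exact hc (by rw [tup_smul_apply, node_sw])
  have h3 : l1 F ≤ 1 := by
    refine (l1_Pm_le t _).trans ?_
    simp [l1, Pi.single_apply, apply_ite abs]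
  have h4 := dom_pow t x₀ s ∅ (empty_subset _) F h1 h2
  have h5 : cnt t (∅ : Finset (Pos D)) = 0 := by funext w; simp [cnt]
  rw [h5, hF, mulVec_mulVec, mulVec_single_one] at h4
  refine le_trans h4 ?_
  exact mul_le_of_le_one_right (hseq_nonneg _ _ _ _) h3

lemma Ci_transpose (i : ℕ) : (Ci D (Tup j D) i)ᵀ = Ci D (Tup j D) i := by
  simp only [Ci, transpose_sum]
  refine sum_congr rfl fun x _ => sum_congr rfl fun y _ => ?_
  split_ifs
  · simp [pm_transpose]
  · simp

lemma Wm_transpose : (Wm D (Tup j D) t)ᵀ = Wm D (Tup j D) t := by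
  simp [Wm, Ci_transpose]

lemma schur {X : Type} [Fintype X] (M : Matrix X X ℝ) (hM : Mᵀ = M) (a : ℝ)
    (h : ∀ x, ∑ y, |M y x| ≤ a) (F : X → ℝ) : F ⬝ᵥ (M *ᵥ F) ≤ a * (F ⬝ᵥ F) := by
  have hs : ∀ x y, M x y = M y x := fun x y => by rw [← transpose_apply M, hM]
  have k : ∑ x, ∑ y, |M y x| * (F x * F x) ≤ a * (F ⬝ᵥ F) := by
    rw [dotProduct, mul_sum]
    refine sum_le_sum fun x _ => ?_
    rw [← sum_mul]
    exact mul_le_mul_of_nonneg_right (h x) (mul_self_nonneg _)
  have k2 : ∑ x, ∑ y, |M y x| * (F y * F y) ≤ a * (F ⬝ᵥ F) := by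
    rw [sum_comm]
    refine le_trans (le_of_eq ?_) k
    exact sum_congr rfl fun x _ => sum_congr rfl fun y _ => by rw [hs]
  have k3 : F ⬝ᵥ (M *ᵥ F) ≤
      ∑ x, ∑ y, (1 / 2 : ℝ) * (|M y x| * (F x * F x) + |M y x| * (F y * F y)) := by
    simp only [dotProduct, mulVec, mul_sum]
    refine sum_le_sum fun x _ => sum_le_sum fun y _ => ?_
    rw [hs x y]
    rcases abs_cases (M y x) with h1 | h1 <;> rw [h1.1] <;>
      nlinarith [mul_self_nonneg (F x - F y), mul_self_nonneg (F x + F y), h1.2]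
  simp only [← mul_sum, sum_add_distrib] at k3
  linarith

end Crest.Agent.R155.PW

namespace Crest.Agent.R155

open Finset Matrix PW
open scoped BigOperators

theorem pwStmt_of (h : SuperStmt) : PWStmt := by
  intro D j t F J
  set γ : ℕ → ℝ := fun s => (1 / (24 * (2 : ℝ) ^ t.val)) ^ s / (s.factorial : ℝ) with hγ
  have hγ0 : ∀ s, 0 ≤ γ s := fun s => by positivity
  set N : ℕ → Matrix (Tup j D) (Tup j D) ℝ :=
    fun s => Pm D (Tup j D) t * Wm D (Tup j D) t ^ s * Pm D (Tup j D) t with hN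
  have e : ∑ s ∈ range J, γ s * (F ⬝ᵥ (N s *ᵥ F)) = F ⬝ᵥ ((∑ s ∈ range J, γ s • N s) *ᵥ F) := by
    simp only [Matrix.sum_mulVec, dotProduct_sum, Matrix.smul_mulVec, dotProduct_smul, smul_eq_mul]
  change ∑ s ∈ range J, γ s * (F ⬝ᵥ (N s *ᵥ F)) ≤ _
  rw [e]
  refine schur _ ?_ _ (fun x => ?_) F
  · simp only [transpose_sum, transpose_smul, hN, transpose_mul, transpose_pow, Pm_transpose,
      Wm_transpose, Matrix.mul_assoc]
  · have h1 := h (Pos D) (2 ^ t.val) (jw t x) J Nat.one_le_two_pow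
    rw [sum_jw] at h1
    push_cast at h1
    refine le_trans ?_ h1
    calc ∑ y, |(∑ s ∈ range J, γ s • N s) y x| ≤ ∑ y, ∑ s ∈ range J, γ s * |N s y x| := by
          refine sum_le_sum fun y _ => ?_
          rw [Matrix.sum_apply]
          refine (abs_sum_le_sum_abs _ _).trans (le_of_eq (sum_congr rfl fun s _ => ?_))
          rw [Matrix.smul_apply, smul_eq_mul, abs_mul, abs_of_nonneg (hγ0 s)]
      _ = ∑ s ∈ range J, γ s * ∑ y, |N s y x| := by
          rw [sum_comm]; simp only [mul_sum]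
      _ ≤ _ := sum_le_sum fun s _ => mul_le_mul_of_nonneg_left (col_le t x s) (hγ0 s)

end Crest.Agent.R155
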