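import Crest.Agent.R155.Basic

/-!
# Row 155, part B3: comparison of the Beneš network with the random transposition semigroup
-/

set_option autoImplicit false

namespace Crest.Agent.R155

open Finset Matrix
open scoped BigOperators

namespace PP

section exp
variable {X : Type} [Fintype X] [DecidableEq X]

open scoped Matrix.Norms.Operator in
theorem hasSum_exp (M : Matrix X X ℝ) :
    HasSum (fun n : ℕ => ((n.factorial : ℝ)⁻¹) • M ^ n) (NormedSpace.exp M) :=
  NormedSpace.exp_series_hasSum_exp' (𝕂 := ℝ) M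

theorem hasSum_form (M P Q : Matrix X X ℝ) (F G : X → ℝ) :
    HasSum (fun n : ℕ => ((n.factorial : ℝ)⁻¹) * (F ⬝ᵥ ((P * M ^ n * Q) *ᵥ G)))
      (F ⬝ᵥ ((P * NormedSpace.exp M * Q) *ᵥ G)) := by
  let L : Matrix X X ℝ →+ ℝ :=
    { toFun := fun A => F ⬝ᵥ ((P * A * Q) *ᵥ G)
      map_zero' := by simp
      map_add' := by
        intro A B
        simp [Matrix.mul_add, Matrix.add_mul, Matrix.add_mulVec, dotProduct_add] }
  have hL : Continuous L := by
    show Continuous fun A : Matrix X X ℝ => F ⬝ᵥ ((P * A * Q) *ᵥ G)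
    fun_prop
  have h := (hasSum_exp M).map L hL
  convert h using 2 with n
  · simp [L, Matrix.smul_mulVec]
  · rfl

theorem form_exp_eigen (M : Matrix X X ℝ) (F : X → ℝ) (μ : ℝ) (h : M *ᵥ F = μ • F) :
    F ⬝ᵥ (NormedSpace.exp M *ᵥ F) = Real.exp μ * (F ⬝ᵥ F) := by
  have h1 := hasSum_form M 1 1 F F
  have hp : ∀ n : ℕ, M ^ n *ᵥ F = μ ^ n • F := by
    intro n
    induction n with
    | zero => simp
    | succ n ih => rw [pow_succ, ← Matrix.mulVec_mulVec, h, Matrix.mulVec_smul, ih, smul_smul,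
        pow_succ, mul_comm]
  simp only [Matrix.one_mul, Matrix.mul_one, hp, dotProduct_smul, smul_eq_mul] at h1
  have h2 := (NormedSpace.exp_series_hasSum_exp' (𝕂 := ℝ) μ).mul_right (F ⬝ᵥ F)
  rw [← Real.exp_eq_exp_ℝ] at h2
  simp only [smul_eq_mul, mul_assoc] at h2
  exact h1.unique h2

end exp

section comm
variable (D : ℕ) (X : Type) [Fintype X] [DecidableEq X] [MulAction (Grp D) X]

theorem sameHi_symm {D : ℕ} {i : ℕ} {x y : Pos D} (h : sameHi i x y) : sameHi i y x :=
  fun t ht => (h t ht).symm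

theorem sameHi_trans {D : ℕ} {i : ℕ} {x y z : Pos D} (h : sameHi i x y) (h' : sameHi i y z) :
    sameHi i x z := fun t ht => (h t ht).trans (h' t ht)

theorem pm_commute_Ci (i : ℕ) (g : Grp D) (hg : ∀ x, sameHi i (g x) x) :
    Commute (pm D X g) (Ci D X i) := by
  show pm D X g * Ci D X i = Ci D X i * pm D X g
  simp only [Ci, Matrix.sum_mul, Matrix.mul_sum]
  refine Fintype.sum_equiv g⁻¹ _ _ fun x => Fintype.sum_equiv g⁻¹ _ _ fun y => ?_
  have hx : sameHi i x (g⁻¹ x) := by simpa using hg (g⁻¹ x)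
  have hy : sameHi i y (g⁻¹ y) := by simpa using hg (g⁻¹ y)
  have hiff : sameHi i x y ↔ sameHi i (g⁻¹ x) (g⁻¹ y) :=
    ⟨fun h => sameHi_trans (sameHi_symm hx) (sameHi_trans h hy),
     fun h => sameHi_trans hx (sameHi_trans h (sameHi_symm hy))⟩
  by_cases h : sameHi i x y
  · rw [if_pos h, if_pos (hiff.mp h)]
    simp only [Matrix.sub_mul, Matrix.mul_sub, pm_mul, Matrix.one_mul, Matrix.mul_one]
    congr 2
    rw [Equiv.mul_swap_eq_swap_mul]
    simp
  · rw [if_neg h, if_neg (fun h' => h (hiff.mpr h'))]; simp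

theorem Pm_commute_Ci (t : Fin D) : Commute (Pm D X t) (Ci D X (t.val + 1)) := by
  rw [Pm_eq_smul_sum]
  apply Commute.smul_left
  apply Commute.sum_left
  intro c _
  apply pm_commute_Ci
  intro x s hs
  exact sw_apply_ne _ _ _ (by intro e; rw [e] at hs; omega)

theorem Ci_commute_Ci (i : ℕ) : Commute (Ci D X i) (Ci D X (i + 1)) := by
  conv_lhs => unfold Ci
  apply Commute.sum_left
  intro x _
  apply Commute.sum_left
  intro y _
  split_ifs with h
  · apply Commute.sub_left (Commute.one_left _)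
    apply pm_commute_Ci
    intro z s hs
    have h' := h s (by omega)
    rw [Equiv.swap_apply_def]
    split_ifs with h1 h2
    · rw [h1, h']
    · rw [h2, h']
    · rfl
  · exact Commute.zero_left _

theorem Wm_commute_Ci (t : Fin D) : Commute (Wm D X t) (Ci D X (t.val + 1)) :=
  Commute.sub_left (Commute.smul_left (Commute.refl _) _) (Ci_commute_Ci D X t.val)

omit [Fintype X] in
theorem Ci_transpose (i : ℕ) : (Ci D X i)ᵀ = Ci D X i := by
  simp only [Ci, transpose_sum]
  refine sum_congr rfl fun x _ => sum_congr rfl fun y _ => ?_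
  split_ifs <;> simp [pm_transpose]

omit [Fintype X] in
theorem Ci_zero : Ci D X 0 = 0 := by
  unfold Ci
  refine sum_eq_zero fun x _ => sum_eq_zero fun y _ => ?_
  split_ifs with h
  · have : x = y := funext fun t => h t (Nat.zero_le _)
    subst this
    rw [Equiv.swap_self]
    exact sub_eq_zero.mpr (pm_one D X).symm
  · rfl

end comm

noncomputable def theta (i : ℕ) : ℝ := 0.0225 * (2 / 3 - 2 / 2 ^ i + (4 / 3) / (2 ^ i) ^ 2)

theorem theta_le (i : ℕ) : theta i ≤ 0.015 := by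
  unfold theta
  have h1 : (1 : ℝ) ≤ 2 ^ i := one_le_pow₀ (by norm_num)
  have : (4 / 3 : ℝ) / (2 ^ i) ^ 2 ≤ 2 / 2 ^ i := by
    rw [div_le_div_iff₀ (by positivity) (by positivity)]
    nlinarith
  linarith

theorem main (hPW : PWStmt) (D j i : ℕ) (hi : i ≤ D) (F : Tup j D → ℝ) :
    F ⬝ᵥ (Bmat D (Tup j D) i *ᵥ F) ≤ Real.exp (theta i * j) *
      (F ⬝ᵥ (NormedSpace.exp ((-(1 / (24 * (2 : ℝ) ^ i))) • Ci D (Tup j D) i) *ᵥ F)) := by
  induction i generalizing F with
  | zero =>
    have : theta 0 = 0 := by norm_num [theta]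
    simp [Bmat_zero, Ci_zero, this]
  | succ i ih =>
    have hlt : i < D := hi
    set t : Fin D := ⟨i, hlt⟩ with ht
    have hit : i = t.val := rfl
    set P := Pm D (Tup j D) t with hP
    set W := Wm D (Tup j D) t with hW
    set C := Ci D (Tup j D) (i + 1) with hC
    set γ : ℝ := 1 / (24 * (2 : ℝ) ^ i) with hγ
    set E := NormedSpace.exp ((-(γ / 4)) • C) with hE
    have hPt : Pᵀ = P := Pm_transpose _ _ _
    have hEt : Eᵀ = E := by
      rw [hE, ← Matrix.exp_transpose, transpose_smul, Ci_transpose]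
    have hPC : Commute P C := Pm_commute_Ci D _ t
    have hWC : Commute W C := Wm_commute_Ci D _ t
    have hPE : Commute P E := (hPC.smul_right _).exp_right
    have hEE : E * E = NormedSpace.exp ((-(1 / (24 * (2 : ℝ) ^ (i + 1)))) • C) := by
      rw [hE, ← Matrix.exp_add_of_commute _ _ (Commute.refl _), ← add_smul]
      congr 2
      rw [hγ]; field_simp; ring
    have hdec : NormedSpace.exp ((-γ) • Ci D (Tup j D) i) = E * NormedSpace.exp (γ • W) * E := by
      have c1 : Commute ((-(γ / 4)) • C) (γ • W) := (hWC.symm.smul_right _).smul_left _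
      have c2 : Commute ((-(γ / 4)) • C + γ • W) ((-(γ / 4)) • C) :=
        (Commute.refl _).add_left c1.symm
      rw [hE, ← Matrix.exp_add_of_commute _ _ c1, ← Matrix.exp_add_of_commute _ _ c2]
      congr 1
      rw [hW, Wm, ← hit, ← hC]
      module
    have hA : ∀ G : Tup j D → ℝ, G ⬝ᵥ ((P * NormedSpace.exp (γ • W) * P) *ᵥ G) ≤
        Real.exp (0.0225 * (j : ℝ) * ((2 : ℝ) ^ i - 1) / ((2 : ℝ) ^ i) ^ 2) * (G ⬝ᵥ G) := by
      intro G
      refine le_of_tendsto' (hasSum_form (γ • W) P P G G).tendsto_sum_nat fun J => ?_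
      refine le_trans (le_of_eq ?_) (hPW D j t G J)
      refine sum_congr rfl fun s _ => ?_
      rw [smul_pow, Matrix.mul_smul, Matrix.smul_mul, Matrix.smul_mulVec, dotProduct_smul,
        smul_eq_mul, ← mul_assoc]
      congr 1
      rw [div_eq_inv_mul]
    have e1 : F ⬝ᵥ (Bmat D (Tup j D) (i + 1) *ᵥ F)
        = (P *ᵥ F) ⬝ᵥ (Bmat D (Tup j D) i *ᵥ (P *ᵥ F)) := by
      rw [Bmat_succ, hit, Pn_of_lt, ← hP, ← Matrix.mulVec_mulVec, ← Matrix.mulVec_mulVec,
        dotProduct_mulVec, ← Matrix.mulVec_transpose, hPt]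
    have e2 : (P *ᵥ F) ⬝ᵥ (NormedSpace.exp ((-γ) • Ci D (Tup j D) i) *ᵥ (P *ᵥ F))
        = (E *ᵥ F) ⬝ᵥ ((P * NormedSpace.exp (γ • W) * P) *ᵥ (E *ᵥ F)) := by
      rw [hdec]
      nth_rewrite 1 [← hPt]
      nth_rewrite 3 [← hEt]
      rw [Matrix.mulVec_transpose, Matrix.mulVec_transpose, ← dotProduct_mulVec,
        ← dotProduct_mulVec]
      simp only [Matrix.mulVec_mulVec]
      congr 2
      simp only [← Matrix.mul_assoc]
      rw [hPE.eq, Matrix.mul_assoc _ E P, Matrix.mul_assoc _ P E, hPE.eq]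
    have e3 : (E *ᵥ F) ⬝ᵥ (E *ᵥ F)
        = F ⬝ᵥ (NormedSpace.exp ((-(1 / (24 * (2 : ℝ) ^ (i + 1)))) • C) *ᵥ F) := by
      rw [← hEE, ← Matrix.mulVec_mulVec, dotProduct_mulVec F E, ← Matrix.mulVec_transpose, hEt]
    rw [e1, ← e3]
    refine (ih hlt.le _).trans ?_
    rw [e2]
    refine (mul_le_mul_of_nonneg_left (hA _) (Real.exp_pos _).le).trans (le_of_eq ?_)
    rw [← mul_assoc, ← Real.exp_add]
    congr 2
    unfold theta
    field_simp
    ring

end PP

open PP in
theorem propP_of (hPW : PWStmt) : PropP := by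
  intro D j F c hc
  refine (main hPW D j D le_rfl F).trans ?_
  rw [Ci_top, form_exp_eigen _ F (-(1 / (24 * (2 : ℝ) ^ D)) * c)
    (by rw [Matrix.smul_mulVec, hc, smul_smul]), ← mul_assoc, ← Real.exp_add]
  apply mul_le_mul_of_nonneg_right _ (dotProduct_self_star_nonneg F)
  apply Real.exp_le_exp.mpr
  have := mul_le_mul_of_nonneg_right (theta_le D) (Nat.cast_nonneg (α := ℝ) j)
  have e : -(1 / (24 * (2 : ℝ) ^ D)) * c = -(c / (24 * 2 ^ D)) := by ring
  linarith

end Crest.Agent.R155
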