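import Crest.Agent.R155.Basic

/-!
# Row 155, part E2: the Laplacian on level `k` and near orthogonality of translates
-/

set_option autoImplicit false

namespace Crest.Agent.R155

open Finset Matrix
open scoped BigOperators

namespace Rep

variable {D : ℕ}

/-- the complete-graph Laplacian of `Om`, acting on the right -/
def CO (Om : Finset (Pos D)) (u : Grp D → ℝ) (g : Grp D) : ℝ :=
  ∑ x ∈ Om, ∑ y ∈ Om, (u g - u (g * Equiv.swap x y))

theorem Cmat_eq (u : Grp D → ℝ) (g : Grp D) : (Cmat D (Grp D) *ᵥ u) g = CO univ u g := by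
  rw [Cmat_mulVec]
  unfold CO
  refine (Fintype.sum_equiv g _ _ fun x => Fintype.sum_equiv g _ _ fun y => ?_).symm
  rw [Equiv.mul_swap_eq_swap_mul, smul_eq_mul]

theorem dot_right (h : Grp D) (v w : Grp D → ℝ) :
    (fun g => v (g * h)) ⬝ᵥ w = v ⬝ᵥ fun g => w (g * h⁻¹) := by
  unfold dotProduct
  exact Fintype.sum_equiv (Equiv.mulRight h) _ _ fun g => by simp

theorem dot_self_right (h : Grp D) (v : Grp D → ℝ) :
    (fun g => v (g * h)) ⬝ᵥ (fun g => v (g * h)) = v ⬝ᵥ v := by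
  rw [dot_right]; simp

theorem orth_right {k : ℕ} {v : Grp D → ℝ} (hv : Orth k v) (h : Grp D) :
    Orth k fun g => v (g * h) := by
  intro A hA w hw
  rw [dot_right]
  refine hv (A.image (h⁻¹ : Grp D))
    (by rw [Finset.card_image_of_injective _ (Equiv.injective _), hA]) _ ?_
  intro g g' hgg
  refine hw _ _ fun a ha => ?_
  exact hgg _ (Finset.mem_image_of_mem _ ha)

/-- `Orth k` as a submodule -/
def orthS (D k : ℕ) : Submodule ℝ (Grp D → ℝ) where
  carrier := {u | Orth k u}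
  add_mem' := fun {u u'} hu hu' A hA z hz => by
    rw [add_dotProduct, hu A hA z hz, hu' A hA z hz, add_zero]
  zero_mem' := fun _ _ _ _ => zero_dotProduct _
  smul_mem' := fun c u hu A hA z hz => by rw [smul_dotProduct, hu A hA z hz, smul_zero]

theorem harmonic {A : Finset (Pos D)} {u : Grp D → ℝ} (hu : DepOn A u) (a : Pos D) :
    DepOn (A.erase a) fun g => ∑ x ∈ (A.erase a)ᶜ, u (g * Equiv.swap x a) := by
  intro g h hgh
  have hσ : ∀ b ∈ A.erase a, (h⁻¹ * g) b = b := fun b hb => by simp [hgh b hb]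
  have hmem : ∀ x, x ∈ (A.erase a)ᶜ ↔ (h⁻¹ * g) x ∈ (A.erase a)ᶜ := by
    intro x
    simp only [Finset.mem_compl]
    refine not_congr ⟨fun hx => by rwa [hσ x hx], fun hx => ?_⟩
    have := (h⁻¹ * g).injective (hσ _ hx)
    rwa [← this]
  refine Finset.sum_equiv (h⁻¹ * g) hmem fun x hx => hu _ _ fun b hb => ?_
  by_cases hba : b = a
  · subst hba; simp
  · have hb' : b ∈ A.erase a := Finset.mem_erase.2 ⟨hba, hb⟩
    have h1 : b ≠ x := fun e => (Finset.mem_compl.1 hx) (e ▸ hb')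
    have h2 : b ≠ (h⁻¹ * g) x := fun e => (Finset.mem_compl.1 ((hmem x).1 hx)) (e ▸ hb')
    rw [Equiv.Perm.mul_apply, Equiv.Perm.mul_apply, Equiv.swap_apply_of_ne_of_ne h1 hba,
      Equiv.swap_apply_of_ne_of_ne h2 hba, hgh b hb']

theorem compl_erase {A : Finset (Pos D)} (a : Pos D) : (A.erase a)ᶜ = insert a Aᶜ := by
  ext x; by_cases h : x = a <;> simp [h]

theorem sum_harm {A : Finset (Pos D)} {a : Pos D} (ha : a ∈ A) (u : Grp D → ℝ) (g : Grp D) :
    ∑ x ∈ (A.erase a)ᶜ, u (g * Equiv.swap x a) = u g + ∑ x ∈ Aᶜ, u (g * Equiv.swap x a) := by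
  rw [compl_erase, Finset.sum_insert (by simpa using ha)]
  simp [← Equiv.Perm.one_def]

theorem harm_zero {k : ℕ} {A : Finset (Pos D)} {u : Grp D → ℝ} (hA : A.card = k)
    (hu : DepOn A u) (ho : Orth (k - 1) u) {a : Pos D} (ha : a ∈ A) (g : Grp D) :
    u g + ∑ x ∈ Aᶜ, u (g * Equiv.swap x a) = 0 := by
  have h1 : (fun g => ∑ x ∈ (A.erase a)ᶜ, u (g * Equiv.swap x a)) ∈ orthS D (k - 1) := by
    have : (fun g => ∑ x ∈ (A.erase a)ᶜ, u (g * Equiv.swap x a))
        = ∑ x ∈ (A.erase a)ᶜ, fun g => u (g * Equiv.swap x a) := by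
      funext g; simp only [Finset.sum_apply]
    rw [this]
    exact Submodule.sum_mem _ fun x _ => orth_right ho _
  have h2 := h1 (A.erase a) (by rw [Finset.card_erase_of_mem ha, hA]) _ (harmonic hu a)
  have h3 := congrFun (dotProduct_self_eq_zero.1 h2) g
  rwa [sum_harm ha] at h3

theorem split {Om A : Finset (Pos D)} {w : Grp D → ℝ} (hA : A ⊆ Om) (hw : DepOn Aᶜ w)
    (hh : ∀ y ∈ Om \ A, ∀ g, w g + ∑ x ∈ A, w (g * Equiv.swap x y) = 0) (g : Grp D) :
    CO Om w g = 2 * ((Om \ A).card : ℝ) * (A.card + 1) * w g + CO (Om \ A) w g := by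
  have h0 : ∑ x ∈ A, ∑ y ∈ A, (w g - w (g * Equiv.swap x y)) = 0 := by
    refine Finset.sum_eq_zero fun x hx => Finset.sum_eq_zero fun y hy => ?_
    rw [sub_eq_zero]
    refine hw _ _ fun b hb => ?_
    rw [Finset.mem_compl] at hb
    have h1 : b ≠ x := fun e => hb (e ▸ hx)
    have h2 : b ≠ y := fun e => hb (e ▸ hy)
    rw [Equiv.Perm.mul_apply, Equiv.swap_apply_of_ne_of_ne h1 h2]
  have h1 : ∑ y ∈ Om \ A, ∑ x ∈ A, (w g - w (g * Equiv.swap x y))
      = ((Om \ A).card : ℝ) * (A.card + 1) * w g := by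
    rw [Finset.sum_congr rfl (g := fun _ => (A.card + 1) * w g)]
    · simp [mul_assoc]
    · intro y hy
      have := hh y hy g
      rw [Finset.sum_sub_distrib, Finset.sum_const, nsmul_eq_mul]
      linarith
  have h2 : ∑ x ∈ A, ∑ y ∈ Om \ A, (w g - w (g * Equiv.swap x y))
      = ((Om \ A).card : ℝ) * (A.card + 1) * w g := by
    rw [Finset.sum_comm, h1]
  have h3 : ∑ x ∈ Om \ A, ∑ y ∈ A, (w g - w (g * Equiv.swap x y))
      = ((Om \ A).card : ℝ) * (A.card + 1) * w g := by
    rw [← h1]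
    simp only [Equiv.swap_comm]
  unfold CO
  rw [← Finset.sum_sdiff hA]
  simp only [← Finset.sum_sdiff hA, Finset.sum_add_distrib]
  rw [h0, h2, h3]
  ring

theorem CO_swap {Om : Finset (Pos D)} {p q : Pos D} (hp : p ∈ Om) (hq : q ∈ Om)
    (v : Grp D → ℝ) (g : Grp D) :
    CO Om (fun g => v (g * Equiv.swap p q)) g = CO Om v (g * Equiv.swap p q) := by
  have hmem : ∀ x, x ∈ Om ↔ Equiv.swap p q x ∈ Om := by
    intro x
    rw [Equiv.swap_apply_def]
    split_ifs with h1 h2
    · simp [h1, hp, hq]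
    · simp [h2, hp, hq]
    · rfl
  unfold CO
  symm
  refine Finset.sum_equiv (Equiv.swap p q) hmem fun x _ =>
    Finset.sum_equiv (Equiv.swap p q) hmem fun y _ => ?_
  beta_reduce
  rw [mul_assoc, mul_assoc, Equiv.mul_swap_eq_swap_mul (Equiv.swap p q)]

theorem depOn_compl_singleton (x : Pos D) (v : Grp D → ℝ) : DepOn {x}ᶜ v := by
  intro g h hgh
  have hne : ∀ b, b ≠ x → g b = h b := fun b hb => hgh b (by simpa using hb)
  have : g = h := by
    ext1 b
    by_cases hb : b = x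
    · subst hb
      by_contra hc
      obtain ⟨y, hy⟩ := h.surjective (g b)
      have hyb : y ≠ b := fun e => hc (by rw [← hy, e])
      exact hyb (g.injective ((hne y hyb).trans hy))
    · exact hne b hb
  rw [this]

theorem lemmaL (N : ℕ) : ∀ (Om : Finset (Pos D)) (E : Submodule ℝ (Grp D → ℝ)) (a : ℕ)
    (v : Grp D → ℝ) (c : ℝ), Om.card = N →
    (∀ p ∈ Om, ∀ q ∈ Om, ∀ u ∈ E, (fun g => u (g * Equiv.swap p q)) ∈ E) →
    (∀ u ∈ E, ∀ S ⊆ Om, S.card = a + 1 → DepOn Sᶜ u → u = 0) →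
    v ∈ E → v ≠ 0 → (∀ g, CO Om v g = c * v g) → (N : ℝ) * (N - a) ≤ c := by
  induction N using Nat.strong_induction_on with
  | _ N ih =>
  intro Om E a v c hN hE ha hv hv0 hc
  classical
  rcases Om.eq_empty_or_nonempty with rfl | ⟨x₀, hx₀⟩
  · obtain ⟨g, hg⟩ := Function.ne_iff.1 hv0
    have h1 := hc g
    simp only [CO, Finset.sum_empty] at h1
    have h2 : c = 0 := (mul_eq_zero.1 h1.symm).resolve_right hg
    rw [← hN, h2]; simp
  let Ec : Submodule ℝ (Grp D → ℝ) :=
    { carrier := {u | u ∈ E ∧ ∀ g, CO Om u g = c * u g}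
      add_mem' := fun {u u'} hu hu' => ⟨add_mem hu.1 hu'.1, fun g => by
        have h1 := hu.2 g
        have h2 := hu'.2 g
        simp only [CO, Pi.add_apply] at h1 h2 ⊢
        rw [mul_add, ← h1, ← h2, ← Finset.sum_add_distrib]
        refine Finset.sum_congr rfl fun x _ => ?_
        rw [← Finset.sum_add_distrib]
        exact Finset.sum_congr rfl fun y _ => by ring⟩
      zero_mem' := ⟨zero_mem _, fun g => by simp [CO]⟩
      smul_mem' := fun r u hu => ⟨E.smul_mem r hu.1, fun g => by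
        have h1 := hu.2 g
        simp only [CO, Pi.smul_apply, smul_eq_mul] at h1 ⊢
        rw [mul_left_comm, ← h1, Finset.mul_sum]
        refine Finset.sum_congr rfl fun x _ => ?_
        rw [Finset.mul_sum]
        exact Finset.sum_congr rfl fun y _ => by ring⟩ }
  have hEc : ∀ p ∈ Om, ∀ q ∈ Om, ∀ u ∈ Ec, (fun g => u (g * Equiv.swap p q)) ∈ Ec :=
    fun p hp q hq u hu => ⟨hE p hp q hq u hu.1, fun g => by rw [CO_swap hp hq, hu.2]⟩
  obtain ⟨A, hA, hmax⟩ := Finset.exists_max_image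
    (Om.powerset.filter fun A => ∃ w ∈ Ec, w ≠ 0 ∧ DepOn Aᶜ w) Finset.card
    ⟨{x₀}, Finset.mem_filter.2 ⟨by simpa using hx₀, v, ⟨hv, hc⟩, hv0, depOn_compl_singleton _ _⟩⟩
  obtain ⟨hAO, w, hw, hw0, hwd⟩ := Finset.mem_filter.1 hA
  rw [Finset.mem_powerset] at hAO
  have h1 : 1 ≤ A.card := by
    simpa using hmax {x₀}
      (Finset.mem_filter.2 ⟨by simpa using hx₀, v, ⟨hv, hc⟩, hv0, depOn_compl_singleton _ _⟩)
  have hz : ∀ u ∈ Ec, ∀ S ⊆ Om, S.card = A.card + 1 → DepOn Sᶜ u → u = 0 := by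
    intro u hu S hS hcard hd
    by_contra h0
    have := hmax S (Finset.mem_filter.2 ⟨Finset.mem_powerset.2 hS, u, hu, h0, hd⟩)
    omega
  have h2 : A.card ≤ a := by
    by_contra hlt
    obtain ⟨S, hS, hcard⟩ := Finset.exists_subset_card_eq (s := A) (n := a + 1) (by omega)
    refine hw0 (ha w hw.1 S (hS.trans hAO) hcard fun g h hgh => hwd g h fun b hb => hgh b ?_)
    exact Finset.compl_subset_compl.2 hS hb
  have hh : ∀ y ∈ Om \ A, ∀ g, w g + ∑ x ∈ A, w (g * Equiv.swap x y) = 0 := by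
    intro y hy g
    obtain ⟨hyO, hyA⟩ := Finset.mem_sdiff.1 hy
    have hd := harmonic hwd y
    have hsub : (Aᶜ.erase y)ᶜ ⊆ Om := by
      rw [compl_erase, compl_compl]
      exact Finset.insert_subset hyO hAO
    have hmem : (fun g => ∑ x ∈ (Aᶜ.erase y)ᶜ, w (g * Equiv.swap x y)) ∈ Ec := by
      have : (fun g => ∑ x ∈ (Aᶜ.erase y)ᶜ, w (g * Equiv.swap x y))
          = ∑ x ∈ (Aᶜ.erase y)ᶜ, fun g => w (g * Equiv.swap x y) := by
        funext g; simp only [Finset.sum_apply]
      rw [this]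
      exact Submodule.sum_mem _ fun x hx => hEc x (hsub hx) y hyO w hw
    have h3 := hz _ hmem _ hsub
      (by rw [compl_erase, compl_compl, Finset.card_insert_of_notMem hyA])
      (by rw [compl_compl]; exact hd)
    have h4 := congrFun h3 g
    rwa [sum_harm (Finset.mem_compl.2 hyA), compl_compl] at h4
  have hle : A.card ≤ N := hN ▸ Finset.card_le_card hAO
  have hcard : (Om \ A).card = N - A.card := by rw [Finset.card_sdiff_of_subset hAO, hN]
  have h5 := ih (N - A.card) (by omega) (Om \ A) Ec A.card w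
    (c - 2 * ((Om \ A).card : ℝ) * (A.card + 1)) hcard
    (fun p hp q hq => hEc p (Finset.sdiff_subset hp) q (Finset.sdiff_subset hq))
    (fun u hu S hS => hz u hu S (hS.trans Finset.sdiff_subset)) hw hw0
    (fun g => by have := split hAO hwd hh g; rw [hw.2 g] at this; linarith)
  rw [hcard, Nat.cast_sub hle] at h5
  have h6 : (A.card : ℝ) ≤ N := by exact_mod_cast hle
  have h7 : (A.card : ℝ) ≤ a := by exact_mod_cast h2
  have h8 : (0 : ℝ) ≤ N := Nat.cast_nonneg _
  nlinarith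

theorem dot_CO_nonneg (A : Finset (Pos D)) (u : Grp D → ℝ) : 0 ≤ u ⬝ᵥ CO A u := by
  have h : ∀ h : Grp D, ∑ g, u g * u (g * h) ≤ ∑ g, u g * u g := by
    intro h
    have h1 := dot_self_right h u
    unfold dotProduct at h1
    have h2 : ∑ g, u g * u (g * h) ≤ ∑ g, (u g * u g + u (g * h) * u (g * h)) / 2 :=
      Finset.sum_le_sum fun g _ => by nlinarith [sq_nonneg (u g - u (g * h))]
    rw [← Finset.sum_div, Finset.sum_add_distrib, h1] at h2
    linarith
  unfold dotProduct CO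
  simp only [Finset.mul_sum]
  rw [Finset.sum_comm]
  refine Finset.sum_nonneg fun x _ => ?_
  rw [Finset.sum_comm]
  refine Finset.sum_nonneg fun y _ => ?_
  simp only [mul_sub, Finset.sum_sub_distrib]
  exact sub_nonneg.2 (h _)

/-! ### the Gram bound -/

/-- correlation with a translate -/
def phi (u' u : Grp D → ℝ) (h : Grp D) : ℝ := ∑ g, u' g * u (g * h)

theorem phi_congr {A : Finset (Pos D)} {u : Grp D → ℝ} (hu : DepOn A u) (u' : Grp D → ℝ)
    {h h' : Grp D} (hh : ∀ a ∈ A, h a = h' a) : phi u' u h = phi u' u h' :=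
  Finset.sum_congr rfl fun g _ => by
    rw [hu (g * h) (g * h') fun a ha => by simp [hh a ha]]

theorem phi_swap (u' u : Grp D → ℝ) (p q : Pos D) (h : Grp D) :
    phi u' u (Equiv.swap p q * h) = phi (fun g => u' (g * Equiv.swap p q)) u h := by
  unfold phi
  exact Fintype.sum_equiv (Equiv.mulRight (Equiv.swap p q)) _ _ fun g => by simp [mul_assoc]

theorem gram {k : ℕ} {A : Finset (Pos D)} {u : Grp D → ℝ} (hA : A.card = k) (hk : 2 * k < 2 ^ D)
    (hu : DepOn A u) (ho : Orth (k - 1) u) (t : ℕ) : ∀ (u' : Grp D → ℝ) (h : Grp D),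
    DepOn A u' → (∀ a ∈ A, h a = a ∨ h a ∉ A) → (A.filter fun a => h a ≠ a).card = t →
    |phi u' u h| ≤ ((k : ℝ) / (2 ^ D - 2 * k)) ^ t *
      (Real.sqrt (u' ⬝ᵥ u') * Real.sqrt (u ⬝ᵥ u)) := by
  induction t with
  | zero =>
    intro u' h _ _ _
    have h0 : 0 ≤ u' ⬝ᵥ u' := Finset.sum_nonneg fun g _ => mul_self_nonneg _
    rw [pow_zero, one_mul, ← dot_self_right h u, ← Real.sqrt_mul_self (abs_nonneg (phi u' u h)),
      ← Real.sqrt_mul h0]
    refine Real.sqrt_le_sqrt ?_
    rw [abs_mul_abs_self, ← sq]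
    have := Finset.sum_mul_sq_le_sq_mul_sq Finset.univ u' fun g => u (g * h)
    simpa only [sq, phi, dotProduct] using this
  | succ t ih =>
    intro u' h hu' hh hcard
    obtain ⟨a₀, ha₀⟩ : (A.filter fun a => h a ≠ a).Nonempty := Finset.card_pos.1 (by omega)
    obtain ⟨ha₀A, ha₀m⟩ := Finset.mem_filter.1 ha₀
    have hz : h a₀ ∉ A := (hh a₀ ha₀A).resolve_left ha₀m
    set h' : Grp D := Equiv.swap a₀ (h a₀) * h with hh'
    have e0 : h' a₀ = a₀ := by simp [hh']
    have e1 : ∀ a ∈ A, a ≠ a₀ → h' a = h a := by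
      intro a ha hne
      rw [hh', Equiv.Perm.mul_apply]
      refine Equiv.swap_apply_of_ne_of_ne ?_ fun e => hne (h.injective e)
      rcases hh a ha with e | e
      · rwa [e]
      · exact fun e' => e (e' ▸ ha₀A)
    have hh2 : ∀ a ∈ A, h' a = a ∨ h' a ∉ A := by
      intro a ha
      by_cases hne : a = a₀
      · left; rw [hne, e0]
      · rw [e1 a ha hne]; exact hh a ha
    have hcard' : (A.filter fun a => h' a ≠ a).card = t := by
      have : (A.filter fun a => h' a ≠ a) = (A.filter fun a => h a ≠ a).erase a₀ := by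
        ext a
        simp only [Finset.mem_filter, Finset.mem_erase]
        by_cases hne : a = a₀
        · simp [hne, e0]
        · constructor
          · rintro ⟨h1, h2⟩; exact ⟨hne, h1, by rwa [← e1 a h1 hne]⟩
          · rintro ⟨-, h1, h2⟩; exact ⟨h1, by rwa [e1 a h1 hne]⟩
      rw [this, Finset.card_erase_of_mem ha₀, hcard]; rfl
    set Bd : ℝ := ((k : ℝ) / (2 ^ D - 2 * k)) ^ t * (Real.sqrt (u' ⬝ᵥ u') * Real.sqrt (u ⬝ᵥ u))
      with hBd
    have hsum : phi u' u h' + ∑ x ∈ Aᶜ, phi u' u (h' * Equiv.swap x a₀) = 0 := by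
      unfold phi
      rw [Finset.sum_comm, ← Finset.sum_add_distrib]
      refine Finset.sum_eq_zero fun g _ => ?_
      have := harm_zero hA hu ho ha₀A (g * h')
      rw [← Finset.mul_sum, ← mul_add]
      simp only [← mul_assoc]
      rw [this, mul_zero]
    have hx : ∀ x ∈ Aᶜ, ∀ a ∈ A, a ≠ a₀ → (h' * Equiv.swap x a₀) a = h' a := by
      intro x hx a ha hne
      have h1 : a ≠ x := fun e => Finset.mem_compl.1 hx (e ▸ ha)
      rw [Equiv.Perm.mul_apply, Equiv.swap_apply_of_ne_of_ne h1 hne]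
    have hout : ∀ x ∈ Aᶜ.filter (fun x => ¬ h' x ∈ A),
        phi u' u (h' * Equiv.swap x a₀) = phi u' u h := by
      intro x hx'
      obtain ⟨hxA, hy⟩ := Finset.mem_filter.1 hx'
      have h1 : phi u' u (h' * Equiv.swap x a₀) = phi u' u (Equiv.swap (h' x) (h a₀) * h) := by
        refine phi_congr hu u' fun a ha => ?_
        by_cases hne : a = a₀
        · subst hne; simp
        · have h2 : h a ≠ h' x := by
            rw [← e1 a ha hne]
            exact fun e => Finset.mem_compl.1 hxA (h'.injective e ▸ ha)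
          have h3 : h a ≠ h a₀ := fun e => hne (h.injective e)
          rw [hx x hxA a ha hne, e1 a ha hne, Equiv.Perm.mul_apply,
            Equiv.swap_apply_of_ne_of_ne h2 h3]
      rw [h1, phi_swap]
      refine Finset.sum_congr rfl fun g _ => ?_
      beta_reduce
      rw [hu' (g * Equiv.swap (h' x) (h a₀)) g fun a ha => ?_]
      have h2 : a ≠ h' x := fun e => hy (e ▸ ha)
      have h3 : a ≠ h a₀ := fun e => hz (e ▸ ha)
      rw [Equiv.Perm.mul_apply, Equiv.swap_apply_of_ne_of_ne h2 h3]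
    have hin : ∀ x ∈ Aᶜ.filter (fun x => h' x ∈ A), |phi u' u (h' * Equiv.swap x a₀)| ≤ Bd := by
      intro x hx'
      obtain ⟨hxA, hy⟩ := Finset.mem_filter.1 hx'
      have h1 : phi u' u (h' * Equiv.swap x a₀) = phi u' u (Equiv.swap a₀ (h' x) * h') := by
        refine phi_congr hu u' fun a ha => ?_
        by_cases hne : a = a₀
        · subst hne; simp [e0]
        · have h2 : h' a ≠ a₀ := fun e => hne (h'.injective (e.trans e0.symm))
          have h3 : h' a ≠ h' x := fun e => Finset.mem_compl.1 hxA (h'.injective e ▸ ha)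
          rw [hx x hxA a ha hne, Equiv.Perm.mul_apply (Equiv.swap a₀ (h' x)),
            Equiv.swap_apply_of_ne_of_ne h2 h3]
      rw [h1, phi_swap, hBd, ← dot_self_right (Equiv.swap a₀ (h' x)) u']
      refine ih _ h' (fun g g' hgg => hu' _ _ fun a ha => ?_) hh2 hcard'
      rw [Equiv.Perm.mul_apply, Equiv.Perm.mul_apply]
      refine hgg _ ?_
      rw [Equiv.swap_apply_def]
      split_ifs
      · exact hy
      · exact ha₀A
      · exact ha
    have hm : (Aᶜ.filter (fun x => h' x ∈ A)).card ≤ t := by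
      rw [← hcard']
      refine Finset.card_le_card_of_injOn h' (fun x hx' => ?_) (h'.injective.injOn)
      obtain ⟨hxA, hy⟩ := Finset.mem_filter.1 hx'
      refine Finset.mem_coe.2 (Finset.mem_filter.2 ⟨hy, fun e => ?_⟩)
      exact Finset.mem_compl.1 hxA (h'.injective e ▸ hy)
    have htk : t + 1 ≤ k := by rw [← hcard, ← hA]; exact Finset.card_filter_le _ _
    have hcc := Finset.card_filter_add_card_filter_not (s := Aᶜ) (fun x => h' x ∈ A)
    rw [Finset.card_compl, card_Pos, hA] at hcc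
    rw [← Finset.sum_filter_add_sum_filter_not Aᶜ (fun x => h' x ∈ A), Finset.sum_congr rfl hout,
      Finset.sum_const, nsmul_eq_mul] at hsum
    have h3 : |∑ x ∈ Aᶜ.filter (fun x => h' x ∈ A), phi u' u (h' * Equiv.swap x a₀)|
        ≤ (Aᶜ.filter (fun x => h' x ∈ A)).card * Bd := by
      refine (Finset.abs_sum_le_sum_abs _ _).trans ((Finset.sum_le_sum hin).trans (le_of_eq ?_))
      simp
    have h4 : |phi u' u h'| ≤ Bd := ih u' h' hu' hh2 hcard'
    have hpos : (0 : ℝ) < 2 ^ D - 2 * k := by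
      have : ((2 * k : ℕ) : ℝ) < ((2 ^ D : ℕ) : ℝ) := by exact_mod_cast hk
      push_cast at this; linarith
    have hBd0 : 0 ≤ Bd := (abs_nonneg _).trans h4
    have h5 : (2 : ℝ) ^ D - 2 * k ≤ (Aᶜ.filter (fun x => ¬ h' x ∈ A)).card := by
      have : 2 ^ D ≤ (Aᶜ.filter (fun x => ¬ h' x ∈ A)).card + 2 * k := by omega
      have : ((2 ^ D : ℕ) : ℝ) ≤ (((Aᶜ.filter (fun x => ¬ h' x ∈ A)).card + 2 * k : ℕ) : ℝ) := by
        exact_mod_cast this
      push_cast at this; linarith
    have h6 : ((Aᶜ.filter (fun x => h' x ∈ A)).card : ℝ) + 1 ≤ k := by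
      exact_mod_cast (by omega : (Aᶜ.filter (fun x => h' x ∈ A)).card + 1 ≤ k)
    have h7 : ((Aᶜ.filter (fun x => ¬ h' x ∈ A)).card : ℝ) * |phi u' u h| ≤ k * Bd := by
      rw [← Nat.abs_cast (Aᶜ.filter (fun x => ¬ h' x ∈ A)).card, ← abs_mul]
      have e : ((Aᶜ.filter (fun x => ¬ h' x ∈ A)).card : ℝ) * phi u' u h = -(phi u' u h' +
          ∑ x ∈ Aᶜ.filter (fun x => h' x ∈ A), phi u' u (h' * Equiv.swap x a₀)) := by linarith
      rw [e, abs_neg]
      refine (abs_add_le _ _).trans ?_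
      nlinarith
    have h8 : (2 ^ D - 2 * k) * |phi u' u h| ≤ k * Bd :=
      (mul_le_mul_of_nonneg_right h5 (abs_nonneg _)).trans h7
    rw [pow_succ, mul_comm _ ((k : ℝ) / _), mul_assoc, ← hBd, div_mul_eq_mul_div, le_div_iff₀ hpos]
    linarith

end Rep

open Crest.Agent.R155.Rep in
theorem repStmt : RepStmt := by
  intro D k A u c hk hA hu0 hu ho hC
  have hkn : k ≤ 2 ^ D := by rw [← hA, ← card_Pos]; exact Finset.card_le_univ _
  have hc : ∀ g, CO univ u g = c * u g := fun g => by rw [← Cmat_eq, hC]; rfl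
  constructor
  · have := lemmaL (2 ^ D) univ (orthS D (k - 1)) (2 ^ D - k) u c
      (by rw [Finset.card_univ, card_Pos]) (fun p _ q _ v hv => orth_right hv _)
      (fun v hv S _ hS hd => dotProduct_self_eq_zero.1
        (hv Sᶜ (by rw [Finset.card_compl, card_Pos, hS]; omega) v hd)) ho hu0 hc
    rw [Nat.cast_sub hkn] at this
    push_cast at this
    linarith
  · have h1 := split (Om := univ) (A := Aᶜ) (w := u) (Finset.subset_univ _)
      (by rwa [compl_compl]) (fun y hy g => harm_zero hA hu ho (by simpa using hy) g)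
    have h2 : univ \ Aᶜ = A := by ext; simp
    rw [h2, Finset.card_compl, card_Pos, hA, Nat.cast_sub hkn] at h1
    have h3 := dot_CO_nonneg A u
    have h4 : u ⬝ᵥ CO A u = (c - 2 * (k : ℝ) * (2 ^ D - k + 1)) * (u ⬝ᵥ u) := by
      unfold dotProduct
      rw [Finset.mul_sum]
      refine Finset.sum_congr rfl fun g _ => ?_
      have := h1 g
      rw [hc] at this
      push_cast at this
      have e : CO A u g = (c - 2 * (k : ℝ) * (2 ^ D - k + 1)) * u g := by linarith
      rw [e]; ring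
    have h5 : 0 < u ⬝ᵥ u := lt_of_le_of_ne (Finset.sum_nonneg fun x _ => mul_self_nonneg _)
      (fun h => hu0 (dotProduct_self_eq_zero.1 h.symm))
    rw [h4] at h3
    have := nonneg_of_mul_nonneg_left h3 h5
    linarith

theorem gramStmt : GramStmt := fun _ _ _ _ u' h _ hA hk hu hu' ho hh =>
  Rep.gram hA hk hu ho _ u' h hu' hh rfl

end Crest.Agent.R155
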