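import Crest.Agent.R155.Basic

/-!
# Row 155, part D2: row sums of `B ^ (64/63)` through the recursive structure of the network
-/

set_option autoImplicit false

namespace Crest.Agent.R155

open Finset Matrix
open scoped BigOperators

namespace Rho

variable {D j : ℕ}

/-- probability that the two layer-`t` settings send every card to the same side -/
noncomputable def pr (t : Fin D) (x y : Tup j D) : ℝ :=
  𝔼 c : Pos D → Bool, 𝔼 c' : Pos D → Bool,
    if ∀ a, sw t c (x a) t = sw t c' (y a) t then (1 : ℝ) else 0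

theorem pr_nonneg (t : Fin D) (x y : Tup j D) : 0 ≤ pr t x y :=
  expect_nonneg fun _ _ => expect_nonneg fun _ _ => by split_ifs <;> norm_num

theorem expect_xor {K : Type} [Fintype K] [DecidableEq K] (c0 : K → Bool) (F : (K → Bool) → ℝ) :
    (𝔼 c : K → Bool, F (fun p => xor (c p) (c0 p))) = 𝔼 c : K → Bool, F c := by
  have hi : Function.Involutive (fun c' : K → Bool => fun p => xor (c' p) (c0 p)) := by
    intro c'; funext p; simp
  exact Fintype.expect_equiv (hi.toPerm _) _ _ (fun _ => rfl)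

theorem pr_sw (t : Fin D) (c0 c1 : Pos D → Bool) (x y : Tup j D) :
    pr t (sw t c0 • x) (sw t c1 • y) = pr t x y := by
  unfold pr
  rw [← expect_xor c0 (fun c => 𝔼 c' : Pos D → Bool,
    if ∀ a, sw t c (x a) t = sw t c' (y a) t then (1 : ℝ) else 0)]
  refine expect_congr rfl fun c _ => ?_
  rw [← expect_xor c1 (fun c' => if ∀ a, sw t (fun p => xor (c p) (c0 p)) (x a) t
    = sw t c' (y a) t then (1 : ℝ) else 0)]
  refine expect_congr rfl fun c' _ => ?_
  refine if_congr ?_ rfl rfl
  simp only [tup_smul_apply, ← sw_mul_sw, Equiv.Perm.mul_apply]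

theorem Bmat_rec (t : Fin D) (x y : Tup j D) :
    Bmat D (Tup j D) (t.val + 1) x y =
      𝔼 c : Pos D → Bool, 𝔼 c' : Pos D → Bool,
        Bmat D (Tup j D) t.val (sw t c • x) (sw t c' • y) := by
  rw [Bmat_succ, Pn_of_lt, Matrix.mul_assoc, Pm_mul_apply]
  refine expect_congr rfl fun c _ => ?_
  rw [mul_Pm_apply]

theorem Bmat_supp (i : ℕ) (hi : i ≤ D) (x y : Tup j D) (h : Bmat D (Tup j D) i x y ≠ 0) :
    ∀ a, sameHi i (x a) (y a) := by
  induction i generalizing x y with
  | zero =>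
    rw [Bmat_zero, Matrix.one_apply] at h
    have : x = y := by by_contra hh; simp [hh] at h
    subst this
    intro a t _; rfl
  | succ i ih =>
    have hlt : i < D := hi
    have e := Bmat_rec (⟨i, hlt⟩ : Fin D) x y
    simp only at e
    rw [e] at h
    obtain ⟨c, -, h⟩ := exists_ne_zero_of_expect_ne_zero h
    obtain ⟨c', -, h⟩ := exists_ne_zero_of_expect_ne_zero h
    have := ih hlt.le _ _ h
    intro a s hs
    have hne : s ≠ ⟨i, hlt⟩ := by
      intro hh; rw [hh] at hs; simp at hs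
    have h2 := this a s (by omega)
    rwa [tup_smul_apply, tup_smul_apply, sw_apply_ne _ _ _ hne, sw_apply_ne _ _ _ hne] at h2

theorem holder {Ω : Type} [Fintype Ω] (A : Ω → Prop) [DecidablePred A] (Z : Ω → ℝ)
    (hZ : ∀ ω, 0 ≤ Z ω) (hA : ∀ ω, Z ω ≠ 0 → A ω) :
    (𝔼 ω, Z ω) ^ (64 / 63 : ℝ) ≤
      (𝔼 ω, if A ω then (1 : ℝ) else 0) ^ (1 / 63 : ℝ) * 𝔼 ω, Z ω ^ (64 / 63 : ℝ) := by
  have h := Real.compact_inner_le_weight_mul_Lp_of_nonneg (univ : Finset Ω) (p := (64 / 63 : ℝ))
    (by norm_num) (w := fun ω => if A ω then (1 : ℝ) else 0) (f := Z)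
    (fun ω => by split_ifs <;> norm_num) hZ
  have e1 : (𝔼 ω, (if A ω then (1 : ℝ) else 0) * Z ω) = 𝔼 ω, Z ω := by
    refine expect_congr rfl fun ω _ => ?_
    by_cases hz : Z ω = 0
    · simp [hz]
    · simp [hA ω hz]
  have e2 : (𝔼 ω, (if A ω then (1 : ℝ) else 0) * Z ω ^ (64 / 63 : ℝ))
      = 𝔼 ω, Z ω ^ (64 / 63 : ℝ) := by
    refine expect_congr rfl fun ω _ => ?_
    by_cases hz : Z ω = 0
    · simp [hz]
    · simp [hA ω hz]
  rw [e1, e2] at h
  have h0 : 0 ≤ 𝔼 ω, Z ω := expect_nonneg fun ω _ => hZ ω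
  have h1 : 0 ≤ 𝔼 ω, (if A ω then (1 : ℝ) else 0) :=
    expect_nonneg fun ω _ => by split_ifs <;> norm_num
  have h2 : 0 ≤ 𝔼 ω, Z ω ^ (64 / 63 : ℝ) := expect_nonneg fun ω _ => Real.rpow_nonneg (hZ ω) _
  calc (𝔼 ω, Z ω) ^ (64 / 63 : ℝ) ≤ _ := Real.rpow_le_rpow h0 h (by norm_num)
    _ = _ := by
      rw [Real.mul_rpow (Real.rpow_nonneg h1 _) (Real.rpow_nonneg h2 _), ← Real.rpow_mul h1,
        ← Real.rpow_mul h2]
      norm_num

theorem Bmat_step (t : Fin D) (x y : Tup j D) :
    Bmat D (Tup j D) (t.val + 1) x y ^ (64 / 63 : ℝ) ≤ pr t x y ^ (1 / 63 : ℝ) *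
      𝔼 c : Pos D → Bool, 𝔼 c' : Pos D → Bool,
        Bmat D (Tup j D) t.val (sw t c • x) (sw t c' • y) ^ (64 / 63 : ℝ) := by
  have h := holder (Ω := (Pos D → Bool) × (Pos D → Bool))
    (fun p => ∀ a, sw t p.1 (x a) t = sw t p.2 (y a) t)
    (fun p => Bmat D (Tup j D) t.val (sw t p.1 • x) (sw t p.2 • y))
    (fun p => Bmat_nonneg _ _ _ _ _)
    (fun p hp a => Bmat_supp t.val t.isLt.le _ _ hp a t le_rfl)
  rw [← univ_product_univ, expect_product, expect_product, expect_product] at h
  rw [Bmat_rec]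
  exact h

/-- resampling one layer -/
theorem expect_layer (t : Fin D) (H : Om D → (Pos D → Bool) → ℝ)
    (hH : ∀ ω ω' c, (∀ k : Fin D × Pos D, k.1 ≠ t → ω k = ω' k) → H ω c = H ω' c) :
    (𝔼 ω : Om D, H ω (fun p => ω (t, p))) = 𝔼 c : Pos D → Bool, 𝔼 ω : Om D, H ω c := by
  have e1 : ∀ c : Pos D → Bool, (𝔼 ω : Om D, H ω (fun p => ω (t, p)))
      = 𝔼 ω : Om D, H ω (fun p => xor (c p) (ω (t, p))) := by
    intro c
    rw [← expect_xor (fun k : Fin D × Pos D => if k.1 = t then c k.2 else false)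
      (fun ω : Om D => H ω (fun p => ω (t, p)))]
    refine expect_congr rfl fun ω _ => ?_
    simp only [if_true]
    rw [hH _ ω _ (fun k hk => by simp [hk])]
    simp_rw [Bool.xor_comm]
  calc (𝔼 ω : Om D, H ω (fun p => ω (t, p)))
      = 𝔼 c : Pos D → Bool, 𝔼 ω : Om D, H ω (fun p => xor (c p) (ω (t, p))) := by
        rw [← Fintype.expect_const (ι := Pos D → Bool) (𝔼 ω : Om D, H ω (fun p => ω (t, p)))]
        exact expect_congr rfl fun c _ => e1 c
    _ = 𝔼 ω : Om D, 𝔼 c : Pos D → Bool, H ω (fun p => xor (c p) (ω (t, p))) := expect_comm _ _ _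
    _ = 𝔼 ω : Om D, 𝔼 c : Pos D → Bool, H ω c :=
        expect_congr rfl fun ω _ => expect_xor (fun p => ω (t, p)) (H ω)
    _ = _ := expect_comm _ _ _

noncomputable def prn (l : ℕ) (x y : Tup j D) : ℝ := if h : l < D then pr ⟨l, h⟩ x y else 1

theorem prn_nonneg (l : ℕ) (x y : Tup j D) : 0 ≤ prn l x y := by
  unfold prn; split_ifs
  · exact pr_nonneg _ _ _
  · norm_num

/-- the integrand of the dominating kernel -/
noncomputable def Gi (i : ℕ) (ωf ωb : Om D) (x y : Tup j D) : ℝ :=
  if (bwin ωf 0 i)⁻¹ • x = (bwin ωb 0 i)⁻¹ • y then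
    ∏ l ∈ range i, prn l (bwin ωf 0 l • (bwin ωf 0 i)⁻¹ • x)
      (bwin ωb 0 l • (bwin ωf 0 i)⁻¹ • x) ^ (1 / 63 : ℝ)
  else 0

theorem Gi_congr (i : ℕ) {ωf ωb ωf' ωb' : Om D} (x y : Tup j D)
    (hf : ∀ k : Fin D × Pos D, k.1.val < i → ωf k = ωf' k)
    (hb : ∀ k : Fin D × Pos D, k.1.val < i → ωb k = ωb' k) :
    Gi i ωf ωb x y = Gi i ωf' ωb' x y := by
  have ef : ∀ l ≤ i, bwin ωf 0 l = bwin ωf' 0 l := fun l hl =>
    bwin_congr 0 l fun k _ h => hf k (by omega)
  have eb : ∀ l ≤ i, bwin ωb 0 l = bwin ωb' 0 l := fun l hl =>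
    bwin_congr 0 l fun k _ h => hb k (by omega)
  unfold Gi
  rw [ef i le_rfl, eb i le_rfl]
  congr 1
  refine prod_congr rfl fun l hl => ?_
  rw [ef l (mem_range.mp hl).le, eb l (mem_range.mp hl).le]

theorem Gi_succ (t : Fin D) (ωf ωb : Om D) (x y : Tup j D) :
    Gi (t.val + 1) ωf ωb x y = pr t x y ^ (1 / 63 : ℝ) *
      Gi t.val ωf ωb (sw t (fun p => ωf (t, p)) • x) (sw t (fun p => ωb (t, p)) • y) := by
  unfold Gi
  simp only [bwin_succ, zero_add, lay_of_lt, _root_.mul_inv_rev, sw_inv, mul_smul]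
  split_ifs with h
  · rw [prod_range_succ, mul_comm]
    congr 2
    rw [smul_inv_smul, h, smul_inv_smul]
    simp only [prn, t.isLt, dif_pos]
    exact pr_sw t _ _ x y
  · simp

theorem Bmat_le (i : ℕ) (hi : i ≤ D) (x y : Tup j D) :
    Bmat D (Tup j D) i x y ^ (64 / 63 : ℝ) ≤ 𝔼 ωf : Om D, 𝔼 ωb : Om D, Gi i ωf ωb x y := by
  induction i generalizing x y with
  | zero =>
    simp only [Gi, bwin_zero, inv_one, one_smul, range_zero, prod_empty, Fintype.expect_const,
      Bmat_zero, Matrix.one_apply]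
    split_ifs <;> simp
  | succ i ih =>
    have hlt : i < D := hi
    set t : Fin D := ⟨i, hlt⟩ with ht
    have hit : i = t.val := rfl
    rw [hit]
    refine (Bmat_step t x y).trans ?_
    simp_rw [Gi_succ, ← mul_expect]
    apply mul_le_mul_of_nonneg_left _ (Real.rpow_nonneg (pr_nonneg _ _ _) _)
    have e1 : ∀ ωf : Om D, (𝔼 ωb : Om D, Gi t.val ωf ωb (sw t (fun p => ωf (t, p)) • x)
        (sw t (fun p => ωb (t, p)) • y)) = 𝔼 c' : Pos D → Bool, 𝔼 ωb : Om D,
          Gi t.val ωf ωb (sw t (fun p => ωf (t, p)) • x) (sw t c' • y) := fun ωf =>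
      expect_layer t (fun ωb c' => Gi t.val ωf ωb (sw t (fun p => ωf (t, p)) • x) (sw t c' • y))
        (fun ω ω' c h => Gi_congr _ _ _ (fun _ _ => rfl)
          (fun k hk => h k (fun e => by rw [e] at hk; exact lt_irrefl _ hk)))
    simp_rw [e1]
    rw [expect_layer t (fun ωf c => 𝔼 c' : Pos D → Bool, 𝔼 ωb : Om D,
          Gi t.val ωf ωb (sw t c • x) (sw t c' • y))
        (fun ω ω' c h => expect_congr rfl fun c' _ => expect_congr rfl fun ωb _ =>
          Gi_congr _ _ _ (fun k hk => h k (fun e => by rw [e] at hk; exact lt_irrefl _ hk))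
            (fun _ _ => rfl))]
    refine expect_le_expect fun c _ => ?_
    rw [expect_comm]
    exact expect_le_expect fun c' _ => ih hlt.le _ _

/-! ### the Fourier bound on `pr` -/

def sg (b : Bool) : ℝ := if b then -1 else 1

theorem sg_mul (b b' : Bool) : 1 + sg b * sg b' = if b = b' then 2 else 0 := by
  cases b <;> cases b' <;> norm_num [sg]

theorem sg_not (b : Bool) : sg (!b) = -sg b := by cases b <;> simp [sg]

theorem abs_sg (b : Bool) : |sg b| = 1 := by cases b <;> simp [sg]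

noncomputable def ch (t : Fin D) (x : Tup j D) (U : Finset (Fin j)) : ℝ :=
  𝔼 c : Pos D → Bool, ∏ a ∈ U, sg (c (zer t (x a)))

theorem abs_ch_le (t : Fin D) (x : Tup j D) (U : Finset (Fin j)) : |ch t x U| ≤ 1 := by
  have h : ∀ c : Pos D → Bool, |∏ a ∈ U, sg (c (zer t (x a)))| = 1 := by
    intro c; rw [Finset.abs_prod]; simp [abs_sg]
  rw [abs_le]
  constructor
  · exact le_expect univ_nonempty fun c _ => (abs_le.mp (h c).le).1
  · exact expect_le univ_nonempty fun c _ => (abs_le.mp (h c).le).2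

theorem ch_eq_zero (t : Fin D) (x : Tup j D) (U : Finset (Fin j))
    (h : ¬ ∀ a ∈ U, ∃ a' ∈ U, x a' = flp t (x a)) : ch t x U = 0 := by
  push Not at h
  obtain ⟨a, ha, h⟩ := h
  have e : ch t x U = - ch t x U := by
    unfold ch
    rw [← expect_neg_distrib, ← expect_xor (fun p => decide (p = zer t (x a)))]
    refine expect_congr rfl fun c _ => ?_
    rw [← mul_prod_erase U _ ha, ← mul_prod_erase U _ ha, ← neg_mul]
    congr 1
    · simp [sg_not]
    · refine prod_congr rfl fun a' ha' => ?_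
      rw [mem_erase] at ha'
      have : zer t (x a') ≠ zer t (x a) := by
        intro hh
        rcases eq_or_flp_of_zer_eq hh with h1 | h1
        · exact ha'.1 (x.injective h1)
        · exact h a' ha'.2 h1
      simp [this]
  linarith

theorem pr_eq (t : Fin D) (x y : Tup j D) (hxy : ∀ a, x a t = y a t) :
    pr t x y = (∑ U ∈ (univ : Finset (Fin j)).powerset, ch t x U * ch t y U) / 2 ^ j := by
  unfold pr ch
  simp_rw [expect_mul_expect, ← expect_sum_comm, expect_div, ← prod_mul_distrib, ← prod_one_add,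
    sg_mul]
  refine expect_congr rfl fun c _ => expect_congr rfl fun c' _ => ?_
  rw [prod_ite_zero]
  simp only [sw_apply_self, hxy, mem_univ, true_imp_iff, prod_const, card_univ, Fintype.card_fin,
    Bool.xor_right_inj]
  split_ifs
  · rw [div_self]; positivity
  · simp

theorem pr_le (t : Fin D) (g : Grp D) (x : Tup j D) (hxy : ∀ a, x a t = g (x a) t) :
    pr t x (g • x) ≤ (ninv (flp t * g⁻¹ * flp t * g) (dbl t x) : ℝ) / 2 ^ j := by
  rw [pr_eq t x (g • x) hxy]
  apply div_le_div_of_nonneg_right _ (by positivity)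
  set Cl : Finset (Fin j) → Prop := fun U => (∀ a ∈ U, ∃ a' ∈ U, x a' = flp t (x a)) ∧
    (∀ a ∈ U, ∃ a' ∈ U, (g • x) a' = flp t ((g • x) a)) with hCl
  classical
  calc ∑ U ∈ (univ : Finset (Fin j)).powerset, ch t x U * ch t (g • x) U
      ≤ ∑ U ∈ (univ : Finset (Fin j)).powerset, if Cl U then (1 : ℝ) else 0 := by
        refine sum_le_sum fun U _ => ?_
        split_ifs with h
        · refine (le_abs_self _).trans ?_
          rw [abs_mul]
          exact mul_le_one₀ (abs_ch_le _ _ _) (abs_nonneg _) (abs_ch_le _ _ _)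
        · rw [hCl] at h
          rcases not_and_or.mp h with h | h
          · rw [ch_eq_zero t x U h, zero_mul]
          · rw [ch_eq_zero t _ U h, mul_zero]
    _ = (((univ : Finset (Fin j)).powerset.filter Cl).card : ℝ) := by
        rw [sum_boole]
    _ ≤ _ := by
        unfold ninv
        norm_cast
        apply card_le_card_of_injOn (fun U => (U.filter fun a => x a t = true).image x)
        · intro U hU
          simp only [coe_filter, mem_powerset, Set.mem_ofPred_eq] at hU ⊢
          obtain ⟨-, h1, h2⟩ := hU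
          constructor
          · intro p hp
            simp only [mem_image, mem_filter] at hp
            obtain ⟨a, ⟨ha, hat⟩, rfl⟩ := hp
            obtain ⟨a', -, ha'⟩ := h1 a ha
            simp only [dbl, mem_filter, mem_univ, true_and]
            exact ⟨hat, ⟨a, rfl⟩, ⟨a', ha'⟩⟩
          · intro p hp
            simp only [mem_image, mem_filter] at hp ⊢
            obtain ⟨a, ⟨ha, hat⟩, rfl⟩ := hp
            obtain ⟨a', ha'U, ha'⟩ := h2 a ha
            obtain ⟨a'', ha''U, ha''⟩ := h1 a' ha'U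
            rw [tup_smul_apply, tup_smul_apply] at ha'
            refine ⟨a'', ⟨ha''U, ?_⟩, ?_⟩
            · rw [ha'', flp_apply_self, hxy a', ha', flp_apply_self, ← hxy a, hat]; rfl
            · simp only [Equiv.Perm.mul_apply]
              rw [ha'', ← ha']; simp
        · intro U hU U' hU' h
          simp only [coe_filter, mem_powerset, Set.mem_ofPred_eq] at hU hU'
          have key : ∀ V V' : Finset (Fin j), Cl V → Cl V' →
              (V.filter fun a => x a t = true).image x = (V'.filter fun a => x a t = true).image x →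
              V ⊆ V' := by
            intro V V' hV hV' h a ha
            have mem : ∀ b ∈ V, x b t = true → b ∈ V' := by
              intro b hb hbt
              have : x b ∈ (V'.filter fun a => x a t = true).image x := by
                rw [← h]; exact mem_image_of_mem _ (mem_filter.mpr ⟨hb, hbt⟩)
              obtain ⟨b', hb', e⟩ := mem_image.mp this
              rw [← x.injective e]; exact (mem_filter.mp hb').1
            cases hat : x a t
            · obtain ⟨a', ha', e⟩ := hV.1 a ha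
              have h1 : a' ∈ V' := mem a' ha' (by rw [e, flp_apply_self, hat]; rfl)
              obtain ⟨a'', ha'', e'⟩ := hV'.1 a' h1
              rw [e, flp_flp] at e'
              rw [← x.injective e']; exact ha''
            · exact mem a ha hat
          exact Subset.antisymm (key U U' hU.2 hU'.2 h) (key U' U hU'.2 hU.2 h.symm)

theorem pr_le_Lam (t : Fin D) (ωf ωb : Om D) (z : Tup j D) :
    pr t (bwin ωf 0 t.val • z) (bwin ωb 0 t.val • z) ≤ (Lam t ωf ωb z : ℝ) / 2 ^ j := by
  have h := pr_le t (bwin ωb 0 t.val * (bwin ωf 0 t.val)⁻¹) (bwin ωf 0 t.val • z) (fun a => by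
    simp only [tup_smul_apply, Equiv.Perm.mul_apply, Equiv.Perm.coe_inv, Equiv.symm_apply_apply]
    rw [bwin_apply_of_not_mem _ _ _ _ (Or.inr (by simp)),
      bwin_apply_of_not_mem _ _ _ _ (Or.inr (by simp))])
  rw [mul_smul, inv_smul_smul] at h
  simpa only [Lam, _root_.mul_inv_rev, inv_inv, mul_assoc] using h

end Rho

open Rho in
theorem rhoStmt : RhoStmt := by
  intro D j x
  calc ∑ y, (Bmat D (Tup j D) D x y) ^ (64 / 63 : ℝ)
      ≤ ∑ y, 𝔼 ωf : Om D, 𝔼 ωb : Om D, Gi D ωf ωb x y :=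
        sum_le_sum fun y _ => Bmat_le D le_rfl x y
    _ = 𝔼 ωf : Om D, 𝔼 ωb : Om D, ∑ y, Gi D ωf ωb x y := by
        simp_rw [expect_sum_comm]
    _ ≤ _ := by
        refine expect_le_expect fun ωf _ => expect_le_expect fun ωb _ => ?_
        unfold Gi
        simp_rw [eq_inv_smul_iff]
        rw [sum_ite_eq, if_pos (mem_univ _), prod_range]
        refine prod_le_prod (fun t _ => Real.rpow_nonneg (prn_nonneg _ _ _) _) fun t _ => ?_
        apply Real.rpow_le_rpow (prn_nonneg _ _ _) _ (by norm_num)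
        simp only [prn, t.isLt, dif_pos]
        exact pr_le_Lam t ωf ωb _

end Crest.Agent.R155
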