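import Crest.Agent.R155.Basic

/-!
# Row 155: Russo's inequality for the Schatten `64`-norm
-/

set_option autoImplicit false

namespace Crest.Agent.R155

open Finset Matrix
open scoped BigOperators

namespace Russo

theorem amgm {n : ℕ} (hn : n ≠ 0) (z : Fin n → ℝ) (hz : ∀ l, 0 ≤ z l) :
    ∏ l, z l ≤ ((∑ l, z l) / n) ^ n := by
  have hn' : (0 : ℝ) < n := by exact_mod_cast Nat.pos_of_ne_zero hn
  have h := Real.geom_mean_le_arith_mean_weighted Finset.univ (fun _ : Fin n => (n : ℝ)⁻¹) z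
    (fun _ _ => by positivity) (by simp [hn'.ne']) (fun l _ => hz l)
  have h2 := pow_le_pow_left₀ (Finset.prod_nonneg fun l _ => Real.rpow_nonneg (hz l) _) h n
  rw [← Finset.prod_pow] at h2
  simp only [Real.rpow_inv_natCast_pow (hz _) hn] at h2
  rw [← Finset.mul_sum] at h2
  rwa [div_eq_inv_mul]

theorem holder {n : ℕ} (hn : n ≠ 0) {Z : Type} [Fintype Z] (a : Z → ℝ) (m : Fin n → Z → ℝ)
    (ha : ∀ z, 0 ≤ a z) (hm : ∀ l z, 0 ≤ m l z) (h : ∀ z, a z ^ n ≤ ∏ l, m l z) :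
    (∑ z, a z) ^ n ≤ ∏ l, ∑ z, m l z := by
  have hn' : (0 : ℝ) < n := by exact_mod_cast Nat.pos_of_ne_zero hn
  by_cases h0 : ∃ l, ∑ z, m l z = 0
  · obtain ⟨l, hl⟩ := h0
    have h1 : ∀ z, m l z = 0 := fun z =>
      (Finset.sum_eq_zero_iff_of_nonneg fun z _ => hm l z).1 hl z (Finset.mem_univ _)
    have h2 : ∀ z, a z = 0 := by
      intro z
      have := h z
      rw [Finset.prod_eq_zero (Finset.mem_univ l) (h1 z)] at this
      exact pow_eq_zero_iff hn |>.1 (le_antisymm this (pow_nonneg (ha z) n))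
    simp only [h2, Finset.sum_const_zero, zero_pow hn]
    exact Finset.prod_nonneg fun l _ => Finset.sum_nonneg fun z _ => hm l z
  push Not at h0
  set S : Fin n → ℝ := fun l => ∑ z, m l z with hS
  have hSp : ∀ l, 0 < S l := fun l =>
    lt_of_le_of_ne (Finset.sum_nonneg fun z _ => hm l z) (h0 l).symm
  have hP : 0 < ∏ l, S l := Finset.prod_pos fun l _ => hSp l
  set T : ℝ := (∏ l, S l) ^ (n : ℝ)⁻¹ with hT
  have hTp : 0 < T := Real.rpow_pos_of_pos hP _
  have hTn : T ^ n = ∏ l, S l := Real.rpow_inv_natCast_pow hP.le hn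
  have h1 : ∀ z, a z / T ≤ (∑ l, m l z / S l) / n := by
    intro z
    have h2 := amgm hn (fun l => m l z / S l) fun l => div_nonneg (hm l z) (hSp l).le
    have h3 : (a z / T) ^ n ≤ ∏ l, m l z / S l := by
      rw [div_pow, hTn, Finset.prod_div_distrib]
      exact div_le_div_of_nonneg_right (h z) hP.le
    exact le_of_pow_le_pow_left₀ hn
      (div_nonneg (Finset.sum_nonneg fun l _ => div_nonneg (hm l z) (hSp l).le) hn'.le) (h3.trans h2)
  have h2 : (∑ z, a z) / T ≤ 1 := by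
    rw [Finset.sum_div]
    refine (Finset.sum_le_sum fun z _ => h1 z).trans_eq ?_
    rw [← Finset.sum_div, Finset.sum_comm]
    have : ∀ l, ∑ z, m l z / S l = 1 := fun l => by
      rw [← Finset.sum_div]; exact div_self (hSp l).ne'
    simp [this, hn'.ne']
  rw [div_le_one hTp] at h2
  rw [← hTn]
  exact pow_le_pow_left₀ (Finset.sum_nonneg fun z _ => ha z) h2 n

variable {X : Type} [Fintype X] [DecidableEq X]

/-- entrywise domination by the geometric mean of a family -/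
def Dom {n : ℕ} (A : Matrix X X ℝ) (M : Fin n → Matrix X X ℝ) : Prop :=
  (∀ x y, 0 ≤ A x y) ∧ (∀ l x y, 0 ≤ M l x y) ∧ ∀ x y, A x y ^ n ≤ ∏ l, M l x y

omit [DecidableEq X] in
theorem Dom.mul {n : ℕ} (hn : n ≠ 0) {A A' : Matrix X X ℝ} {M M' : Fin n → Matrix X X ℝ}
    (h : Dom A M) (h' : Dom A' M') : Dom (A * A') fun l => M l * M' l := by
  refine ⟨fun x y => Finset.sum_nonneg fun z _ => mul_nonneg (h.1 _ _) (h'.1 _ _),
    fun l x y => Finset.sum_nonneg fun z _ => mul_nonneg (h.2.1 _ _ _) (h'.2.1 _ _ _),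
    fun x y => ?_⟩
  simp only [mul_apply]
  refine holder hn (fun z => A x z * A' z y) (fun l z => M l x z * M' l z y)
    (fun z => mul_nonneg (h.1 _ _) (h'.1 _ _)) (fun l z => mul_nonneg (h.2.1 _ _ _) (h'.2.1 _ _ _))
    fun z => ?_
  rw [mul_pow, Finset.prod_mul_distrib]
  exact mul_le_mul (h.2.2 _ _) (h'.2.2 _ _) (pow_nonneg (h'.1 _ _) _)
    (Finset.prod_nonneg fun l _ => h.2.1 _ _ _)

theorem dom_pow {n : ℕ} (B F J : Matrix X X ℝ)
    (h : ∀ i : Fin (n + 1), Dom B fun l : Fin (n + 1) => if l = i then J else F) (k : ℕ)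
    (hk : k ≤ n + 1) :
    Dom (B ^ k) fun l : Fin (n + 1) =>
      if l.val < k then F ^ l.val * J * F ^ (k - 1 - l.val) else F ^ k := by
  induction k with
  | zero =>
    simp only [pow_zero, Nat.not_lt_zero, if_false]
    have h1 : ∀ x y, 0 ≤ (1 : Matrix X X ℝ) x y := fun x y => by
      rw [Matrix.one_apply]; split_ifs <;> norm_num
    exact ⟨h1, fun _ => h1, fun x y => by simp⟩
  | succ k ih =>
    have h1 := (ih (by omega)).mul (Nat.succ_ne_zero n) (h ⟨k, by omega⟩)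
    rw [← pow_succ] at h1
    have e : (fun l : Fin (n + 1) =>
        (if l.val < k then F ^ l.val * J * F ^ (k - 1 - l.val) else F ^ k) *
          (if l = ⟨k, by omega⟩ then J else F)) = fun l : Fin (n + 1) =>
        if l.val < k + 1 then F ^ l.val * J * F ^ (k + 1 - 1 - l.val) else F ^ (k + 1) := by
      funext l
      rcases lt_trichotomy l.val k with hl | hl | hl
      · rw [if_pos hl, if_neg (fun e => by rw [e] at hl; simp at hl), if_pos (by omega),
          Matrix.mul_assoc, ← pow_succ, show k - 1 - l.val + 1 = k + 1 - 1 - l.val by omega]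
      · rw [if_neg (by omega), if_pos (Fin.ext hl), if_pos (by omega), hl]
        simp
      · rw [if_neg (by omega), if_neg (fun e => by rw [e] at hl; simp at hl), if_neg (by omega),
          pow_succ]
    rwa [e] at h1

theorem pow_nonneg_entry {F : Matrix X X ℝ} (hF : ∀ x y, 0 ≤ F x y) (k : ℕ) (x y : X) :
    0 ≤ (F ^ k) x y := by
  induction k generalizing x y with
  | zero => rw [pow_zero, Matrix.one_apply]; split_ifs <;> norm_num
  | succ k ih =>
    rw [pow_succ, mul_apply]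
    exact Finset.sum_nonneg fun z _ => mul_nonneg (ih _ _) (hF _ _)

theorem trace_le {n : ℕ} (B F : Matrix X X ℝ) (hB : ∀ x y, 0 ≤ B x y) (hF : ∀ x y, 0 ≤ F x y)
    (h : ∀ x y, B x y ^ (n + 1) ≤ F x y ^ n) :
    (B ^ (n + 1)).trace ≤ ∑ x, ∑ y, (F ^ n) x y := by
  set J : Matrix X X ℝ := Matrix.of fun _ _ => 1 with hJ
  have h1 : ∀ i : Fin (n + 1), Dom B fun l : Fin (n + 1) => if l = i then J else F := by
    intro i
    refine ⟨hB, fun l x y => ?_, fun x y => (h x y).trans_eq ?_⟩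
    · dsimp only
      split_ifs
      · simp [hJ]
      · exact hF x y
    · rw [Fin.prod_univ_succAbove _ i]
      simp [hJ, Fin.succAbove_ne]
  have h2 := dom_pow B F J h1 (n + 1) le_rfl
  have h3 := holder (Nat.succ_ne_zero n) _ _ (fun x => h2.1 x x) (fun l x => h2.2.1 l x x)
    fun x => h2.2.2 x x
  have h4 : ∀ l : Fin (n + 1), ∑ x, (if l.val < n + 1 then F ^ l.val * J * F ^ (n + 1 - 1 - l.val)
      else F ^ (n + 1)) x x = ∑ x, ∑ y, (F ^ n) x y := by
    intro l
    rw [if_pos l.isLt]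
    change (F ^ l.val * J * F ^ (n + 1 - 1 - l.val)).trace = _
    rw [trace_mul_comm, ← Matrix.mul_assoc, ← pow_add,
      show n + 1 - 1 - l.val + l.val = n by omega]
    simp [trace, mul_apply, hJ]
  simp only [h4, Finset.prod_const, Finset.card_univ, Fintype.card_fin] at h3
  exact le_of_pow_le_pow_left₀ (Nat.succ_ne_zero n)
    (Finset.sum_nonneg fun x _ => Finset.sum_nonneg fun y _ => pow_nonneg_entry hF n x y) h3

theorem walk_step (F : Matrix X X ℝ) (hs : F.IsSymm) (hF : ∀ x y, 0 ≤ F x y) (a b : ℕ) :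
    ∑ x, (∑ z, F x z) ^ a * ∑ y, (F ^ (b + 1)) x y ≤
      ∑ x, (∑ z, F x z) ^ (a + 1) * ∑ y, (F ^ b) x y := by
  set ρ : X → ℝ := fun x => ∑ z, F x z with hρ
  have hρ0 : ∀ x, 0 ≤ ρ x := fun x => Finset.sum_nonneg fun z _ => hF x z
  set M := F ^ b with hM
  have hMs : ∀ x y, M x y = M y x := fun x y => ((hs.pow b).apply x y).symm
  have e1 : ∀ x, ∑ y, (F ^ (b + 1)) x y = ∑ y, M x y * ρ y := by
    intro x
    simp only [pow_succ, mul_apply, hρ, Finset.mul_sum]
    exact Finset.sum_comm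
  have h0 : 0 ≤ ∑ x, ∑ y, M x y * ((ρ x ^ a - ρ y ^ a) * (ρ x - ρ y)) := by
    refine Finset.sum_nonneg fun x _ => Finset.sum_nonneg fun y _ =>
      mul_nonneg (pow_nonneg_entry hF b x y) ?_
    rcases le_total (ρ x) (ρ y) with h | h
    · exact mul_nonneg_of_nonpos_of_nonpos (sub_nonpos.2 (pow_le_pow_left₀ (hρ0 x) h a))
        (sub_nonpos.2 h)
    · exact mul_nonneg (sub_nonneg.2 (pow_le_pow_left₀ (hρ0 y) h a)) (sub_nonneg.2 h)
  have e2 : ∑ x, ∑ y, M x y * ρ y ^ (a + 1) = ∑ x, ∑ y, M x y * ρ x ^ (a + 1) := by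
    rw [Finset.sum_comm]; simp only [hMs]
  have e3 : ∑ x, ∑ y, M x y * (ρ y ^ a * ρ x) = ∑ x, ∑ y, M x y * (ρ x ^ a * ρ y) := by
    rw [Finset.sum_comm]; simp only [hMs]
  have e4 : ∑ x, ∑ y, M x y * ((ρ x ^ a - ρ y ^ a) * (ρ x - ρ y)) =
      ∑ x, ∑ y, M x y * ρ x ^ (a + 1) + ∑ x, ∑ y, M x y * ρ y ^ (a + 1) -
        ∑ x, ∑ y, M x y * (ρ x ^ a * ρ y) - ∑ x, ∑ y, M x y * (ρ y ^ a * ρ x) := by
    simp only [← Finset.sum_add_distrib, ← Finset.sum_sub_distrib]
    refine Finset.sum_congr rfl fun x _ => Finset.sum_congr rfl fun y _ => ?_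
    ring
  have e5 : ∑ x, ρ x ^ a * ∑ y, M x y * ρ y = ∑ x, ∑ y, M x y * (ρ x ^ a * ρ y) := by
    simp only [Finset.mul_sum]
    refine Finset.sum_congr rfl fun x _ => Finset.sum_congr rfl fun y _ => ?_
    ring
  have e6 : ∑ x, ρ x ^ (a + 1) * ∑ y, M x y = ∑ x, ∑ y, M x y * ρ x ^ (a + 1) := by
    simp only [Finset.mul_sum]
    refine Finset.sum_congr rfl fun x _ => Finset.sum_congr rfl fun y _ => ?_
    ring
  simp only [e1]
  change ∑ x, ρ x ^ a * ∑ y, M x y * ρ y ≤ ∑ x, ρ x ^ (a + 1) * ∑ y, M x y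
  rw [e5, e6]
  linarith

theorem walk_le (F : Matrix X X ℝ) (hs : F.IsSymm) (hF : ∀ x y, 0 ≤ F x y) (b a : ℕ) :
    ∑ x, (∑ z, F x z) ^ a * ∑ y, (F ^ b) x y ≤ ∑ x, (∑ z, F x z) ^ (a + b) := by
  induction b generalizing a with
  | zero => simp [Matrix.one_apply]
  | succ b ih =>
    refine (walk_step F hs hF a b).trans ?_
    have := ih (a + 1)
    rwa [show a + 1 + b = a + (b + 1) by omega] at this

end Russo

theorem russoStmt : RussoStmt := by
  intro X _ _ B hs hB
  set F : Matrix X X ℝ := Matrix.of fun x y => B x y ^ (64 / 63 : ℝ) with hF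
  have hF0 : ∀ x y, 0 ≤ F x y := fun x y => Real.rpow_nonneg (hB x y) _
  have hFs : F.IsSymm := by
    ext x y
    simp only [hF, transpose_apply, of_apply]
    rw [hs.apply x y]
  have h1 := Russo.trace_le (n := 63) B F hB hF0 fun x y => by
    simp only [hF, of_apply]
    rw [← Real.rpow_natCast (B x y ^ (64 / 63 : ℝ)), ← Real.rpow_mul (hB x y), ← Real.rpow_natCast]
    norm_num
  have h2 := Russo.walk_le F hFs hF0 63 0
  simp only [pow_zero, one_mul, zero_add] at h2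
  exact h1.trans h2

end Crest.Agent.R155
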