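import Crest.Agent.R155.Basic

/-!
# Row 155, part B1: the supersolution for the dominating kernel
-/

set_option autoImplicit false

namespace Crest.Agent.R155

open Finset
open scoped BigOperators

namespace Super

variable {Nd : Type} [Fintype Nd] [DecidableEq Nd]

theorem That_mono (m : ℕ) (jw : Nd → ℕ) {φ ψ : (Nd → ℕ) → ℝ} (h : ∀ o, φ o ≤ ψ o) (o : Nd → ℕ) :
    That m jw φ o ≤ That m jw ψ o := by
  unfold That
  refine sum_le_sum fun w _ => ?_
  gcongr <;> exact h _

theorem That_sum (m : ℕ) (jw : Nd → ℕ) (J : ℕ) (c : ℕ → ℝ) (φ : ℕ → (Nd → ℕ) → ℝ) (o : Nd → ℕ) :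
    That m jw (fun o => ∑ r ∈ range J, c r * φ r o) o = ∑ r ∈ range J, c r * That m jw (φ r) o := by
  unfold That
  simp only [mul_sum, ← sum_add_distrib]
  rw [sum_comm]
  refine sum_congr rfl fun r _ => sum_congr rfl fun w _ => ?_
  ring

noncomputable def F1 (r : ℝ) (v : ℕ) : ℝ := ((v - 1).doubleFactorial : ℝ) * r ^ v

theorem F1_add_two (r : ℝ) (v : ℕ) : F1 r (v + 2) = (v + 1) * r ^ 2 * F1 r v := by
  unfold F1
  have : v + 2 - 1 = v + 1 := by omega
  rw [this, Nat.doubleFactorial_add_one]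
  push_cast; ring

theorem F1_nonneg {r : ℝ} (hr : 0 ≤ r) (v : ℕ) : 0 ≤ F1 r v := by unfold F1; positivity

theorem F1_sub_two {r : ℝ} (hr : 0 < r) (v : ℕ) :
    ((v * (v - 1) : ℕ) : ℝ) * F1 r (v - 2) ≤ v / r ^ 2 * F1 r v := by
  match v with
  | 0 => simp
  | 1 =>
    have := F1_nonneg hr.le 1
    simp only [Nat.sub_self, mul_zero, Nat.cast_zero, zero_mul]
    positivity
  | v + 2 =>
    rw [F1_add_two]
    have e1 : v + 2 - 1 = v + 1 := by omega
    have e2 : v + 2 - 2 = v := by omega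
    rw [e1, e2]
    push_cast
    apply le_of_eq
    field_simp

noncomputable def wt (r : ℝ) (o : Nd → ℕ) : ℝ := ∏ w, F1 r (o w)

omit [DecidableEq Nd] in
theorem wt_eq (r : ℝ) (o : Nd → ℕ) :
    wt r o = (∏ w, ((o w - 1).doubleFactorial : ℝ)) * r ^ (∑ w, o w) := by
  unfold wt F1
  rw [prod_mul_distrib, prod_pow_eq_pow_sum]

theorem wt_split (r : ℝ) (o : Nd → ℕ) (w : Nd) :
    wt r o = F1 r (o w) * ∏ w' ∈ univ.erase w, F1 r (o w') :=
  (mul_prod_erase univ (fun w => F1 r (o w)) (mem_univ w)).symm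

theorem wt_update (r : ℝ) (o : Nd → ℕ) (w : Nd) (v : ℕ) :
    wt r (Function.update o w v) = F1 r v * ∏ w' ∈ univ.erase w, F1 r (o w') := by
  rw [wt_split r _ w, Function.update_self]
  congr 1
  refine prod_congr rfl fun w' hw' => ?_
  rw [Function.update_of_ne (mem_erase.mp hw').1]

omit [DecidableEq Nd] in
theorem wt_nonneg {r : ℝ} (hr : 0 ≤ r) (o : Nd → ℕ) : 0 ≤ wt r o :=
  prod_nonneg fun _ _ => F1_nonneg hr _

theorem That_wt (m : ℕ) (hm : 1 ≤ m) (jw : Nd → ℕ) {r : ℝ} (hr : 0 < r) (o : Nd → ℕ) :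
    That m jw (wt r) o ≤ wt r o * (((∑ w, o w : ℕ) : ℝ) * (4 * m + 2 / r ^ 2 + 2 * r ^ 2 * m * m)
      + 4 * r ^ 2 * ((m : ℝ) - 1) * ((∑ w, jw w : ℕ) : ℝ)) := by
  unfold That
  push_cast
  rw [sum_mul, mul_sum, ← sum_add_distrib, mul_sum]
  refine sum_le_sum fun w _ => ?_
  rw [wt_update, wt_update, F1_add_two]
  set R := ∏ w' ∈ univ.erase w, F1 r (o w') with hR
  have hR0 : 0 ≤ R := prod_nonneg fun _ _ => F1_nonneg hr.le _
  have hW : wt r o = F1 r (o w) * R := wt_split r o w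
  have h1 := mul_le_mul_of_nonneg_right (F1_sub_two hr (o w)) hR0
  have hF := F1_nonneg hr.le (o w)
  have hm1 : (1 : ℝ) ≤ m := by exact_mod_cast hm
  have hc : ((m - 1 : ℕ) : ℝ) = (m : ℝ) - 1 := by rw [Nat.cast_sub hm]; simp
  push_cast at h1
  rw [hc]
  set μ : ℝ := min (2 * (jw w : ℝ) * ((m : ℝ) - 1)) ((m : ℝ) * ((m : ℝ) - 1)) with hμ
  have hμ1 : μ ≤ 2 * (jw w : ℝ) * ((m : ℝ) - 1) := min_le_left _ _
  have hμ2 : μ ≤ (m : ℝ) * m := (min_le_right _ _).trans (by nlinarith)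
  have ho : (0 : ℝ) ≤ o w := Nat.cast_nonneg _
  have h2 : μ * ((o w : ℝ) + 1) ≤ o w * (m * m) + 2 * (jw w : ℝ) * ((m : ℝ) - 1) := by
    nlinarith [mul_le_mul_of_nonneg_left hμ2 ho]
  have h3 := mul_le_mul_of_nonneg_right h2 (by positivity : 0 ≤ 2 * r ^ 2 * (F1 r (o w) * R))
  rw [hW]
  have e : (o w : ℝ) / r ^ 2 * F1 r (o w) * R = (o w : ℝ) * (1 / r ^ 2) * (F1 r (o w) * R) := by
    ring
  have e2 : (2 : ℝ) / r ^ 2 = 2 * (1 / r ^ 2) := by ring
  rw [e] at h1
  rw [e2]
  nlinarith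

theorem main (m : ℕ) (hm : 1 ≤ m) (jw : Nd → ℕ) (J : ℕ) (s : ℝ) (hs : s ∈ Set.Icc (0 : ℝ) 1)
    (o : Nd → ℕ) :
    ∑ r ∈ range J, ((1 / (24 * (m : ℝ))) * s ^ 2) ^ r / (r.factorial : ℝ) * hseq m jw r o ≤
      Real.exp (0.0225 * ((∑ w, jw w : ℕ) : ℝ) * ((m : ℝ) - 1) / (m : ℝ) ^ 2 * s ^ 4) *
        wt (Real.sqrt (0.27 / m) * s) o := by
  have hm1 : (1 : ℝ) ≤ m := by exact_mod_cast hm
  set γ : ℝ := 1 / (24 * (m : ℝ)) with hγ
  set α : ℝ := 0.0225 * ((∑ w, jw w : ℕ) : ℝ) * ((m : ℝ) - 1) / (m : ℝ) ^ 2 with hα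
  set κ : ℝ := Real.sqrt (0.27 / m) with hκ
  have hκ0 : 0 < κ := Real.sqrt_pos.mpr (by positivity)
  have hκ2 : κ ^ 2 = 0.27 / m := Real.sq_sqrt (by positivity)
  have hγ0 : 0 < γ := by positivity
  induction J generalizing s o with
  | zero =>
    simp only [range_zero, sum_empty]
    exact mul_nonneg (Real.exp_pos _).le (wt_nonneg (mul_nonneg hκ0.le hs.1) _)
  | succ J ih =>
    set n : ℕ := ∑ w, o w with hn
    set G : ℝ := ∏ w, ((o w - 1).doubleFactorial : ℝ) with hG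
    set H : ℝ → ℝ := fun s => Real.exp (α * s ^ 4) * (G * (κ * s) ^ n) -
      (∑ r ∈ range J, (γ * s ^ 2) ^ (r + 1) / ((r + 1).factorial : ℝ) * hseq m jw (r + 1) o
        + hseq m jw 0 o) with hH
    set H' : ℝ → ℝ := fun s => (Real.exp (α * s ^ 4) * (α * (4 * s ^ 3)) * (G * (κ * s) ^ n) +
      Real.exp (α * s ^ 4) * (G * (n * (κ * s) ^ (n - 1) * κ))) -
      (∑ r ∈ range J, 2 * γ * s * ((γ * s ^ 2) ^ r / (r.factorial : ℝ) * hseq m jw (r + 1) o))
      with hH'
    have hd : ∀ s, HasDerivAt H (H' s) s := by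
      intro s
      apply HasDerivAt.sub
      · apply HasDerivAt.mul
        · have := ((hasDerivAt_pow 4 s).const_mul α).exp
          simpa using this
        · have := (((hasDerivAt_id s).const_mul κ).pow n).const_mul G
          simpa using this
      · apply HasDerivAt.add_const
        apply HasDerivAt.fun_sum
        intro r _
        have := ((((hasDerivAt_pow 2 s).const_mul γ).pow (r + 1)).div_const
          ((r + 1).factorial : ℝ)).mul_const (hseq m jw (r + 1) o)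
        refine this.congr_deriv ?_
        rw [Nat.factorial_succ]
        push_cast
        have : (r.factorial : ℝ) ≠ 0 := by positivity
        field_simp
    have hmono : MonotoneOn H (Set.Icc 0 1) := by
      apply monotoneOn_of_hasDerivWithinAt_nonneg (convex_Icc 0 1)
        (fun x _ => (hd x).continuousAt.continuousWithinAt) (fun x _ => (hd x).hasDerivWithinAt)
      intro s hs
      rw [interior_Icc] at hs
      obtain ⟨hs0, hs1⟩ := hs
      have hr : 0 < κ * s := mul_pos hκ0 hs0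
      have h1 : ∑ r ∈ range J, (γ * s ^ 2) ^ r / (r.factorial : ℝ) * hseq m jw (r + 1) o
          ≤ Real.exp (α * s ^ 4) * That m jw (wt (κ * s)) o := by
        have e := That_sum m jw J (fun r => (γ * s ^ 2) ^ r / (r.factorial : ℝ)) (hseq m jw) o
        have e' := That_sum m jw 1 (fun _ => Real.exp (α * s ^ 4)) (fun _ => wt (κ * s)) o
        simp only [range_one, sum_singleton] at e'
        rw [← e']
        refine le_trans (le_of_eq e.symm) (That_mono m jw (fun o => ?_) o)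
        exact ih s ⟨hs0.le, hs1.le⟩ o
      have h2 := That_wt m hm jw hr o
      rw [wt_eq, ← hG, ← hn] at h2
      simp only [hH']
      rw [← mul_sum, sub_nonneg]
      have hE := Real.exp_pos (α * s ^ 4)
      have hG0 : 0 ≤ G := prod_nonneg fun _ _ => Nat.cast_nonneg _
      have h3 := mul_le_mul_of_nonneg_left (h1.trans (mul_le_mul_of_nonneg_left h2 hE.le))
        (by positivity : 0 ≤ 2 * γ * s)
      refine h3.trans ?_
      have e1 : (n : ℝ) * (κ * s) ^ (n - 1) * κ = n / s * (κ * s) ^ n := by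
        cases n with
        | zero => simp
        | succ n => simp only [add_tsub_cancel_right]; field_simp; ring
      rw [e1]
      have hA : 0 ≤ Real.exp (α * s ^ 4) * (G * (κ * s) ^ n) := by positivity
      have key : 2 * γ * s * ((n : ℝ) * (4 * m + 2 / (κ * s) ^ 2 + 2 * (κ * s) ^ 2 * m * m)
          + 4 * (κ * s) ^ 2 * ((m : ℝ) - 1) * ((∑ w, jw w : ℕ) : ℝ))
          ≤ α * (4 * s ^ 3) + n / s := by
        have e2 : 2 * γ * s * (4 * (κ * s) ^ 2 * ((m : ℝ) - 1) * ((∑ w, jw w : ℕ) : ℝ))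
            = α * (4 * s ^ 3) := by
          rw [mul_pow, hκ2, hγ, hα]; field_simp; ring
        have e3 : 2 * γ * s * ((n : ℝ) * (4 * m + 2 / (κ * s) ^ 2 + 2 * (κ * s) ^ 2 * m * m))
            = n / s * (s ^ 2 / 3 + 50 / 81 + 0.045 * s ^ 4) := by
          rw [mul_pow, hκ2, hγ]; field_simp; ring
        rw [mul_add, e2, e3, add_comm]
        apply add_le_add le_rfl
        apply mul_le_of_le_one_right (by positivity)
        have a1 : s ^ 2 ≤ 1 := pow_le_one₀ hs0.le hs1.le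
        have a2 : s ^ 4 ≤ 1 := pow_le_one₀ hs0.le hs1.le
        linarith
      have := mul_le_mul_of_nonneg_left key hA
      nlinarith
    have h0 : 0 ≤ H 0 := by
      simp only [hH]
      have : ∑ r ∈ range J, (γ * (0 : ℝ) ^ 2) ^ (r + 1) / ((r + 1).factorial : ℝ)
          * hseq m jw (r + 1) o = 0 := sum_eq_zero fun r _ => by simp
      rw [this, zero_add, hseq]
      dsimp only
      split_ifs with ho
      · subst ho; simp [hn, hG]
      · have hG0 : 0 ≤ G := prod_nonneg fun _ _ => Nat.cast_nonneg _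
        simp only [sub_zero]
        positivity
    have h1 := hmono ⟨le_rfl, zero_le_one⟩ hs hs.1
    have h2 : 0 ≤ H s := h0.trans h1
    simp only [hH] at h2
    rw [sum_range_succ', wt_eq, ← hG, ← hn]
    simp only [pow_zero, Nat.factorial_zero, Nat.cast_one, div_one, one_mul]
    linarith

end Super

open Super in
theorem superStmt : SuperStmt := by
  intro Nd _ _ m jw J hm
  have h := main m hm jw J 1 ⟨zero_le_one, le_rfl⟩ 0
  simpa [wt, F1] using h

end Crest.Agent.R155
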