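import Crest.Agent.R155.Basic

/-!
# Row 155, part D4: the trace bounds
-/

set_option autoImplicit false

namespace Crest.Agent.R155

open Finset Matrix
open scoped BigOperators

namespace Tr

variable {D j : ℕ}

theorem expect_pow_le {Ω : Type} [Fintype Ω] [Nonempty Ω] (a : Ω → ℝ) (ha : ∀ ω, 0 ≤ a ω)
    (n : ℕ) : (𝔼 ω, a ω) ^ n ≤ 𝔼 ω, a ω ^ n := by
  have hc : (0 : ℝ) < Fintype.card Ω := by exact_mod_cast Fintype.card_pos
  have := Real.pow_arith_mean_le_arith_mean_pow univ (fun _ : Ω => (Fintype.card Ω : ℝ)⁻¹) a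
    (fun _ _ => by positivity) (by simp [hc.ne']) (fun ω _ => ha ω) n
  simp only [Finset.expect_eq_sum_div_card, Finset.card_univ, div_eq_inv_mul, Finset.mul_sum]
  exact this

theorem eta_nonneg (i : ℕ) : 0 ≤ eta i := by
  unfold eta; split_ifs <;> positivity

theorem sum_eta_block (q : ℕ) :
    ∑ i ∈ range (14 * (q + 3)), eta i = 54.25 - 98 / 2 ^ (q + 3) := by
  induction q with
  | zero =>
    rw [Finset.sum_congr rfl (g := fun _ => (1 : ℝ)) (fun i hi => by
      rw [mem_range] at hi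
      simp only [eta]
      rw [if_pos (by omega)])]
    norm_num
  | succ q ih =>
    rw [show 14 * (q + 1 + 3) = 14 * (q + 3) + 14 by ring, Finset.sum_range_add, ih,
      Finset.sum_congr rfl (g := fun _ => (7 / 2 : ℝ) / 2 ^ (q + 3)) (fun i hi => by
        rw [mem_range] at hi
        simp only [eta]
        rw [if_neg (by omega), show (14 * (q + 3) + i) / 14 = q + 3 by omega])]
    rw [Finset.sum_const, card_range, nsmul_eq_mul, show q + 1 + 3 = (q + 3) + 1 by ring,
      pow_succ _ (q + 3)]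
    push_cast
    field_simp
    ring

theorem sum_eta_le (D : ℕ) : ∑ t : Fin D, eta t.val ≤ 55 := by
  rw [Fin.sum_univ_eq_sum_range eta D]
  calc _ ≤ ∑ i ∈ range (14 * (D + 3)), eta i :=
        Finset.sum_le_sum_of_subset_of_nonneg (Finset.range_mono (by omega))
          fun i _ _ => eta_nonneg i
    _ ≤ 55 := by
        rw [sum_eta_block]
        have : (0 : ℝ) ≤ 98 / 2 ^ (D + 3) := by positivity
        linarith

/-- the exponent of the block bound -/
noncomputable def Hh (ωf : Om D) (z : Tup j D) : ℝ :=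
  ∑ t : Fin D, eta t.val * (dbl t (bwin ωf 0 t.val • z)).card

theorem trace_le (hR : RussoStmt) (hrho : RhoStmt) (hB : BlockStmt) (D j : ℕ) :
    (Bmat D (Tup j D) D ^ 64).trace
      ≤ 𝔼 ωf : Om D, (((2 : ℝ) ^ D) ^ j)⁻¹ * ∑ z : Tup j D, (2 : ℝ) ^ Hh ωf z := by
  set c : ℝ := (((2 : ℝ) ^ D) ^ j)⁻¹ with hc
  have hc0 : 0 < c := by positivity
  have h1 : ∀ x : Tup j D, (∑ y, (Bmat D (Tup j D) D x y) ^ (64 / 63 : ℝ)) ^ 63
      ≤ 𝔼 ωf : Om D, c * (2 : ℝ) ^ Hh ωf ((bwin ωf 0 D)⁻¹ • x) := by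
    intro x
    have h2 : ∑ y, (Bmat D (Tup j D) D x y) ^ (64 / 63 : ℝ)
        ≤ 𝔼 ωf : Om D, (c * (2 : ℝ) ^ Hh ωf ((bwin ωf 0 D)⁻¹ • x)) ^ (1 / 63 : ℝ) := by
      refine (hrho D j x).trans (Finset.expect_le_expect fun ωf _ => ?_)
      set z := (bwin ωf 0 D)⁻¹ • x
      have h3 : ∀ ωb : Om D, ∏ t : Fin D, ((Lam t ωf ωb z : ℝ) / 2 ^ j) ^ (1 / 63 : ℝ)
          = c ^ (1 / 63 : ℝ) * ∏ t : Fin D, (Lam t ωf ωb z : ℝ) ^ (1 / 63 : ℝ) := by
        intro ωb
        rw [Real.finsetProd_rpow _ _ (fun t _ => by positivity),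
          Real.finsetProd_rpow _ _ (fun t _ => by positivity),
          ← Real.mul_rpow hc0.le (Finset.prod_nonneg fun t _ => by positivity)]
        congr 1
        rw [Finset.prod_div_distrib, Finset.prod_const, card_univ, Fintype.card_fin, hc,
          ← pow_mul, ← pow_mul, mul_comm j D, div_eq_inv_mul]
      simp_rw [h3]
      rw [← Finset.mul_expect, Real.mul_rpow hc0.le (by positivity)]
      refine mul_le_mul_of_nonneg_left ((hB D j ωf z).trans (le_of_eq ?_)) (by positivity)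
      rw [← Real.rpow_mul (by norm_num), mul_comm]; rfl
    calc _ ≤ (𝔼 ωf : Om D, (c * (2 : ℝ) ^ Hh ωf ((bwin ωf 0 D)⁻¹ • x)) ^ (1 / 63 : ℝ)) ^ 63 :=
          pow_le_pow_left₀ (Finset.sum_nonneg fun y _ =>
            Real.rpow_nonneg (Bmat_nonneg D _ D x y) _) h2 63
      _ ≤ 𝔼 ωf : Om D, ((c * (2 : ℝ) ^ Hh ωf ((bwin ωf 0 D)⁻¹ • x)) ^ (1 / 63 : ℝ)) ^ 63 :=
          expect_pow_le _ (fun ωf => by positivity) 63
      _ = _ := by
          refine Finset.expect_congr rfl fun ωf _ => ?_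
          rw [← Real.rpow_natCast, ← Real.rpow_mul (by positivity)]
          norm_num
  refine (hR _ _ (Bmat_isSymm D _ D) (Bmat_nonneg D _ D)).trans
    ((Finset.sum_le_sum fun x _ => h1 x).trans (le_of_eq ?_))
  rw [← Finset.expect_sum_comm]
  refine Finset.expect_congr rfl fun ωf _ => ?_
  rw [Finset.mul_sum]
  exact Fintype.sum_equiv (MulAction.toPerm (bwin ωf 0 D)⁻¹) _ _ fun x => rfl

theorem card_union_flp (t : Fin D) {S : Finset (Pos D)} (hS : ∀ p ∈ S, p t = true) :
    (S ∪ S.image (flp t)).card = 2 * S.card := by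
  rw [Finset.card_union_of_disjoint, Finset.card_image_of_injective _ (flp t).injective, two_mul]
  rw [Finset.disjoint_left]
  intro p hp hp'
  obtain ⟨q, hq, rfl⟩ := Finset.mem_image.1 hp'
  have h1 := hS _ hp
  rw [flp_apply_self, hS q hq] at h1
  simp at h1

theorem covered_of_subset_dbl (t : Fin D) (x : Tup j D) {S : Finset (Pos D)} (hS : S ⊆ dbl t x) :
    ∀ r ∈ S ∪ S.image (flp t), ∃ a, x a = r := by
  intro r hr
  rcases Finset.mem_union.1 hr with h | h
  · exact (Finset.mem_filter.1 (hS h)).2.2.1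
  · obtain ⟨q, hq, rfl⟩ := Finset.mem_image.1 h
    exact (Finset.mem_filter.1 (hS hq)).2.2.2

theorem two_mul_card_dbl (t : Fin D) (x : Tup j D) : 2 * (dbl t x).card ≤ j := by
  rw [← card_union_flp t (fun p hp => (Finset.mem_filter.1 hp).2.1)]
  calc _ ≤ (univ.image x).card := Finset.card_le_card fun r hr => by
        obtain ⟨a, ha⟩ := covered_of_subset_dbl t x subset_rfl r hr
        exact Finset.mem_image.2 ⟨a, mem_univ _, ha⟩
    _ ≤ (univ : Finset (Fin j)).card := Finset.card_image_le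
    _ = j := by simp

theorem card_tup_le : (Fintype.card (Tup j D) : ℝ) ≤ ((2 : ℝ) ^ D) ^ j := by
  have : Fintype.card (Tup j D) ≤ Fintype.card (Fin j → Pos D) :=
    Fintype.card_le_of_injective (fun x => (x : Fin j → Pos D)) DFunLike.coe_injective
  rw [Fintype.card_fun, card_Pos, Fintype.card_fin] at this
  exact_mod_cast this

theorem card_cover (R : Finset (Pos D)) :
    (univ.filter fun x : Tup j D => ∀ r ∈ R, ∃ a, x a = r).card * (2 ^ D) ^ R.card
      ≤ j ^ R.card * (2 ^ D) ^ j := by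
  classical
  let T := {x : Tup j D // ∀ r ∈ R, ∃ a, x a = r}
  have hα : ∀ x : T, ∃ α : R → Fin j, ∀ r : R, x.1 (α r) = r := fun x =>
    ⟨fun r => (x.2 r r.2).choose, fun r => (x.2 r r.2).choose_spec⟩
  choose α hα using hα
  have hinj : ∀ x, Function.Injective (α x) := by
    intro x r r' h
    apply Subtype.ext
    rw [← hα x r, ← hα x r', h]
  let f : T × (R → Pos D) → (R → Fin j) × (Fin j → Pos D) :=
    fun p => (α p.1, Function.extend (α p.1) p.2 p.1.1)
  have hf : Function.Injective f := by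
    rintro ⟨x, w⟩ ⟨x', w'⟩ h
    obtain ⟨h1, h2⟩ := Prod.ext_iff.1 h
    simp only [f] at h1 h2
    rw [← h1] at h2
    refine Prod.ext (Subtype.ext ?_) ?_
    · ext1 a
      by_cases ha : ∃ r, α x r = a
      · obtain ⟨r, rfl⟩ := ha
        rw [hα x r, h1, hα x' r]
      · have := congrFun h2 a
        rwa [Function.extend_apply' _ _ _ ha, Function.extend_apply' _ _ _ ha] at this
    · funext r
      have := congrFun h2 (α x r)
      rwa [(hinj x).extend_apply, (hinj x).extend_apply] at this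
  have := Fintype.card_le_of_injective f hf
  simp only [Fintype.card_prod, Fintype.card_fun, Fintype.card_bool, Fintype.card_coe,
    Fintype.card_fin] at this
  rwa [Fintype.card_subtype] at this

theorem sum_pow_dbl (t : Fin D) (y : ℝ) (hy : 0 ≤ y) :
    ∑ x : Tup j D, (1 + y) ^ (dbl t x).card
      ≤ ((2 : ℝ) ^ D) ^ j * Real.exp (y / 2 * (j : ℝ) ^ 2 / 2 ^ D) := by
  classical
  set n : ℝ := (2 : ℝ) ^ D with hn
  have hn0 : 0 < n := by positivity
  let U : Finset (Pos D) := univ.filter fun p => p t = true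
  have hU : 2 * (U.card : ℝ) ≤ n := by
    have h1 := card_union_flp t (S := U) (fun p hp => (Finset.mem_filter.1 hp).2)
    have h2 : (U ∪ U.image (flp t)).card ≤ 2 ^ D := by
      rw [← card_Pos D]; exact Finset.card_le_univ _
    rw [h1] at h2
    rw [hn]; exact_mod_cast h2
  have h1 : ∀ x : Tup j D, (1 + y) ^ (dbl t x).card
      = ∑ S ∈ U.powerset, if S ⊆ dbl t x then y ^ S.card else 0 := by
    intro x
    rw [← Finset.prod_const, Finset.prod_one_add, ← Finset.sum_filter]
    refine Finset.sum_congr ?_ fun S _ => Finset.prod_const _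
    ext S
    simp only [mem_powerset, mem_filter]
    refine ⟨fun h => ⟨h.trans fun p hp => ?_, h⟩, fun h => h.2⟩
    exact Finset.mem_filter.2 ⟨mem_univ _, (Finset.mem_filter.1 hp).2.1⟩
  have h2 : ∀ S ∈ U.powerset, ∑ x : Tup j D, (if S ⊆ dbl t x then y ^ S.card else 0)
      ≤ n ^ j * (y * ((j : ℝ) / n) ^ 2) ^ S.card := by
    intro S hS
    rw [← Finset.sum_filter, Finset.sum_const, nsmul_eq_mul]
    have hc := card_cover (j := j) (S ∪ S.image (flp t))
    rw [card_union_flp t (fun p hp => (Finset.mem_filter.1 (mem_powerset.1 hS hp)).2)] at hc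
    have hc2 : (univ.filter fun x : Tup j D => S ⊆ dbl t x).card
        ≤ (univ.filter fun x : Tup j D => ∀ r ∈ S ∪ S.image (flp t), ∃ a, x a = r).card :=
      Finset.card_le_card fun x hx => Finset.mem_filter.2
        ⟨mem_univ _, covered_of_subset_dbl t x (Finset.mem_filter.1 hx).2⟩
    have hc3 : ((univ.filter fun x : Tup j D => S ⊆ dbl t x).card : ℝ) * n ^ (2 * S.card)
        ≤ (j : ℝ) ^ (2 * S.card) * n ^ j := by
      rw [hn]
      exact_mod_cast (Nat.mul_le_mul_right _ hc2).trans hc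
    rw [← le_div_iff₀ (by positivity)] at hc3
    calc _ ≤ ((j : ℝ) ^ (2 * S.card) * n ^ j / n ^ (2 * S.card)) * y ^ S.card :=
          mul_le_mul_of_nonneg_right hc3 (by positivity)
      _ = _ := by rw [mul_pow, ← pow_mul, div_pow]; ring
  simp_rw [h1]
  rw [Finset.sum_comm]
  refine (Finset.sum_le_sum h2).trans ?_
  rw [← Finset.mul_sum]
  refine mul_le_mul_of_nonneg_left ?_ (by positivity)
  set r : ℝ := y * ((j : ℝ) / n) ^ 2 with hr
  have hr0 : 0 ≤ r := by positivity
  have h3 : ∑ S ∈ U.powerset, r ^ S.card = (1 + r) ^ U.card := by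
    rw [← Finset.prod_const, Finset.prod_one_add]
    exact Finset.sum_congr rfl fun S _ => (Finset.prod_const _).symm
  rw [h3]
  calc (1 + r) ^ U.card ≤ (Real.exp r) ^ U.card :=
        pow_le_pow_left₀ (by positivity) (by linarith [Real.add_one_le_exp r]) _
    _ = Real.exp (U.card * r) := (Real.exp_nat_mul _ _).symm
    _ ≤ _ := by
        apply Real.exp_le_exp.2
        have : y / 2 * (j : ℝ) ^ 2 / n = n / 2 * r := by rw [hr]; field_simp
        rw [this]
        exact mul_le_mul_of_nonneg_right (by linarith) hr0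

theorem exp_conv {ι : Type} [Fintype ι] (w a : ι → ℝ) (hw : ∀ i, 0 ≤ w i) (hW : ∑ i, w i ≤ 1) :
    Real.exp (∑ i, w i * a i) ≤ ∑ i, w i * Real.exp (a i) + (1 - ∑ i, w i) := by
  set s := ∑ i, w i * a i with hs
  have h1 : ∀ b, Real.exp s * (1 + b - s) ≤ Real.exp b := by
    intro b
    have := Real.add_one_le_exp (b - s)
    rw [Real.exp_sub, le_div_iff₀ (Real.exp_pos s)] at this
    linarith
  have h2 : ∑ i, w i * (Real.exp s * (1 + a i - s)) ≤ ∑ i, w i * Real.exp (a i) :=
    Finset.sum_le_sum fun i _ => mul_le_mul_of_nonneg_left (h1 _) (hw i)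
  have h3 : ∑ i, w i * (Real.exp s * (1 + a i - s))
      = Real.exp s * ((1 - s) * ∑ i, w i + s) := by
    rw [hs, Finset.mul_sum, ← Finset.sum_add_distrib, Finset.mul_sum]
    exact Finset.sum_congr rfl fun i _ => by ring
  have h4 := mul_le_mul_of_nonneg_left (h1 0) (sub_nonneg.2 hW)
  rw [Real.exp_zero] at h4
  rw [h3] at h2
  nlinarith

end Tr

open Tr

theorem propT1_of (hR : RussoStmt) (hrho : RhoStmt) (hB : BlockStmt) : PropT1 := by
  intro D j
  refine (trace_le hR hrho hB D j).trans (Finset.expect_le (univ_nonempty) fun ωf _ => ?_)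
  have h1 : ∀ z : Tup j D, (2 : ℝ) ^ Hh ωf z ≤ Real.exp (19.1 * j) := by
    intro z
    have h2 : Hh ωf z ≤ 55 * ((j : ℝ) / 2) := by
      calc Hh ωf z ≤ ∑ t : Fin D, eta t.val * ((j : ℝ) / 2) := by
            refine Finset.sum_le_sum fun t _ => mul_le_mul_of_nonneg_left ?_ (eta_nonneg _)
            have : (2 * (dbl t (bwin ωf 0 t.val • z)).card : ℝ) ≤ j := by
              exact_mod_cast two_mul_card_dbl t _
            linarith
        _ ≤ _ := by
            rw [← Finset.sum_mul]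
            exact mul_le_mul_of_nonneg_right (sum_eta_le D) (by positivity)
    refine (Real.rpow_le_rpow_of_exponent_le (by norm_num) h2).trans ?_
    rw [Real.rpow_def_of_pos (by norm_num)]
    apply Real.exp_le_exp.2
    have := Real.log_two_lt_d9
    have hj : (0 : ℝ) ≤ j := Nat.cast_nonneg j
    nlinarith
  have hn : (0 : ℝ) < ((2 : ℝ) ^ D) ^ j := by positivity
  rw [inv_mul_le_iff₀ hn]
  calc _ ≤ ∑ _z : Tup j D, Real.exp (19.1 * j) := Finset.sum_le_sum fun z _ => h1 z
    _ = Fintype.card (Tup j D) * Real.exp (19.1 * j) := by simp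
    _ ≤ _ := mul_le_mul_of_nonneg_right card_tup_le (Real.exp_pos _).le

theorem propT2_of (hR : RussoStmt) (hrho : RhoStmt) (hB : BlockStmt) : PropT2 := by
  intro D j
  refine (trace_le hR hrho hB D j).trans (Finset.expect_le (univ_nonempty) fun ωf _ => ?_)
  set n : ℝ := ((2 : ℝ) ^ D) ^ j with hn
  have hn0 : 0 < n := by positivity
  set E := Real.exp (2 ^ 54 * (j : ℝ) ^ 2 / 2 ^ D) with hE
  have hE1 : 1 ≤ E := Real.one_le_exp (by positivity)
  let w : Fin D → ℝ := fun t => eta t.val / 55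
  have hw : ∀ t, 0 ≤ w t := fun t => div_nonneg (eta_nonneg _) (by norm_num)
  have hW : ∑ t, w t ≤ 1 := by
    rw [← Finset.sum_div, div_le_one (by norm_num)]; exact sum_eta_le D
  have h1 : ∀ z : Tup j D, (2 : ℝ) ^ Hh ωf z
      ≤ ∑ t, w t * (1 + (2 ^ 55 - 1 : ℝ)) ^ (dbl t (bwin ωf 0 t.val • z)).card
        + (1 - ∑ t, w t) := by
    intro z
    have := exp_conv w (fun t => ((dbl t (bwin ωf 0 t.val • z)).card : ℝ) * (55 * Real.log 2))
      hw hW
    convert this using 1
    · rw [Real.rpow_def_of_pos (by norm_num), Hh, Finset.mul_sum]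
      congr 1
      exact Finset.sum_congr rfl fun t _ => by simp only [w]; ring
    · congr 1
      refine Finset.sum_congr rfl fun t _ => ?_
      congr 1
      rw [Real.exp_nat_mul]
      congr 1
      rw [show (55 : ℝ) = ((55 : ℕ) : ℝ) by norm_num, Real.exp_nat_mul,
        Real.exp_log (by norm_num)]
      ring
  have h2 : ∀ t : Fin D, ∑ z : Tup j D,
      (1 + (2 ^ 55 - 1 : ℝ)) ^ (dbl t (bwin ωf 0 t.val • z)).card ≤ n * E := by
    intro t
    have e1 : ∑ z : Tup j D, (1 + (2 ^ 55 - 1 : ℝ)) ^ (dbl t (bwin ωf 0 t.val • z)).card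
        = ∑ x : Tup j D, (1 + (2 ^ 55 - 1 : ℝ)) ^ (dbl t x).card :=
      Fintype.sum_equiv (MulAction.toPerm (bwin ωf 0 t.val)) _ _ fun x => rfl
    rw [e1]
    refine (sum_pow_dbl t _ (by norm_num)).trans (mul_le_mul_of_nonneg_left ?_ hn0.le)
    apply Real.exp_le_exp.2
    refine div_le_div_of_nonneg_right ?_ (by positivity)
    exact mul_le_mul_of_nonneg_right (by norm_num) (sq_nonneg _)
  rw [inv_mul_le_iff₀ hn0]
  refine (Finset.sum_le_sum fun z _ => h1 z).trans ?_
  rw [Finset.sum_add_distrib, Finset.sum_comm, Finset.sum_const, card_univ, nsmul_eq_mul]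
  have h3 : ∑ t, ∑ z : Tup j D,
      w t * (1 + (2 ^ 55 - 1 : ℝ)) ^ (dbl t (bwin ωf 0 t.val • z)).card
      ≤ (∑ t, w t) * (n * E) := by
    rw [Finset.sum_mul]
    refine Finset.sum_le_sum fun t _ => ?_
    rw [← Finset.mul_sum]
    exact mul_le_mul_of_nonneg_left (h2 t) (hw t)
  have h4 : (Fintype.card (Tup j D) : ℝ) * (1 - ∑ t, w t) ≤ (n * E) * (1 - ∑ t, w t) :=
    mul_le_mul_of_nonneg_right (card_tup_le.trans (le_mul_of_one_le_right hn0.le hE1))
      (sub_nonneg.2 hW)
  nlinarith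

end Crest.Agent.R155
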