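import Crest.Agent.R155.Basic

/-!
# Row 155, part E4: bounds on the level eigenvalues
-/

set_option autoImplicit false

namespace Crest.Agent.R155

open Finset Matrix
open scoped BigOperators

namespace Varpi

variable {D : ℕ}

section pull
variable {X Y : Type} [Fintype X] [DecidableEq X] [MulAction (Grp D) X]
  [Fintype Y] [DecidableEq Y] [MulAction (Grp D) Y]

/-- the matrix of the pull-back along `φ` -/
def pb (φ : X → Y) : Matrix X Y ℝ := Matrix.of fun x y => if φ x = y then 1 else 0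

omit [Fintype X] [DecidableEq X] in
theorem pb_mulVec (φ : X → Y) (F : Y → ℝ) : pb φ *ᵥ F = fun x => F (φ x) := by
  funext x; simp [pb, mulVec, dotProduct]

theorem pm_pb (φ : X → Y) (hφ : ∀ (g : Grp D) x, φ (g • x) = g • φ x) (g : Grp D) :
    pm D X g * pb φ = pb φ * pm D Y g := by
  ext x y
  have h1 := congrFun (pm_mulVec D X g (fun z => pb φ z y)) x
  have h2 := congrFun (pb_mulVec φ (fun z => pm D Y g z y)) x
  have e1 : (pm D X g * pb φ) x y = pb φ (g • x) y := h1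
  have e2 : (pb φ * pm D Y g) x y = pm D Y g (φ x) y := h2
  rw [e1, e2, pm_apply, ← hφ]; rfl

theorem B_pull (φ : X → Y) (hφ : ∀ (g : Grp D) x, φ (g • x) = g • φ x) (i : ℕ) (F : Y → ℝ) :
    Bmat D X i *ᵥ (fun x => F (φ x)) = fun x => (Bmat D Y i *ᵥ F) (φ x) := by
  rw [← pb_mulVec φ F, ← pb_mulVec φ (Bmat D Y i *ᵥ F), mulVec_mulVec, mulVec_mulVec,
    Bmat_intertwine D X Y _ (pm_pb φ hφ)]

theorem C_pull (φ : X → Y) (hφ : ∀ (g : Grp D) x, φ (g • x) = g • φ x) (F : Y → ℝ) :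
    Cmat D X *ᵥ (fun x => F (φ x)) = fun x => (Cmat D Y *ᵥ F) (φ x) := by
  rw [← pb_mulVec φ F, ← pb_mulVec φ (Cmat D Y *ᵥ F), mulVec_mulVec, mulVec_mulVec,
    Cmat_intertwine D X Y _ (pm_pb φ hφ)]

end pull

theorem dot_nonneg {X : Type} [Fintype X] (u : X → ℝ) : 0 ≤ u ⬝ᵥ u :=
  Finset.sum_nonneg fun _ _ => mul_self_nonneg _

theorem exists_smul_eq {j : ℕ} (e x : Tup j D) : ∃ g : Grp D, g • e = x := by
  obtain ⟨g, hg⟩ := Equiv.Perm.exists_extending_pair e x e.injective x.injective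
  exact ⟨g, by ext1 a; exact hg a⟩

/-- sums over the group are multiples of sums over an orbit -/
theorem sum_smul {j : ℕ} (e : Tup j D) :
    ∃ κ : ℝ, 0 < κ ∧ ∀ φ : Tup j D → ℝ, ∑ g : Grp D, φ (g • e) = κ * ∑ x, φ x := by
  classical
  refine ⟨((univ.filter fun g : Grp D => g • e = e).card : ℝ), ?_, fun φ => ?_⟩
  · have : 0 < (univ.filter fun g : Grp D => g • e = e).card :=
      Finset.card_pos.mpr ⟨1, by simp⟩
    exact_mod_cast this
  · have hcard : ∀ x : Tup j D, (univ.filter fun g : Grp D => g • e = x).card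
        = (univ.filter fun g : Grp D => g • e = e).card := by
      intro x
      obtain ⟨h, hh⟩ := exists_smul_eq e x
      symm
      refine Finset.card_equiv (Equiv.mulLeft h) fun g => ?_
      simp only [mem_filter, mem_univ, true_and, Equiv.coe_mulLeft, mul_smul]
      rw [← hh, smul_left_cancel_iff]
    rw [← Finset.sum_fiberwise (s := univ) (g := fun g : Grp D => g • e), Finset.mul_sum]
    refine Finset.sum_congr rfl fun x _ => ?_
    rw [Finset.sum_congr rfl (g := fun _ => φ x) (fun g hg => by rw [(mem_filter.1 hg).2]),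
      Finset.sum_const, hcard, nsmul_eq_mul]

theorem exists_pull {k : ℕ} {A : Finset (Pos D)} (e : Tup k D) (he : ∀ a ∈ A, ∃ i, e i = a)
    {u : Grp D → ℝ} (hu : DepOn A u) : ∃ F : Tup k D → ℝ, ∀ g, u g = F (g • e) := by
  choose s hs using exists_smul_eq e
  refine ⟨fun x => u (s x), fun g => hu _ _ fun a ha => ?_⟩
  obtain ⟨i, rfl⟩ := he a ha
  rw [← tup_smul_apply, ← tup_smul_apply, hs]

theorem exists_enum {k : ℕ} {A : Finset (Pos D)} (hA : A.card = k) :
    ∃ e : Tup k D, (∀ i, e i ∈ A) ∧ ∀ a ∈ A, ∃ i, e i = a := by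
  let q := Finset.equivFinOfCardEq hA
  refine ⟨⟨fun i => (q.symm i : Pos D), fun i i' h => q.symm.injective (Subtype.ext h)⟩,
    fun i => (q.symm i).2, fun a ha => ⟨q ⟨a, ha⟩, ?_⟩⟩
  simp

/-- Cauchy–Schwarz for a family of eigenvectors -/
theorem cs_trace {X C : Type} [Fintype X] [DecidableEq X] [Fintype C] (M : Matrix X X ℝ)
    (hM : Mᵀ = M) (F : C → X → ℝ) (μ : ℝ) (hF : ∀ c, M *ᵥ F c = μ • F c) :
    (μ * ∑ c, F c ⬝ᵥ F c) ^ 2 ≤ (M * M).trace * ∑ c, ∑ c', (F c ⬝ᵥ F c') ^ 2 := by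
  have h1 : μ * ∑ c, F c ⬝ᵥ F c = ∑ p : X × X, M p.1 p.2 * ∑ c, F c p.1 * F c p.2 := by
    rw [Finset.mul_sum]
    have : ∀ c, μ * (F c ⬝ᵥ F c) = ∑ p : X × X, M p.1 p.2 * (F c p.1 * F c p.2) := by
      intro c
      have : μ * (F c ⬝ᵥ F c) = F c ⬝ᵥ (M *ᵥ F c) := by rw [hF, dotProduct_smul, smul_eq_mul]
      rw [this, Fintype.sum_prod_type]
      simp only [dotProduct, mulVec, Finset.mul_sum]
      refine Finset.sum_congr rfl fun x _ => Finset.sum_congr rfl fun y _ => by ring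
    simp_rw [this, Finset.mul_sum]
    rw [Finset.sum_comm]
  have h2 : (M * M).trace = ∑ p : X × X, M p.1 p.2 ^ 2 := by
    rw [Fintype.sum_prod_type]
    simp only [Matrix.trace, Matrix.diag, Matrix.mul_apply]
    refine Finset.sum_congr rfl fun x _ => Finset.sum_congr rfl fun y _ => ?_
    have : M y x = M x y := by rw [← transpose_apply M x y, hM]
    rw [this, sq]
  have h3 : ∑ c, ∑ c', (F c ⬝ᵥ F c') ^ 2 = ∑ p : X × X, (∑ c, F c p.1 * F c p.2) ^ 2 := by
    have a1 : ∀ c c', (F c ⬝ᵥ F c') ^ 2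
        = ∑ p : X × X, (F c p.1 * F c p.2) * (F c' p.1 * F c' p.2) := by
      intro c c'
      rw [sq, dotProduct, Finset.sum_mul_sum, Fintype.sum_prod_type]
      refine Finset.sum_congr rfl fun x _ => Finset.sum_congr rfl fun y _ => by ring
    have a2 : ∀ p : X × X, (∑ c, F c p.1 * F c p.2) ^ 2
        = ∑ c, ∑ c', (F c p.1 * F c p.2) * (F c' p.1 * F c' p.2) := by
      intro p; rw [sq, Finset.sum_mul_sum]
    simp_rw [a1, a2]
    rw [Finset.sum_comm (s := (univ : Finset (X × X)))]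
    refine Finset.sum_congr rfl fun c _ => ?_
    rw [Finset.sum_comm]
  rw [h1, h2, h3]
  exact Finset.sum_mul_sq_le_sq_mul_sq _ _ _

theorem pow_mulVec_eig {X : Type} [Fintype X] [DecidableEq X] (M : Matrix X X ℝ) (F : X → ℝ)
    (μ : ℝ) (hF : M *ᵥ F = μ • F) (s : ℕ) : (M ^ s) *ᵥ F = μ ^ s • F := by
  induction s with
  | zero => simp
  | succ s ih => rw [pow_succ, ← mulVec_mulVec, hF, mulVec_smul, ih, smul_smul, pow_succ']

theorem sum_pow_card {k b : ℕ} (r : ℝ) (hr : 0 ≤ r) (c : Fin k → Fin b) :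
    ∑ c' : Fin k → Fin b, r ^ (univ.filter fun i => c i ≠ c' i).card
      ≤ Real.exp (k * b * r) := by
  have h1 : ∀ c' : Fin k → Fin b, r ^ (univ.filter fun i => c i ≠ c' i).card
      = ∏ i, if c i = c' i then 1 else r := by
    intro c'
    rw [Finset.prod_ite]
    simp
  simp_rw [h1]
  rw [← Fintype.piFinset_univ, ← Finset.prod_univ_sum (fun _ => univ)
    (fun i (t : Fin b) => if c i = t then 1 else r)]
  have h2 : ∀ i, ∑ t : Fin b, (if c i = t then 1 else r) ≤ Real.exp (b * r) := by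
    intro i
    have : ∑ t : Fin b, (if c i = t then (1 : ℝ) else r)
        ≤ ∑ t : Fin b, ((if c i = t then (1 : ℝ) else 0) + r) :=
      Finset.sum_le_sum fun t _ => by split_ifs <;> linarith
    rw [Finset.sum_add_distrib] at this
    simp only [Finset.sum_ite_eq, mem_univ, if_true, Finset.sum_const, Finset.card_univ,
      Fintype.card_fin, nsmul_eq_mul] at this
    linarith [Real.add_one_le_exp (b * r)]
  calc _ ≤ ∏ _i : Fin k, Real.exp (b * r) :=
        Finset.prod_le_prod (fun i _ => Finset.sum_nonneg fun t _ => by split_ifs <;> linarith)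
          fun i _ => h2 i
    _ = _ := by
        rw [Finset.prod_const, Finset.card_univ, Fintype.card_fin, ← Real.exp_nat_mul, mul_assoc]

/-- the selection of one column in each row -/
def sel {k b : ℕ} (c : Fin k → Fin b) : Fin k ↪ Fin (k * b) :=
  ⟨fun i => finProdFinEquiv (i, c i), fun i i' h => by
    have := finProdFinEquiv.injective h
    exact (Prod.ext_iff.1 this).1⟩

theorem sel_eq {k b : ℕ} {c c' : Fin k → Fin b} {i i' : Fin k} (h : sel c i = sel c' i') :
    i = i' ∧ c i = c' i' := Prod.ext_iff.1 (finProdFinEquiv.injective h)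

theorem bound3 (hT : PropT2) (hG : GramStmt) {k : ℕ} (hk : 1 ≤ k) (lam : ℝ)
    {A : Finset (Pos D)} (hA : A.card = k) {u : Grp D → ℝ} (hu0 : u ≠ 0) (hdep : DepOn A u)
    (horth : Orth (k - 1) u) (hB : Bmat D (Grp D) D *ᵥ u = lam • u) (b : ℕ) (hb : 1 ≤ b)
    (hkb : k * b ≤ 2 ^ D) (h2k : 2 * k < 2 ^ D) :
    lam ^ 64 ≤ Real.exp (2 ^ 54 * ((k : ℝ) * b) ^ 2 / 2 ^ D) * (1 / (b : ℝ)) ^ k
      * Real.exp (k * b * ((k : ℝ) / (2 ^ D - 2 * k)) ^ 2) := by
  classical
  obtain ⟨e, heA, he⟩ := exists_enum hA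
  obtain ⟨F, hF⟩ := exists_pull e he hdep
  have hu : u = fun g => F (g • e) := funext hF
  have hBF : Bmat D (Tup k D) D *ᵥ F = lam • F := by
    funext x
    obtain ⟨g, rfl⟩ := exists_smul_eq e x
    have h1 := B_pull (X := Grp D) (fun g : Grp D => g • e) (fun g x => mul_smul g x e) D F
    rw [← hu, hB] at h1
    have := congrFun h1 g
    simp only [Pi.smul_apply] at this ⊢
    rw [← this, hF]
  obtain ⟨p⟩ : Nonempty (Tup (k * b) D) :=
    Function.Embedding.nonempty_of_card_le (by rw [Fintype.card_fin, card_Pos]; exact hkb)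
  obtain ⟨κ, hκ, hsum⟩ := sum_smul p
  let Fc : (Fin k → Fin b) → Tup (k * b) D → ℝ := fun c x => F ((sel c).trans x)
  have hFc : ∀ c, Bmat D (Tup (k * b) D) D *ᵥ Fc c = lam • Fc c := by
    intro c
    have h1 := B_pull (D := D) (X := Tup (k * b) D)
      (fun x : Tup (k * b) D => ((sel c).trans x : Tup k D))
      (fun g x => by ext1 a; rfl) D F
    rw [hBF] at h1
    exact h1
  choose h hh using fun c : Fin k → Fin b => exists_smul_eq e ((sel c).trans p)
  have hpull : ∀ c (g : Grp D), Fc c (g • p) = u (g * h c) := by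
    intro c g
    rw [hF, mul_smul, hh]; rfl
  have hdot : ∀ c c', κ * (Fc c ⬝ᵥ Fc c') = ∑ g, u g * u (g * ((h c)⁻¹ * h c')) := by
    intro c c'
    rw [dotProduct, ← hsum]
    simp_rw [hpull]
    refine Fintype.sum_equiv (Equiv.mulRight (h c)) _ _ fun g => ?_
    simp [mul_assoc]
  set N : ℝ := u ⬝ᵥ u with hN
  have hNpos : 0 < N := by
    rcases (dot_nonneg u).lt_or_eq with h0 | h0
    · exact h0
    · exact absurd (dotProduct_self_eq_zero.1 h0.symm) hu0
  set ρ : ℝ := (k : ℝ) / (2 ^ D - 2 * k) with hρ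
  have hρ0 : 0 ≤ ρ := by
    have : (2 * k : ℝ) < 2 ^ D := by exact_mod_cast h2k
    exact div_nonneg (Nat.cast_nonneg _) (by linarith)
  have hdiag : ∀ c, κ * (Fc c ⬝ᵥ Fc c) = N := by
    intro c; rw [hdot]; simp [hN, dotProduct]
  have hoff : ∀ c c', (κ * (Fc c ⬝ᵥ Fc c')) ^ 2
      ≤ (ρ ^ 2) ^ (univ.filter fun i => c i ≠ c' i).card * N ^ 2 := by
    intro c c'
    have hval : ∀ i, ((h c)⁻¹ * h c') (e i) = (h c)⁻¹ (p (sel c' i)) := by
      intro i
      rw [Equiv.Perm.mul_apply, ← tup_smul_apply (h c') e i, hh]; rfl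
    have hval2 : ∀ i, h c (e i) = p (sel c i) := by
      intro i
      rw [← tup_smul_apply (h c) e i, hh]; rfl
    have hiff : ∀ i i', ((h c)⁻¹ * h c') (e i) = e i' ↔ i = i' ∧ c' i = c i' := by
      intro i i'
      rw [hval, Equiv.Perm.inv_eq_iff_eq, hval2]
      constructor
      · intro H; exact sel_eq (p.injective H)
      · rintro ⟨rfl, H⟩
        congr 1
        change finProdFinEquiv (i, c' i) = finProdFinEquiv (i, c i)
        rw [H]
    have hcond : ∀ a ∈ A, ((h c)⁻¹ * h c') a = a ∨ ((h c)⁻¹ * h c') a ∉ A := by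
      intro a ha
      obtain ⟨i, rfl⟩ := he a ha
      by_cases hm : ((h c)⁻¹ * h c') (e i) ∈ A
      · left
        obtain ⟨i', hi'⟩ := he _ hm
        obtain ⟨rfl, -⟩ := (hiff i i').1 hi'.symm
        exact hi'.symm
      · exact Or.inr hm
    have hcard : (A.filter fun a => ((h c)⁻¹ * h c') a ≠ a).card
        = (univ.filter fun i => c i ≠ c' i).card := by
      symm
      refine Finset.card_bij (fun i _ => e i) (fun i hi => ?_) (fun i _ i' _ H => e.injective H)
        (fun a ha => ?_)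
      · rw [mem_filter] at hi ⊢
        refine ⟨heA i, fun H => hi.2 ((hiff i i).1 H).2.symm⟩
      · rw [mem_filter] at ha
        obtain ⟨i, rfl⟩ := he a ha.1
        refine ⟨i, ?_, rfl⟩
        rw [mem_filter]
        exact ⟨mem_univ _, fun H => ha.2 ((hiff i i).2 ⟨rfl, H.symm⟩)⟩
    have hg := hG D k A u u ((h c)⁻¹ * h c') hk hA h2k hdep hdep horth hcond
    rw [hcard, ← hN, Real.mul_self_sqrt hNpos.le, ← hρ, ← hdot] at hg
    have := pow_le_pow_left₀ (abs_nonneg _) hg 2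
    rw [sq_abs, mul_pow, mul_pow, ← pow_mul, mul_comm _ 2, pow_mul] at this
    rwa [mul_pow]
  have hcs := cs_trace (Bmat D (Tup (k * b) D) D ^ 32)
    (by rw [transpose_pow, Bmat_transpose]) Fc (lam ^ 32)
    (fun c => pow_mulVec_eig _ _ _ (hFc c) 32)
  rw [← pow_add] at hcs
  have htr := hT D (k * b)
  push_cast at htr
  set E1 := Real.exp (2 ^ 54 * ((k : ℝ) * b) ^ 2 / 2 ^ D) with hE1
  set E2 := Real.exp (k * b * ρ ^ 2) with hE2
  have hb0 : (0 : ℝ) < b := by exact_mod_cast hb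
  have hs1 : κ * ∑ c, Fc c ⬝ᵥ Fc c = (b : ℝ) ^ k * N := by
    rw [Finset.mul_sum]
    simp_rw [hdiag]
    simp
  have hs2 : κ ^ 2 * ∑ c, ∑ c', (Fc c ⬝ᵥ Fc c') ^ 2 ≤ (b : ℝ) ^ k * (E2 * N ^ 2) := by
    rw [Finset.mul_sum]
    have : ∀ c, κ ^ 2 * ∑ c', (Fc c ⬝ᵥ Fc c') ^ 2 ≤ E2 * N ^ 2 := by
      intro c
      rw [Finset.mul_sum]
      calc _ ≤ ∑ c', (ρ ^ 2) ^ (univ.filter fun i => c i ≠ c' i).card * N ^ 2 :=
            Finset.sum_le_sum fun c' _ => by rw [← mul_pow]; exact hoff c c'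
        _ ≤ _ := by
            rw [← Finset.sum_mul]
            exact mul_le_mul_of_nonneg_right (sum_pow_card _ (sq_nonneg _) c) (sq_nonneg _)
    calc _ ≤ ∑ _c : Fin k → Fin b, E2 * N ^ 2 := Finset.sum_le_sum fun c _ => this c
      _ = _ := by simp
  have hS0 : 0 ≤ ∑ c, ∑ c', (Fc c ⬝ᵥ Fc c') ^ 2 :=
    Finset.sum_nonneg fun c _ => Finset.sum_nonneg fun c' _ => sq_nonneg _
  have hmain : lam ^ 64 * ((b : ℝ) ^ k * N) ^ 2 ≤ E1 * ((b : ℝ) ^ k * (E2 * N ^ 2)) := by
    calc lam ^ 64 * ((b : ℝ) ^ k * N) ^ 2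
        = κ ^ 2 * (lam ^ 32 * ∑ c, Fc c ⬝ᵥ Fc c) ^ 2 := by rw [← hs1]; ring
      _ ≤ κ ^ 2 * (E1 * ∑ c, ∑ c', (Fc c ⬝ᵥ Fc c') ^ 2) :=
          mul_le_mul_of_nonneg_left (hcs.trans (mul_le_mul_of_nonneg_right htr hS0)) (sq_nonneg _)
      _ = E1 * (κ ^ 2 * ∑ c, ∑ c', (Fc c ⬝ᵥ Fc c') ^ 2) := by ring
      _ ≤ _ := mul_le_mul_of_nonneg_left hs2 (Real.exp_pos _).le
  have hbk : (0 : ℝ) < (b : ℝ) ^ k := pow_pos hb0 k
  have hpos : 0 < ((b : ℝ) ^ k * N) ^ 2 := by positivity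
  rw [← le_div_iff₀ hpos] at hmain
  refine hmain.trans (le_of_eq ?_)
  rw [one_div, inv_pow]
  field_simp

end Varpi

open Varpi in
theorem varpiStmt_of (hP : PropP) (hT : PropT2) (hR : RepStmt) (hG : GramStmt) : VarpiStmt := by
  intro D k lam hk hkD hlam hW
  obtain ⟨A, u, c, hA, hu0, hdep, horth, hB, hC⟩ := hW
  obtain ⟨hc1, hc2⟩ := hR D k A u c hk hA hu0 hdep horth hC
  have key : lam ≤ Real.exp (0.015 * k - c / (24 * 2 ^ D)) := by
    obtain ⟨e, heA, he⟩ := exists_enum hA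
    obtain ⟨F, hF⟩ := exists_pull e he hdep
    have hu : u = fun g => F (g • e) := funext hF
    have hBF : Bmat D (Tup k D) D *ᵥ F = lam • F := by
      funext x
      obtain ⟨g, rfl⟩ := exists_smul_eq e x
      have h1 := B_pull (X := Grp D) (fun g : Grp D => g • e) (fun g x => mul_smul g x e) D F
      rw [← hu, hB] at h1
      have := congrFun h1 g
      simp only [Pi.smul_apply] at this ⊢
      rw [← this, hF]
    have hCF : Cmat D (Tup k D) *ᵥ F = c • F := by
      funext x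
      obtain ⟨g, rfl⟩ := exists_smul_eq e x
      have h1 := C_pull (X := Grp D) (fun g : Grp D => g • e) (fun g x => mul_smul g x e) F
      rw [← hu, hC] at h1
      have := congrFun h1 g
      simp only [Pi.smul_apply] at this ⊢
      rw [← this, hF]
    have hF0 : F ≠ 0 := by
      rintro rfl
      exact hu0 (by rw [hu]; rfl)
    have hpos : 0 < F ⬝ᵥ F := by
      rcases (dot_nonneg F).lt_or_eq with h0 | h0
      · exact h0
      · exact absurd (dotProduct_self_eq_zero.1 h0.symm) hF0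
    have := hP D k F c hCF
    rw [hBF, dotProduct_smul, smul_eq_mul] at this
    exact le_of_mul_le_mul_right this hpos
  have h2 : (0 : ℝ) < 2 ^ D := by positivity
  refine ⟨key.trans (Real.exp_le_exp.2 ?_), key.trans (Real.exp_le_exp.2 ?_), fun b hb hkb h2k =>
    bound3 hT hG hk lam hA hu0 hdep horth hB b hb hkb h2k⟩
  · have : (k : ℝ) / 24 ≤ c / (24 * 2 ^ D) := by
      rw [div_le_div_iff₀ (by norm_num) (by positivity)]; nlinarith
    linarith
  · have : 2 * (k : ℝ) * (2 ^ D - k + 1) / (24 * 2 ^ D) ≤ c / (24 * 2 ^ D) :=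
      div_le_div_of_nonneg_right hc2 (by positivity)
    linarith

end Crest.Agent.R155
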