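import Crest.Agent.R155.Block
import Crest.Agent.R155.Dyson
import Crest.Agent.R155.Kraft
import Crest.Agent.R155.LemmaK
import Crest.Agent.R155.Level
import Crest.Agent.R155.Link
import Crest.Agent.R155.PW
import Crest.Agent.R155.PropP
import Crest.Agent.R155.Rep
import Crest.Agent.R155.Rho
import Crest.Agent.R155.Russo
import Crest.Agent.R155.Super
import Crest.Agent.R155.Trace
import Crest.Agent.R155.Varpi

/-!
# Row 155: assembly
-/

set_option autoImplicit false

namespace Crest.Agent.R155

open Finset Filter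

theorem blockStmt : BlockStmt := blockStmt_of (lemmaK_of kraftStmt)

theorem propT1 : PropT1 := propT1_of russoStmt rhoStmt blockStmt

theorem propT2 : PropT2 := propT2_of russoStmt rhoStmt blockStmt

theorem propP : PropP := propP_of (pwStmt_of superStmt)

theorem varpiStmt : VarpiStmt := varpiStmt_of propP propT2 repStmt gramStmt

theorem final_of (hN : NumStmt) :
    Tendsto (fun d : ℕ => Crest.ProbabilityR.Shuffle.tvFromUniform (2 ^ d) (1600 * (d + 1)))
      atTop (nhds 0) := by
  choose w hw hsum using levelStmt_of propT1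
  have hb : ∀ D k, 1 ≤ k → k ≤ 2 ^ D → 0 ≤ w D k ∧ wbound D k (w D k) := by
    intro D k h1 h2
    obtain ⟨h0, h⟩ := hw D k h1 h2
    refine ⟨h0, ?_⟩
    rcases h with h | h
    · rw [h]
      refine ⟨(Real.exp_pos _).le, (Real.exp_pos _).le, fun b _ _ _ => ?_⟩
      rw [zero_pow (by norm_num)]
      positivity
    · exact varpiStmt D k _ h1 h2 h0 h
  have h1 := (hN w hb).comp (tendsto_add_atTop_nat 1)
  have h2 := (h1.sqrt).const_mul (1 / 2 : ℝ)
  rw [Real.sqrt_zero, mul_zero] at h2
  refine squeeze_zero (fun d => ?_) (fun d => ?_) h2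
  · unfold Crest.ProbabilityR.Shuffle.tvFromUniform
    positivity
  · refine (linkStmt d 1600).trans ?_
    apply mul_le_mul_of_nonneg_left _ (by norm_num)
    exact Real.sqrt_le_sqrt ((hsStmt (d + 1) 1600 (by norm_num)).trans (hsum (d + 1)))

end Crest.Agent.R155
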