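import Crest.Agent.R155.Basic

/-!
# Row 155, part E1 (first file): linear algebra with symmetric idempotent matrices
-/

set_option autoImplicit false

namespace Crest.Agent.R155.Level

open Finset Matrix
open scoped BigOperators

variable {X : Type} [Fintype X] [DecidableEq X]

/-- `P` is the orthogonal projection onto `V` -/
structure IsProj (V : Submodule ℝ (X → ℝ)) (P : Matrix X X ℝ) : Prop where
  symm : Pᵀ = P
  mem : ∀ v, P *ᵥ v ∈ V
  fix : ∀ v ∈ V, P *ᵥ v = v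

theorem exists_proj (V : Submodule ℝ (X → ℝ)) : ∃ P, IsProj V P := by
  let V' : Submodule ℝ (EuclideanSpace ℝ X) := V.comap (WithLp.linearEquiv 2 ℝ (X → ℝ)).toLinearMap
  let L : EuclideanSpace ℝ X →ₗ[ℝ] EuclideanSpace ℝ X := V'.starProjection.toLinearMap
  have hL : ∀ v : X → ℝ, toEuclideanLin.symm L *ᵥ v = (L (WithLp.toLp 2 v)).ofLp := by
    intro v
    have : toEuclideanLin (toEuclideanLin.symm L) (WithLp.toLp 2 v) = L (WithLp.toLp 2 v) := by
      rw [LinearEquiv.apply_symm_apply]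
    rw [← this]; rfl
  refine ⟨toEuclideanLin.symm L, ?_, fun v => ?_, fun v hv => ?_⟩
  · have h : (toEuclideanLin.symm L).IsHermitian := by
      rw [← isSymmetric_toEuclideanLin_iff, LinearEquiv.apply_symm_apply]
      exact V'.starProjection_isSymmetric
    simpa [IsHermitian] using h
  · rw [hL]
    exact V'.starProjection_apply_mem _
  · rw [hL]
    have : L (WithLp.toLp 2 v) = WithLp.toLp 2 v := Submodule.starProjection_eq_self_iff.2 hv
    rw [this]

omit [DecidableEq X] in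
/-- a matrix whose columns lie in `V` is fixed by the projection -/
theorem IsProj.mul_eq {V : Submodule ℝ (X → ℝ)} {P : Matrix X X ℝ} (h : IsProj V P) {Y : Type}
    {N : Matrix X Y ℝ} (hN : ∀ y, (fun x => N x y) ∈ V) : P * N = N := by
  ext x y
  exact congrFun (h.fix _ (hN y)) x

theorem IsProj.col_mem {V : Submodule ℝ (X → ℝ)} {P : Matrix X X ℝ} (h : IsProj V P) (y : X) :
    (fun x => P x y) ∈ V := by
  have := h.mem (Pi.single y 1)
  rw [mulVec_single_one] at this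
  exact this

theorem IsProj.idem {V : Submodule ℝ (X → ℝ)} {P : Matrix X X ℝ} (h : IsProj V P) : P * P = P :=
  h.mul_eq h.col_mem

theorem IsProj.mul_of_le {V V' : Submodule ℝ (X → ℝ)} {P P' : Matrix X X ℝ} (h : IsProj V P)
    (h' : IsProj V' P') (hle : V ≤ V') : P' * P = P ∧ P * P' = P := by
  have h1 : P' * P = P := h'.mul_eq fun y => hle (h.col_mem y)
  refine ⟨h1, ?_⟩
  have := congrArg transpose h1
  rwa [transpose_mul, h.symm, h'.symm] at this

theorem IsProj.comm {V : Submodule ℝ (X → ℝ)} {P M : Matrix X X ℝ} (h : IsProj V P)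
    (h1 : ∀ v ∈ V, M *ᵥ v ∈ V) (h2 : ∀ v ∈ V, Mᵀ *ᵥ v ∈ V) : M * P = P * M := by
  have e1 : P * (M * P) = M * P := h.mul_eq fun y => h1 _ (h.col_mem y)
  have e2 : P * (Mᵀ * P) = Mᵀ * P := h.mul_eq fun y => h2 _ (h.col_mem y)
  have e3 := congrArg transpose e2
  rw [transpose_mul, transpose_mul, transpose_transpose, h.symm] at e3
  rw [← e1, ← e3, Matrix.mul_assoc]

omit [DecidableEq X] in
theorem IsProj.dot_eq_zero {V : Submodule ℝ (X → ℝ)} {P : Matrix X X ℝ} (h : IsProj V P)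
    {v : X → ℝ} (hv : P *ᵥ v = 0) {w : X → ℝ} (hw : w ∈ V) : v ⬝ᵥ w = 0 := by
  rw [← h.fix w hw, dotProduct_mulVec, ← mulVec_transpose, h.symm, hv, zero_dotProduct]

omit [DecidableEq X] in
theorem trace_nonneg_of {N P : Matrix X X ℝ} (hs : Pᵀ = P) (hi : P * P = P) :
    0 ≤ (Nᵀ * N * P).trace := by
  have h := (Matrix.posSemidef_conjTranspose_mul_self (N * P)).trace_nonneg
  rw [conjTranspose_eq_transpose_of_trivial, transpose_mul, hs, Matrix.mul_assoc, trace_mul_comm,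
    Matrix.mul_assoc, Matrix.mul_assoc, hi, ← Matrix.mul_assoc] at h
  exact h

/-- the trace on the range of an intertwiner -/
theorem trace_le_of_intertwine {Y : Type} [Fintype Y] [DecidableEq Y] {M P : Matrix X X ℝ}
    {R : Matrix X Y ℝ} {N : Matrix Y Y ℝ} (hM : M * R = R * (Nᵀ * N)) (hP : P * R = R)
    (hcol : ∀ x', ∃ F : Y → ℝ, R *ᵥ F = fun x => P x x') :
    (M * P).trace ≤ (Nᵀ * N).trace := by
  choose F hF using hcol
  let S0 : Matrix Y X ℝ := Matrix.of fun y x' => F x' y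
  have hS0 : R * S0 = P := by
    ext x x'
    exact congrFun (hF x') x
  obtain ⟨K, hK⟩ := exists_proj (LinearMap.ker R.mulVecLin)
  have hRK : R * K = 0 := by
    ext x y
    exact congrFun (LinearMap.mem_ker.1 (hK.col_mem y)) x
  have h1 : K * (S0 * R - 1) = S0 * R - 1 := by
    refine hK.mul_eq fun y => LinearMap.mem_ker.2 ?_
    have : R * (S0 * R - 1) = 0 := by
      rw [Matrix.mul_sub, ← Matrix.mul_assoc, hS0, hP, Matrix.mul_one, sub_self]
    funext x
    exact congrFun (congrFun this x) y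
  have h2 : (1 - K) * S0 * R = 1 - K := by
    rw [Matrix.mul_sub, Matrix.mul_one] at h1
    rw [Matrix.mul_assoc, Matrix.sub_mul, Matrix.one_mul]
    rw [sub_eq_iff_eq_add] at h1
    rw [h1]; abel
  have h3 : R * ((1 - K) * S0) = P := by
    rw [← Matrix.mul_assoc, Matrix.mul_sub, hRK, Matrix.mul_one, sub_zero, hS0]
  rw [← h3, ← Matrix.mul_assoc, hM, Matrix.mul_assoc, trace_mul_comm, Matrix.mul_assoc, h2,
    Matrix.mul_sub, Matrix.mul_one, trace_sub]
  have := trace_nonneg_of (N := N) hK.symm hK.idem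
  linarith

theorem eig {M : Matrix X X ℝ} (hM : Mᵀ = M) : ∃ ev : X → ℝ,
    (∀ s : ℕ, (M ^ s).trace = ∑ i, ev i ^ s) ∧ ∀ i, ∃ v : X → ℝ, v ≠ 0 ∧ M *ᵥ v = ev i • v := by
  have hH : M.IsHermitian := by simpa [IsHermitian] using hM
  refine ⟨hH.eigenvalues, fun s => ?_, fun i => ⟨_, (WithLp.ofLp_eq_zero 2).ne.2 <|
    hH.eigenvectorBasis.orthonormal.ne_zero i, hH.mulVec_eigenvectorBasis i⟩⟩
  conv_lhs => rw [hH.spectral_theorem, ← map_pow, Unitary.conjStarAlgAut_apply, trace_mul_comm,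
    ← Matrix.mul_assoc]
  simp [diagonal_pow]

/-- the trace of a high power on an invariant subspace -/
theorem trace_pow_le [Nonempty X] {B Q : Matrix X X ℝ} (hB : B.PosSemidef) (hQ : Qᵀ = Q)
    (hQQ : Q * Q = Q) (hc : B * Q = Q * B) : ∃ w : ℝ, 0 ≤ w ∧
      (w = 0 ∨ ∃ v : X → ℝ, v ≠ 0 ∧ Q *ᵥ v = v ∧ B *ᵥ v = w • v) ∧
      (B ^ 1600 * Q).trace ≤ w ^ 1536 * (B ^ 64 * Q).trace := by
  have hBt : Bᵀ = B := by simpa [IsHermitian] using hB.1
  have hM : (B * Q)ᵀ = B * Q := by rw [transpose_mul, hQ, hBt, hc]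
  have hpow : ∀ s : ℕ, (B * Q) ^ (s + 1) = B ^ (s + 1) * Q := by
    intro s
    have hcm : Commute B Q := hc
    rw [hcm.mul_pow, (show IsIdempotentElem Q from hQQ).pow_succ_eq]
  obtain ⟨ev, htr, hev⟩ := eig hM
  have hvec : ∀ i, ev i ≠ 0 → ∃ v : X → ℝ, v ≠ 0 ∧ Q *ᵥ v = v ∧ B *ᵥ v = ev i • v := by
    intro i hi
    obtain ⟨v, hv0, hv⟩ := hev i
    have h1 : Q *ᵥ v = v := by
      have h2 : Q *ᵥ ((B * Q) *ᵥ v) = (B * Q) *ᵥ v := by
        rw [mulVec_mulVec, hc, ← Matrix.mul_assoc, hQQ]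
      rw [hv, mulVec_smul] at h2
      exact smul_right_injective _ hi h2
    refine ⟨v, hv0, h1, ?_⟩
    rw [← hv, ← mulVec_mulVec, h1]
  have hnn : ∀ i, 0 ≤ ev i := by
    intro i
    by_cases hi : ev i = 0
    · exact hi.ge
    obtain ⟨v, hv0, -, hv⟩ := hvec i hi
    have h1 := hB.dotProduct_mulVec_nonneg v
    rw [hv, dotProduct_smul, star_trivial, smul_eq_mul] at h1
    have h2 : 0 < v ⬝ᵥ v := lt_of_le_of_ne (Finset.sum_nonneg fun x _ => mul_self_nonneg _)
      (fun h => hv0 (dotProduct_self_eq_zero.1 h.symm))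
    exact nonneg_of_mul_nonneg_left h1 h2
  obtain ⟨i₀, -, hi₀⟩ := Finset.exists_max_image Finset.univ ev Finset.univ_nonempty
  refine ⟨ev i₀, hnn _, ?_, ?_⟩
  · by_cases h : ev i₀ = 0
    · exact Or.inl h
    · exact Or.inr (hvec _ h)
  · rw [← hpow 1599, ← hpow 63, htr, htr, Finset.mul_sum]
    refine Finset.sum_le_sum fun i _ => ?_
    rw [show 1599 + 1 = 1536 + (63 + 1) from rfl, pow_add]
    exact mul_le_mul_of_nonneg_right (pow_le_pow_left₀ (hnn i) (hi₀ i (Finset.mem_univ _)) _)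
      (pow_nonneg (hnn i) _)

/-- a nonzero invariant subspace of a symmetric matrix contains an eigenvector -/
theorem exists_eigenvector {C : Matrix X X ℝ} (hC : Cᵀ = C) (S : Submodule ℝ (X → ℝ))
    (hS : ∀ v ∈ S, C *ᵥ v ∈ S) {u : X → ℝ} (hu : u ∈ S) (hu0 : u ≠ 0) :
    ∃ (v : X → ℝ) (c : ℝ), v ∈ S ∧ v ≠ 0 ∧ C *ᵥ v = c • v := by
  obtain ⟨P, hP⟩ := exists_proj S
  have hc : C * P = P * C := hP.comm hS (by rw [hC]; exact hS)
  by_cases h0 : C * P = 0
  · refine ⟨u, 0, hu, hu0, ?_⟩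
    rw [← hP.fix u hu, mulVec_mulVec, h0]; simp
  · have hH : (C * P).IsHermitian := by
      simp only [IsHermitian, conjTranspose_eq_transpose_of_trivial]
      rw [transpose_mul, hP.symm, hC, hc]
    obtain ⟨v, t, ht, hv0, hv⟩ := hH.exists_eigenvector_of_ne_zero h0
    have h1 : v ∈ S := by
      have h2 : t • v ∈ S := by
        rw [← hv, hc, ← mulVec_mulVec]; exact hP.mem _
      exact (S.smul_mem_iff ht).1 h2
    refine ⟨v, t, h1, hv0, ?_⟩
    rw [← hv, ← mulVec_mulVec, hP.fix v h1]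

end Crest.Agent.R155.Level
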