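import Crest.Agent.R155.Basic

/-!
# Row 155, part E3: final numerics
-/

set_option autoImplicit false

namespace Crest.Agent.R155

open Finset Filter
open scoped BigOperators

namespace Num

theorem choose_le (n k : ℕ) (hk : 1 ≤ k) :
    (n.choose k : ℝ) ≤ Real.exp k * ((n : ℝ) / k) ^ k := by
  have hk' : (0 : ℝ) < k := by exact_mod_cast hk
  have h1 : (n.choose k : ℝ) ≤ (n : ℝ) ^ k / k.factorial := Nat.choose_le_pow_div k n
  have h2 := Real.pow_div_factorial_le_exp (k : ℝ) hk'.le k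
  have h3 : (0 : ℝ) < (k : ℝ) ^ k := by positivity
  have h4 : (0 : ℝ) < k.factorial := by exact_mod_cast k.factorial_pos
  calc (n.choose k : ℝ) ≤ (n : ℝ) ^ k / k.factorial := h1
    _ = ((k : ℝ) ^ k / k.factorial) * ((n : ℝ) / k) ^ k := by
        rw [div_pow]; field_simp
    _ ≤ _ := mul_le_mul_of_nonneg_right h2 (by positivity)

theorem two_pow_le (m k : ℕ) : ((2 : ℝ) ^ m) ^ k ≤ Real.exp (0.6932 * m * k) := by
  have h : (2 : ℝ) ≤ Real.exp 0.6932 := by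
    have := Real.log_two_lt_d9
    calc (2 : ℝ) = Real.exp (Real.log 2) := (Real.exp_log (by norm_num)).symm
      _ ≤ _ := Real.exp_le_exp.2 (by linarith)
  calc ((2 : ℝ) ^ m) ^ k = 2 ^ (m * k) := (pow_mul _ _ _).symm
    _ ≤ (Real.exp 0.6932) ^ (m * k) := pow_le_pow_left₀ (by norm_num) h _
    _ = _ := by rw [← Real.exp_nat_mul]; congr 1; push_cast; ring

theorem choose_le_exp (n k m : ℕ) (hk : 1 ≤ k) (h : n ≤ 2 ^ m * k) :
    (n.choose k : ℝ) ≤ Real.exp ((1 + 0.6932 * m) * k) := by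
  have hk' : (0 : ℝ) < k := by exact_mod_cast hk
  have h1 : (n : ℝ) / k ≤ 2 ^ m := by
    rw [div_le_iff₀ hk']
    exact_mod_cast h
  calc (n.choose k : ℝ) ≤ Real.exp k * ((n : ℝ) / k) ^ k := choose_le n k hk
    _ ≤ Real.exp k * Real.exp (0.6932 * m * k) :=
        mul_le_mul_of_nonneg_left
          ((pow_le_pow_left₀ (by positivity) h1 k).trans (two_pow_le m k)) (by positivity)
    _ = _ := by rw [← Real.exp_add]; congr 1; ring

theorem term_le {w A B : ℝ} {n k : ℕ} (hw : 0 ≤ w) (h1 : w ≤ Real.exp A)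
    (h2 : (n.choose k : ℝ) ≤ Real.exp B) :
    w ^ 1536 * ((n.choose k : ℝ) * Real.exp (19.1 * k)) ≤ Real.exp (1536 * A + B + 19.1 * k) := by
  have h3 : w ^ 1536 ≤ Real.exp (1536 * A) := by
    calc w ^ 1536 ≤ (Real.exp A) ^ 1536 := pow_le_pow_left₀ hw h1 _
      _ = _ := by rw [← Real.exp_nat_mul]; norm_num
  rw [add_assoc, Real.exp_add, Real.exp_add]
  exact mul_le_mul h3 (mul_le_mul_of_nonneg_right h2 (by positivity)) (by positivity)
    (by positivity)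

theorem case1 {w : ℝ} {n k : ℕ} (hk : 1 ≤ k) (hw : 0 ≤ w)
    (h1 : w ≤ Real.exp (0.015 * k - k / 24)) (h : n ≤ 2 ^ 28 * k) :
    w ^ 1536 * ((n.choose k : ℝ) * Real.exp (19.1 * k)) ≤ Real.exp (-1.4 * k) := by
  refine (term_le hw h1 (choose_le_exp n k 28 hk h)).trans (Real.exp_le_exp.2 ?_)
  have hk' : (0 : ℝ) ≤ k := by positivity
  push_cast
  linarith

theorem case2 {w : ℝ} {n k : ℕ} (hk : 1 ≤ k) (hw : 0 ≤ w)
    (h1 : w ≤ Real.exp (0.015 * k - 2 * k * (n - k + 1) / (24 * n))) (h : n ≤ 2 ^ 120 * k)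
    (h' : 2 ^ 28 * k ≤ n) :
    w ^ 1536 * ((n.choose k : ℝ) * Real.exp (19.1 * k)) ≤ Real.exp (-1.4 * k) := by
  refine (term_le hw h1 (choose_le_exp n k 120 hk h)).trans (Real.exp_le_exp.2 ?_)
  have hk' : (1 : ℝ) ≤ k := by exact_mod_cast hk
  have h2 : (2 : ℝ) ^ 28 * k ≤ n := by exact_mod_cast h'
  have hn : (0 : ℝ) < n := by nlinarith
  have h3 : 2 * (k : ℝ) * (0.999 : ℝ) / 24 ≤ 2 * k * (n - k + 1) / (24 * n) := by
    rw [le_div_iff₀ (by positivity)]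
    have : 0.999 * (n : ℝ) ≤ n - k + 1 := by nlinarith
    nlinarith
  push_cast
  linarith

theorem pow_small {n k : ℕ} (hk : 1 ≤ k) (h : 4 * k ≤ n) :
    ((k : ℝ) / n) ^ k ≤ 2 / n * (1 / 2) ^ k := by
  obtain ⟨j, rfl⟩ := Nat.exists_eq_add_of_le' hk
  have hn : (0 : ℝ) < n := by
    have : 0 < n := by omega
    exact_mod_cast this
  have h1 : (((j + 1 : ℕ) : ℝ) / n) ≤ 1 / 4 := by
    rw [div_le_iff₀ hn]
    have : (4 : ℝ) * ((j + 1 : ℕ) : ℝ) ≤ n := by exact_mod_cast h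
    linarith
  have h2 : ((j + 1 : ℕ) : ℝ) ≤ 2 ^ j := by
    have : j + 1 ≤ 2 ^ j := Nat.lt_two_pow_self
    exact_mod_cast this
  calc (((j + 1 : ℕ) : ℝ) / n) ^ (j + 1)
      = (((j + 1 : ℕ) : ℝ) / n) ^ j * (((j + 1 : ℕ) : ℝ) / n) := pow_succ _ _
    _ ≤ (1 / 4) ^ j * (2 ^ j / n) :=
        mul_le_mul (pow_le_pow_left₀ (by positivity) h1 j)
          (div_le_div_of_nonneg_right h2 hn.le) (by positivity) (by positivity)
    _ = 2 / n * (1 / 2) ^ (j + 1) := by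
        have : ((1 : ℝ) / 4) ^ j * 2 ^ j = (1 / 2) ^ j := by
          rw [← mul_pow]; norm_num
        rw [pow_succ, ← this]
        ring

theorem case3 {w : ℝ} {n k : ℕ} (hk : 1 ≤ k) (hw : 0 ≤ w)
    (h1 : ∀ b : ℕ, 1 ≤ b → k * b ≤ n → 2 * k < n →
      w ^ 64 ≤ Real.exp (2 ^ 54 * ((k : ℝ) * b) ^ 2 / n) * (1 / (b : ℝ)) ^ k
        * Real.exp (k * b * ((k : ℝ) / (n - 2 * k)) ^ 2)) (h : 2 ^ 120 * k ≤ n) :
    w ^ 1536 * ((n.choose k : ℝ) * Real.exp (19.1 * k)) ≤ 2 / n * (1 / 2) ^ k := by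
  set m := n / k with hm
  set b := Nat.sqrt (Nat.sqrt m) with hb
  have hm1 : 2 ^ 120 ≤ m := (Nat.le_div_iff_mul_le (by omega)).2 h
  have hb1 : 2 ^ 30 ≤ b := by
    rw [hb, Nat.le_sqrt', Nat.le_sqrt']
    norm_num at hm1 ⊢
    exact hm1
  have hb4 : b ^ 4 ≤ m := by
    have e1 : b ^ 2 ≤ Nat.sqrt m := Nat.sqrt_le' _
    have e2 : (Nat.sqrt m) ^ 2 ≤ m := Nat.sqrt_le' _
    calc b ^ 4 = (b ^ 2) ^ 2 := by ring
      _ ≤ (Nat.sqrt m) ^ 2 := Nat.pow_le_pow_left e1 2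
      _ ≤ m := e2
  have hb5 : m + 1 ≤ b ^ 5 := by
    have e1 : Nat.sqrt m + 1 ≤ (b + 1) ^ 2 := Nat.lt_succ_sqrt' _
    have e2 : m + 1 ≤ (Nat.sqrt m + 1) ^ 2 := Nat.lt_succ_sqrt' _
    calc m + 1 ≤ (Nat.sqrt m + 1) ^ 2 := e2
      _ ≤ ((b + 1) ^ 2) ^ 2 := Nat.pow_le_pow_left e1 2
      _ ≤ ((2 * b) ^ 2) ^ 2 := by gcongr; omega
      _ = 16 * b ^ 4 := by ring
      _ ≤ b * b ^ 4 := Nat.mul_le_mul_right _ (by omega)
      _ = b ^ 5 := by ring
  have hkm : k * m ≤ n := Nat.mul_div_le n k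
  have hkm' : n ≤ k * (m + 1) := (Nat.lt_mul_div_succ n (by omega)).le
  have hkb4 : k * b ^ 4 ≤ n := (Nat.mul_le_mul_left k hb4).trans hkm
  have hkb5 : n ≤ k * b ^ 5 := hkm'.trans (Nat.mul_le_mul_left k hb5)
  have hkb : k * b ≤ n :=
    (Nat.mul_le_mul_left k (Nat.le_self_pow (by norm_num) b)).trans hkb4
  have h2 := h1 b (by omega) hkb (by omega)
  have hk' : (1 : ℝ) ≤ k := by exact_mod_cast hk
  have hb' : (2 : ℝ) ^ 30 ≤ b := by exact_mod_cast hb1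
  have hb0 : (0 : ℝ) < b := lt_of_lt_of_le (by positivity) hb'
  have hn4 : (k : ℝ) * b ^ 4 ≤ n := by exact_mod_cast hkb4
  have hn5 : (n : ℝ) ≤ k * b ^ 5 := by exact_mod_cast hkb5
  have hn120 : (2 : ℝ) ^ 120 * k ≤ n := by exact_mod_cast h
  have hn : (0 : ℝ) < n := by nlinarith
  have hb2 : (2 : ℝ) ^ 60 ≤ b ^ 2 := by
    calc (2 : ℝ) ^ 60 = (2 ^ 30) ^ 2 := by norm_num
      _ ≤ _ := pow_le_pow_left₀ (by positivity) hb' 2
  have e1 : 2 ^ 54 * ((k : ℝ) * b) ^ 2 / n ≤ k / 2 := by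
    rw [div_le_iff₀ hn]
    have : 2 ^ 54 * ((k : ℝ) * b) ^ 2 ≤ k / 2 * (k * b ^ 4) := by
      have : (k : ℝ) / 2 * (k * b ^ 4) = ((k : ℝ) * b) ^ 2 * (b ^ 2 / 2) := by ring
      rw [this, mul_comm]
      exact mul_le_mul_of_nonneg_left (by linarith) (by positivity)
    exact this.trans (mul_le_mul_of_nonneg_left hn4 (by positivity))
  have e2 : k * b * ((k : ℝ) / (n - 2 * k)) ^ 2 ≤ k / 2 := by
    have hb4' : (2 : ℝ) * b + 2 ≤ b ^ 4 := by nlinarith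
    have f1 : (k : ℝ) / (n - 2 * k) ≤ 1 / (2 * b) := by
      rw [div_le_div_iff₀ (by nlinarith) (by positivity)]
      nlinarith
    have f0 : 0 ≤ (k : ℝ) / (n - 2 * k) := div_nonneg (by positivity) (by nlinarith)
    calc k * b * ((k : ℝ) / (n - 2 * k)) ^ 2 ≤ k * b * (1 / (2 * b)) ^ 2 :=
          mul_le_mul_of_nonneg_left (pow_le_pow_left₀ f0 f1 2) (by positivity)
      _ = k / 2 * (1 / (2 * b)) := by field_simp
      _ ≤ k / 2 := by
          apply mul_le_of_le_one_right (by positivity)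
          rw [div_le_one (by positivity)]
          linarith
  have h3 : w ^ 64 ≤ (Real.exp 1 / b) ^ k := by
    refine h2.trans ?_
    calc Real.exp (2 ^ 54 * ((k : ℝ) * b) ^ 2 / n) * (1 / (b : ℝ)) ^ k
          * Real.exp (k * b * ((k : ℝ) / (n - 2 * k)) ^ 2)
        ≤ Real.exp (k / 2) * (1 / (b : ℝ)) ^ k * Real.exp (k / 2) := by gcongr
      _ = (Real.exp (k / 2) * Real.exp (k / 2)) * (1 / (b : ℝ)) ^ k := by ring
      _ = (Real.exp 1 / b) ^ k := by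
          rw [← Real.exp_add, add_halves, div_pow, div_pow, ← Real.exp_nat_mul]
          simp [div_eq_mul_inv]
  have he : Real.exp 1 ≤ 3 := by have := Real.exp_one_lt_d9; linarith
  have he19 : Real.exp 19.1 ≤ 3 ^ 20 := by
    calc Real.exp 19.1 ≤ Real.exp ((20 : ℕ) * 1) := Real.exp_le_exp.2 (by norm_num)
      _ = Real.exp 1 ^ 20 := Real.exp_nat_mul _ _
      _ ≤ _ := pow_le_pow_left₀ (by positivity) he _
  have hr : (n : ℝ) / k ≤ b ^ 5 := by rw [div_le_iff₀ (by positivity)]; linarith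
  have key : (Real.exp 1 / b) ^ 24 * (Real.exp 1 * ((n : ℝ) / k) * Real.exp 19.1) ≤ k / n := by
    have g1 : (1 : ℝ) / b ^ 5 ≤ k / n := by
      rw [div_le_div_iff₀ (by positivity) hn]; linarith
    refine le_trans ?_ g1
    calc (Real.exp 1 / b) ^ 24 * (Real.exp 1 * ((n : ℝ) / k) * Real.exp 19.1)
        ≤ (3 / (b : ℝ)) ^ 24 * (3 * (b : ℝ) ^ 5 * 3 ^ 20) := by gcongr
      _ = 1 / (b : ℝ) ^ 5 * (3 ^ 45 / (b : ℝ) ^ 14) := by field_simp
      _ ≤ 1 / (b : ℝ) ^ 5 := by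
          apply mul_le_of_le_one_right (by positivity)
          rw [div_le_one (by positivity)]
          calc (3 : ℝ) ^ 45 ≤ (2 ^ 30) ^ 14 := by norm_num
            _ ≤ _ := pow_le_pow_left₀ (by positivity) hb' 14
  calc w ^ 1536 * ((n.choose k : ℝ) * Real.exp (19.1 * k))
      = (w ^ 64) ^ 24 * ((n.choose k : ℝ) * Real.exp 19.1 ^ k) := by
        rw [← pow_mul, ← Real.exp_nat_mul, mul_comm (k : ℝ)]
    _ ≤ ((Real.exp 1 / b) ^ k) ^ 24 * ((Real.exp k * ((n : ℝ) / k) ^ k) * Real.exp 19.1 ^ k) := by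
        have := choose_le n k hk
        gcongr
    _ = ((Real.exp 1 / b) ^ 24 * (Real.exp 1 * ((n : ℝ) / k) * Real.exp 19.1)) ^ k := by
        rw [mul_pow, mul_pow, mul_pow, ← pow_mul, ← pow_mul, mul_comm k 24, ← Real.exp_nat_mul 1 k,
          mul_one]
    _ ≤ ((k : ℝ) / n) ^ k := pow_le_pow_left₀ (by positivity) key k
    _ ≤ _ := pow_small hk (by omega)

theorem term_bound {D k : ℕ} {w : ℝ} (hk : 1 ≤ k) (hw : 0 ≤ w) (h : wbound D k w) :
    w ^ 1536 * (((2 ^ D).choose k : ℝ) * Real.exp (19.1 * k)) ≤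
      Real.exp (-(1.4 / 2 ^ 120) * 2 ^ D) + 2 / 2 ^ D * (1 / 2) ^ k := by
  obtain ⟨h1, h2, h3⟩ := h
  by_cases c3 : 2 ^ 120 * k ≤ 2 ^ D
  · have := case3 (n := 2 ^ D) hk hw (by simpa using h3) c3
    push_cast at this
    have := Real.exp_pos (-(1.4 / 2 ^ 120) * 2 ^ D)
    linarith
  · have c3' : 2 ^ D ≤ 2 ^ 120 * k := by omega
    have hA : w ^ 1536 * (((2 ^ D).choose k : ℝ) * Real.exp (19.1 * k)) ≤ Real.exp (-1.4 * k) := by
      by_cases c1 : 2 ^ D ≤ 2 ^ 28 * k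
      · exact case1 hk hw h1 c1
      · exact case2 hk hw (by simpa using h2) c3' (by omega)
    have hB : Real.exp (-1.4 * k) ≤ Real.exp (-(1.4 / 2 ^ 120) * 2 ^ D) := by
      apply Real.exp_le_exp.2
      have : (2 : ℝ) ^ D ≤ 2 ^ 120 * k := by exact_mod_cast c3'
      have h4 : (1.4 / 2 ^ 120 : ℝ) * 2 ^ D ≤ (1.4 / 2 ^ 120) * (2 ^ 120 * k) :=
        mul_le_mul_of_nonneg_left this (by positivity)
      have h5 : (1.4 / 2 ^ 120 : ℝ) * (2 ^ 120 * k) = 1.4 * k := by field_simp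
      linarith
    have : (0 : ℝ) ≤ 2 / 2 ^ D * (1 / 2) ^ k := by positivity
    linarith

theorem tendsto_bound : Tendsto (fun D : ℕ =>
    (2 : ℝ) ^ D * Real.exp (-(1.4 / 2 ^ 120) * 2 ^ D) + 2 / 2 ^ D * 2) atTop (nhds 0) := by
  have h2 : Tendsto (fun D : ℕ => (2 : ℝ) ^ D) atTop atTop :=
    tendsto_pow_atTop_atTop_of_one_lt (by norm_num)
  have h1 := (tendsto_rpow_mul_exp_neg_mul_atTop_nhds_zero 1 (1.4 / 2 ^ 120)
    (by positivity)).comp h2
  have h3 : Tendsto (fun D : ℕ => (2 : ℝ) / 2 ^ D * 2) atTop (nhds 0) := by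
    have := (h2.const_div_atTop 2).mul_const 2
    simpa using this
  have := h1.add h3
  simpa [Function.comp_def] using this

end Num

open Crest.Agent.R155.Num in
theorem numStmt : NumStmt := by
  intro w hw
  refine squeeze_zero (fun D => Finset.sum_nonneg fun k hk => ?_) (fun D => ?_) tendsto_bound
  · have := (hw D k (Finset.mem_Icc.1 hk).1 (Finset.mem_Icc.1 hk).2).1
    positivity
  · calc ∑ k ∈ Icc 1 (2 ^ D), w D k ^ 1536 * (((2 ^ D).choose k : ℝ) * Real.exp (19.1 * k))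
        ≤ ∑ k ∈ Icc 1 (2 ^ D),
            (Real.exp (-(1.4 / 2 ^ 120) * 2 ^ D) + 2 / 2 ^ D * (1 / 2 : ℝ) ^ k) := by
          refine Finset.sum_le_sum fun k hk => ?_
          have h := hw D k (Finset.mem_Icc.1 hk).1 (Finset.mem_Icc.1 hk).2
          exact term_bound (Finset.mem_Icc.1 hk).1 h.1 h.2
      _ ≤ _ := by
          rw [Finset.sum_add_distrib, Finset.sum_const, ← Finset.mul_sum]
          apply add_le_add
          · simp
          · refine mul_le_mul_of_nonneg_left ?_ (by positivity)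
            exact (summable_geometric_two.sum_le_tsum _ (fun _ _ => by positivity)).trans
              tsum_geometric_two.le

end Crest.Agent.R155
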