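import Crest.Agent.R155.Basic

/-! Row 155, part B2: the operators `R u v`, parity sectors. -/

set_option autoImplicit false

namespace Crest.Agent.R155.PW

open Finset Matrix
open scoped BigOperators symmDiff

variable {D j : ℕ} (t : Fin D)

/-- the node of level `t + 1` -/
def node (u : Pos D) : Pos D := fun s => if s ≤ t then false else u s

lemma node_eq_iff (x y : Pos D) : node t x = node t y ↔ sameHi (t.val + 1) x y := by
  constructor
  · intro h s hs
    have := congrFun h s
    have hs' : ¬ s ≤ t := by rw [Fin.le_def]; omega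
    simpa [node, hs'] using this
  · intro h
    funext s
    by_cases hs : s ≤ t
    · simp [node, hs]
    · rw [Fin.le_def] at hs
      simp only [node, Fin.le_def, hs, if_false]
      exact h s (by omega)

lemma sameHi_iff (x y : Pos D) : sameHi t.val x y ↔ node t x = node t y ∧ x t = y t := by
  rw [node_eq_iff]
  constructor
  · exact fun h => ⟨fun s hs => h s (by omega), h t le_rfl⟩
  · rintro ⟨h1, h2⟩ s hs
    rcases hs.eq_or_lt with h | h
    · rw [← Fin.ext h]; exact h2
    · exact h1 s h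

lemma node_sw (c : Pos D → Bool) (x : Pos D) : node t (sw t c x) = node t x := by
  funext s
  by_cases hs : s ≤ t
  · simp [node, hs]
  · simp only [node, hs, if_false]
    exact sw_apply_ne _ _ _ (fun h => hs h.le)

lemma node_flp (x : Pos D) : node t (flp t x) = node t x := node_sw t _ x

lemma node_zer (x : Pos D) : node t (zer t x) = node t x := by
  funext s
  by_cases hs : s ≤ t
  · simp [node, hs]
  · simp only [node, hs, if_false]
    exact zer_apply_ne _ _ (fun h => hs h.le)

/-- the switches of layer `t` -/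
def II : Finset (Pos D) := univ.filter fun u => u t = false

lemma mem_II {u : Pos D} : u ∈ II t ↔ u t = false := by simp [II]

lemma zer_of_mem {u : Pos D} (h : u ∈ II t) : zer t u = u := by
  rw [zer, ← (mem_II t).1 h, Function.update_eq_self]

lemma sum_split (g : Pos D → ℝ) : ∑ x, g x = ∑ u ∈ II t, (g u + g (flp t u)) := by
  rw [sum_add_distrib, ← sum_filter_add_sum_filter_not univ (fun u : Pos D => u t = false)]
  congr 1
  symm
  refine sum_bij' (fun u _ => flp t u) (fun u _ => flp t u) ?_ ?_ ?_ ?_ ?_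
  · intro u hu; simp [flp_apply_self, (mem_II t).1 hu]
  · intro u hu; rw [mem_II, flp_apply_self]; simpa using hu
  · intro u _; exact flp_flp t u
  · intro u _; exact flp_flp t u
  · intro u _; rfl

/-- the switches in a node -/
def Iw (w : Pos D) : Finset (Pos D) := (II t).filter fun u => node t u = w

lemma card_Iw (w : Pos D) : (Iw t w).card ≤ 2 ^ t.val := by
  have : 2 ^ t.val = (univ : Finset (Fin t.val → Bool)).card := by simp
  rw [this]
  refine card_le_card_of_injOn (fun u s => u (Fin.castLE t.isLt.le s)) (fun _ _ => by simp) ?_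
  intro u hu v hv h
  have hu' := mem_filter.1 (mem_coe.1 hu)
  have hv' := mem_filter.1 (mem_coe.1 hv)
  funext s
  rcases lt_trichotomy s t with hs | hs | hs
  · exact congrFun h ⟨s.val, hs⟩
  · rw [hs, (mem_II t).1 hu'.1, (mem_II t).1 hv'.1]
  · exact (node_eq_iff t u v).1 (hu'.2.trans hv'.2.symm) s hs

/-- translation of functions -/
def A (g : Grp D) (F : Tup j D → ℝ) : Tup j D → ℝ := fun x => F (g • x)

/-- the operator `R u v` -/
def R (u v : Pos D) (F : Tup j D → ℝ) : Tup j D → ℝ :=
  A (Equiv.swap u v) F + A (Equiv.swap (flp t u) (flp t v)) F - A (Equiv.swap u (flp t v)) F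
    - A (Equiv.swap (flp t u) v) F

lemma Ci_mulVec (i : ℕ) (F : Tup j D → ℝ) (z : Tup j D) :
    (Ci D (Tup j D) i *ᵥ F) z =
      ∑ x : Pos D, ∑ y : Pos D, if sameHi i x y then F z - F (Equiv.swap x y • z) else 0 := by
  simp only [Ci, Matrix.sum_mulVec, Finset.sum_apply]
  refine sum_congr rfl fun x _ => sum_congr rfl fun y _ => ?_
  split_ifs
  · simp [Matrix.sub_mulVec, pm_mulVec]
  · simp

lemma Wm_mulVec (F : Tup j D → ℝ) : Wm D (Tup j D) t *ᵥ F =
    ∑ w, ∑ u ∈ Iw t w, ∑ v ∈ Iw t w, (1 / 2 : ℝ) • R t u v F := by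
  funext z
  have h1 : ∑ w, ∑ u ∈ Iw t w, ∑ v ∈ Iw t w, (1 / 2 : ℝ) * R t u v F z =
      ∑ u ∈ II t, ∑ v ∈ II t, if node t u = node t v then (1 / 2 : ℝ) * R t u v F z else 0 := by
    rw [← sum_fiberwise (II t) (node t)]
    refine sum_congr rfl fun w _ => sum_congr rfl fun u hu => ?_
    rw [← sum_filter]
    refine sum_congr ?_ fun _ _ => rfl
    ext v
    simp only [Iw, mem_filter, (mem_filter.1 hu).2, eq_comm]
  simp only [Finset.sum_apply, Pi.smul_apply, smul_eq_mul]
  rw [h1, Wm, Matrix.sub_mulVec, Matrix.smul_mulVec, Pi.sub_apply, Pi.smul_apply, Ci_mulVec,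
    Ci_mulVec, smul_eq_mul, sum_split t, sum_split t (fun x => ∑ y, if sameHi t.val x y then _ else _),
    mul_sum, ← sum_sub_distrib]
  refine sum_congr rfl fun u hu => ?_
  rw [sum_split t, sum_split t (fun y => if sameHi (t.val + 1) (flp t u) y then _ else _),
    sum_split t (fun y => if sameHi t.val u y then _ else _),
    sum_split t (fun y => if sameHi t.val (flp t u) y then _ else _), ← sum_add_distrib,
    ← sum_add_distrib, mul_sum, ← sum_sub_distrib]
  refine sum_congr rfl fun v hv => ?_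
  have hu' := (mem_II t).1 hu
  have hv' := (mem_II t).1 hv
  simp only [← node_eq_iff, sameHi_iff, node_flp, flp_apply_self, hu', hv']
  by_cases h : node t u = node t v
  · simp only [h, if_true, R, A, Pi.add_apply, Pi.sub_apply]
    simp
    ring
  · simp [h]

/-- the single switch `w` -/
def sig (w : Pos D) : Grp D := sw t (fun p => decide (p = w))

lemma sig_apply {u : Pos D} (hu : u ∈ II t) (w : Pos D) :
    sig t w u = if u = w then flp t u else u := by
  simp [sig, sw_eq_or, zer_of_mem t hu]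

lemma sig_apply_flp {u : Pos D} (hu : u ∈ II t) (w : Pos D) :
    sig t w (flp t u) = if u = w then u else flp t u := by
  simp [sig, sw_eq_or, zer_flp, zer_of_mem t hu, flp_flp]

lemma A_sig_swap (w a b : Pos D) (F : Tup j D → ℝ) :
    A (sig t w) (A (Equiv.swap a b) F) = A (Equiv.swap (sig t w a) (sig t w b)) (A (sig t w) F) := by
  funext x
  simp only [A, ← mul_smul]
  congr 2
  rw [Equiv.mul_swap_eq_swap_mul]
  simp only [sig, sw_sw]

/-- the sign of a switch -/
def sgn (O : Finset (Pos D)) (u : Pos D) : ℝ := if u ∈ O then -1 else 1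

/-- parity sector -/
def Sec (O : Finset (Pos D)) (F : Tup j D → ℝ) : Prop :=
  ∀ w ∈ II t, A (sig t w) F = sgn O w • F

lemma A_add (g : Grp D) (F G : Tup j D → ℝ) : A g (F + G) = A g F + A g G := rfl
lemma A_sub (g : Grp D) (F G : Tup j D → ℝ) : A g (F - G) = A g F - A g G := rfl
lemma A_smul (g : Grp D) (c : ℝ) (F : Tup j D → ℝ) : A g (c • F) = c • A g F := rfl

lemma Sec.smul {O : Finset (Pos D)} {F : Tup j D → ℝ} (h : Sec t O F) (c : ℝ) : Sec t O (c • F) :=
  fun w hw => by rw [A_smul, h w hw, smul_comm]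

lemma R_self {u : Pos D} (hu : u ∈ II t) {O : Finset (Pos D)} {F : Tup j D → ℝ} (h : Sec t O F) :
    R t u u F = (if u ∈ O then 4 else 0 : ℝ) • F := by
  have h1 : Equiv.swap u (flp t u) = sig t u := by rw [swap_flp_eq_sw, zer_of_mem t hu, sig]
  have h2 : A (Equiv.refl _) F = F := by funext x; exact congrArg F (one_smul _ x)
  rw [R, Equiv.swap_comm (flp t u) u, h1, Equiv.swap_self, Equiv.swap_self, h2, h u hu, sgn]
  split_ifs <;> module

lemma Sec.R {u v : Pos D} (hu : u ∈ II t) (hv : v ∈ II t) (huv : u ≠ v) {O : Finset (Pos D)}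
    {F : Tup j D → ℝ} (h : Sec t O F) : Sec t (O ∆ {u, v}) (R t u v F) := by
  intro w hw
  simp only [PW.R, A_add, A_sub, A_sig_swap, h w hw, A_smul, sig_apply t hu, sig_apply t hv,
    sig_apply_flp t hu, sig_apply_flp t hv]
  by_cases h1 : u = w
  · subst h1
    have : sgn (O ∆ {u, v}) u = - sgn O u := by
      by_cases hO : u ∈ O <;> simp [sgn, mem_symmDiff, hO]
    simp only [if_true, if_neg huv.symm, this]
    module
  · by_cases h2 : v = w
    · subst h2
      have : sgn (O ∆ {u, v}) v = - sgn O v := by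
        by_cases hO : v ∈ O <;> simp [sgn, mem_symmDiff, hO]
      simp only [if_true, if_neg h1, this]
      module
    · have : sgn (O ∆ {u, v}) w = sgn O w := by
        by_cases hO : w ∈ O <;> simp [sgn, mem_symmDiff, hO, Ne.symm h1, Ne.symm h2]
      simp only [if_neg h1, if_neg h2, this]
      module

/-- the `ℓ¹` norm -/
noncomputable def l1 (F : Tup j D → ℝ) : ℝ := ∑ x, |F x|

lemma l1_nonneg (F : Tup j D → ℝ) : 0 ≤ l1 F := sum_nonneg fun _ _ => abs_nonneg _

lemma l1_smul (c : ℝ) (F : Tup j D → ℝ) : l1 (c • F) = |c| * l1 F := by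
  simp [l1, abs_mul, mul_sum]

lemma l1_sum_le {ι : Type*} (s : Finset ι) (F : ι → Tup j D → ℝ) :
    l1 (∑ i ∈ s, F i) ≤ ∑ i ∈ s, l1 (F i) := by
  unfold l1
  rw [sum_comm]
  exact sum_le_sum fun x _ => by rw [Finset.sum_apply]; exact abs_sum_le_sum_abs _ _

/-- `x` has a card on the switch `u` or on the switch `v` -/
def touch (u v : Pos D) (x : Tup j D) : Prop := ∃ a, zer t (x a) = u ∨ zer t (x a) = v

instance (u v : Pos D) (x : Tup j D) : Decidable (touch t u v x) := by
  unfold touch; infer_instance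

lemma touch_swap {u v a b : Pos D} (ha : zer t a = u ∨ zer t a = v)
    (hb : zer t b = u ∨ zer t b = v) (x : Tup j D) :
    touch t u v (Equiv.swap a b • x) ↔ touch t u v x := by
  refine exists_congr fun c => ?_
  rw [tup_smul_apply, Equiv.swap_apply_def]
  split_ifs with h1 h2
  · rw [h1]; exact iff_of_true hb ha
  · rw [h2]; exact iff_of_true ha hb
  · rfl

lemma swap_smul_of_not_touch {u v a b : Pos D} (ha : zer t a = u ∨ zer t a = v)
    (hb : zer t b = u ∨ zer t b = v) {x : Tup j D} (hx : ¬ touch t u v x) :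
    Equiv.swap a b • x = x := by
  ext1 c
  rw [tup_smul_apply]
  apply Equiv.swap_apply_of_ne_of_ne
  · rintro h; exact hx ⟨c, h ▸ ha⟩
  · rintro h; exact hx ⟨c, h ▸ hb⟩

lemma sum_touch_swap {u v a b : Pos D} (ha : zer t a = u ∨ zer t a = v)
    (hb : zer t b = u ∨ zer t b = v) (F : Tup j D → ℝ) :
    ∑ x, (if touch t u v x then |F (Equiv.swap a b • x)| else 0) =
      ∑ x, if touch t u v x then |F x| else 0 :=
  Fintype.sum_equiv (MulAction.toPerm (Equiv.swap a b)) _ _ fun x => by
    simp only [MulAction.toPerm_apply, touch_swap t ha hb]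

lemma l1_R_le {u v : Pos D} (hu : u ∈ II t) (hv : v ∈ II t) (F : Tup j D → ℝ) :
    l1 (R t u v F) ≤ 4 * ∑ x, if touch t u v x then |F x| else 0 := by
  have a1 : zer t u = u ∨ zer t u = v := Or.inl (zer_of_mem t hu)
  have a2 : zer t v = u ∨ zer t v = v := Or.inr (zer_of_mem t hv)
  have a3 : zer t (flp t u) = u ∨ zer t (flp t u) = v := by rwa [zer_flp]
  have a4 : zer t (flp t v) = u ∨ zer t (flp t v) = v := by rwa [zer_flp]
  have : 4 * ∑ x, (if touch t u v x then |F x| else 0) =
      ∑ x, ((if touch t u v x then |F (Equiv.swap u v • x)| else 0) +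
        (if touch t u v x then |F (Equiv.swap (flp t u) (flp t v) • x)| else 0) +
        (if touch t u v x then |F (Equiv.swap u (flp t v) • x)| else 0) +
        (if touch t u v x then |F (Equiv.swap (flp t u) v • x)| else 0)) := by
    simp only [sum_add_distrib, sum_touch_swap t a1 a2, sum_touch_swap t a3 a4,
      sum_touch_swap t a1 a4, sum_touch_swap t a3 a2]
    ring
  rw [this]
  refine sum_le_sum fun x _ => ?_
  simp only [R, A, Pi.add_apply, Pi.sub_apply]
  split_ifs with h
  · refine (abs_sub _ _).trans (add_le_add ((abs_sub _ _).trans (add_le_add (abs_add_le _ _)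
      le_rfl)) le_rfl)
  · simp [swap_smul_of_not_touch t a1 a2 h, swap_smul_of_not_touch t a3 a4 h,
      swap_smul_of_not_touch t a1 a4 h, swap_smul_of_not_touch t a3 a2 h]

lemma l1_R_le' {u v : Pos D} (hu : u ∈ II t) (hv : v ∈ II t) (F : Tup j D → ℝ) :
    l1 (R t u v F) ≤ 4 * l1 F := by
  refine (l1_R_le t hu hv F).trans (mul_le_mul_of_nonneg_left (sum_le_sum fun x _ => ?_)
    (by norm_num))
  split_ifs
  · exact le_rfl
  · exact abs_nonneg _

/-- supported on tuples in the same nodes as `x₀` -/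
def Supp (x₀ : Tup j D) (F : Tup j D → ℝ) : Prop :=
  ∀ x, F x ≠ 0 → ∀ a, node t (x a) = node t (x₀ a)

lemma Supp.A_swap {x₀ : Tup j D} {F : Tup j D → ℝ} (h : Supp t x₀ F) {a b : Pos D}
    (hab : node t a = node t b) : Supp t x₀ (A (Equiv.swap a b) F) := by
  intro x hx c
  rw [← h _ hx c, tup_smul_apply, Equiv.swap_apply_def]
  split_ifs with h1 h2
  · rw [h1, hab]
  · rw [h2, hab]
  · rfl

lemma Supp.R {x₀ : Tup j D} {F : Tup j D → ℝ} (h : Supp t x₀ F) {u v : Pos D}
    (huv : node t u = node t v) : Supp t x₀ (R t u v F) := by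
  intro x hx
  by_contra hc
  apply hx
  have key : ∀ a b, node t a = node t b → A (Equiv.swap a b) F x = 0 := fun a b hab => by
    by_contra h1
    exact hc (h.A_swap t hab x h1)
  simp only [PW.R, Pi.add_apply, Pi.sub_apply]
  rw [key _ _ huv, key _ _ (by rw [node_flp, node_flp, huv]), key _ _ (by rw [node_flp, huv]),
    key _ _ (by rw [node_flp, huv])]
  ring

lemma l1_Pm_le (F : Tup j D → ℝ) : l1 (Pm D (Tup j D) t *ᵥ F) ≤ l1 F := by
  unfold l1
  rw [Pm_mulVec]
  calc ∑ x : Tup j D, |𝔼 c : Pos D → Bool, F (sw t c • x)|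
      ≤ ∑ x : Tup j D, 𝔼 c : Pos D → Bool, |F (sw t c • x)| :=
        sum_le_sum fun x _ => Finset.abs_expect_le _ _
    _ = 𝔼 c : Pos D → Bool, ∑ x : Tup j D, |F (sw t c • x)| := (expect_sum_comm _ _ _).symm
    _ = 𝔼 _c : Pos D → Bool, ∑ x : Tup j D, |F x| := by
        refine expect_congr rfl fun c _ => ?_
        exact Fintype.sum_equiv (MulAction.toPerm (sw t c)) _ _ fun x => rfl
    _ = _ := by simp

lemma Pm_eq_zero {O : Finset (Pos D)} (hO : O ⊆ II t) (hne : O.Nonempty) {F : Tup j D → ℝ}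
    (h : Sec t O F) : Pm D (Tup j D) t *ᵥ F = 0 := by
  obtain ⟨u, hu⟩ := hne
  have h1 : Pm D (Tup j D) t *ᵥ A (sig t u) F = Pm D (Tup j D) t *ᵥ F := by
    have : A (sig t u) F = pm D (Tup j D) (sig t u) *ᵥ F := (pm_mulVec _ _ _ _).symm
    rw [this, mulVec_mulVec, sig, Pm_mul_pm_sw]
  rw [h u (hO hu), sgn, if_pos hu, mulVec_smul] at h1
  funext x
  have := congrFun h1 x
  simp only [Pi.smul_apply, smul_eq_mul] at this
  simp only [Pi.zero_apply]
  linarith

end Crest.Agent.R155.PW
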