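import Crest.Agent.R155.PW1

/-! Row 155, part B2: the one-step `ℓ¹` bound. -/

set_option autoImplicit false

namespace Crest.Agent.R155.PW

open Finset Matrix
open scoped BigOperators symmDiff

lemma count_ne {α : Type*} [DecidableEq α] (s s' : Finset α) (h : s' ⊆ s) :
    ∑ u ∈ s', ∑ v ∈ s, (if u ≠ v then 1 else 0 : ℕ) = s'.card * (s.card - 1) := by
  rw [← smul_eq_mul, ← sum_const]
  refine sum_congr rfl fun u hu => ?_
  rw [← card_filter, ← card_erase_of_mem (h hu)]
  congr 1
  ext v; simp [and_comm, eq_comm]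

lemma count_left {α : Type*} [DecidableEq α] (s : Finset α) (p : α → Prop) [DecidablePred p] :
    ∑ u ∈ s, ∑ v ∈ s, (if u ≠ v ∧ p u then 1 else 0 : ℕ) = (s.filter p).card * (s.card - 1) := by
  rw [← count_ne s _ (filter_subset p s), sum_filter]
  refine sum_congr rfl fun u _ => ?_
  by_cases h : p u <;> simp [h]

lemma count_both {α : Type*} [DecidableEq α] (s : Finset α) (p : α → Prop) [DecidablePred p] :
    ∑ u ∈ s, ∑ v ∈ s, (if u ≠ v ∧ p u ∧ p v then 1 else 0 : ℕ) =
      (s.filter p).card * ((s.filter p).card - 1) := by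
  rw [← count_ne _ _ (subset_refl _), sum_filter]
  refine sum_congr rfl fun u _ => ?_
  by_cases h : p u
  · rw [if_pos h, sum_filter]
    refine sum_congr rfl fun v _ => ?_
    by_cases h' : p v <;> simp [h, h']
  · simp [h]

variable {D j : ℕ} (t : Fin D)

/-- number of cards in a node -/
def jw (x₀ : Tup j D) (w : Pos D) : ℕ := (univ.filter fun a => node t (x₀ a) = w).card

/-- number of odd switches in a node -/
def cnt (O : Finset (Pos D)) (w : Pos D) : ℕ := (O.filter fun u => node t u = w).card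

lemma sum_jw (x₀ : Tup j D) : ∑ w, jw t x₀ w = j := by
  unfold jw
  rw [← card_eq_sum_card_fiberwise (fun _ _ => mem_coe.2 (mem_univ _))]
  simp

lemma cnt_eq {O : Finset (Pos D)} (hO : O ⊆ II t) (w : Pos D) :
    cnt t O w = ((Iw t w).filter (· ∈ O)).card := by
  unfold cnt
  congr 1
  ext u
  simp only [Iw, mem_filter]
  exact ⟨fun h => ⟨⟨hO h.1, h.2⟩, h.1⟩, fun h => ⟨h.2, h.1.2⟩⟩

lemma count_touch {x₀ x : Tup j D} (hx : ∀ a, node t (x a) = node t (x₀ a)) (w : Pos D) :
    ∑ u ∈ Iw t w, ∑ v ∈ Iw t w, (if u ≠ v ∧ touch t u v x then 1 else 0 : ℕ) ≤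
      min (2 * jw t x₀ w * (2 ^ t.val - 1)) (2 ^ t.val * (2 ^ t.val - 1)) := by
  have hc := card_Iw t w
  refine le_min ?_ ?_
  · set p : Pos D → Prop := fun u => ∃ a, zer t (x a) = u with hp
    have hU : ((Iw t w).filter p).card ≤ jw t x₀ w := by
      refine le_trans (card_le_card ?_) (card_image_le (f := fun a => zer t (x a)))
      intro u hu
      obtain ⟨hu1, a, ha⟩ := mem_filter.1 hu
      refine mem_image.2 ⟨a, mem_filter.2 ⟨mem_univ _, ?_⟩, ha⟩
      rw [← hx a, ← node_zer, ha]; exact (mem_filter.1 hu1).2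
    calc _ ≤ ∑ u ∈ Iw t w, ∑ v ∈ Iw t w, ((if u ≠ v ∧ p u then 1 else 0 : ℕ) +
            (if v ≠ u ∧ p v then 1 else 0 : ℕ)) := by
          refine sum_le_sum fun u _ => sum_le_sum fun v _ => ?_
          by_cases h : u ≠ v ∧ touch t u v x
          · rw [if_pos h]
            obtain ⟨h1, a, ha | ha⟩ := h
            · rw [if_pos ⟨h1, a, ha⟩]; omega
            · rw [if_pos (⟨h1.symm, a, ha⟩ : v ≠ u ∧ p v)]; omega
          · rw [if_neg h]; omega
      _ = 2 * (((Iw t w).filter p).card * ((Iw t w).card - 1)) := by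
          simp only [sum_add_distrib]
          rw [sum_comm (f := fun u v => (if v ≠ u ∧ p v then 1 else 0 : ℕ)), count_left]
          ring
      _ ≤ _ := by
          rw [mul_assoc]
          exact Nat.mul_le_mul_left _ (Nat.mul_le_mul hU (by omega))
  · calc _ ≤ ∑ u ∈ Iw t w, ∑ v ∈ Iw t w, (if u ≠ v then 1 else 0 : ℕ) := by
          refine sum_le_sum fun u _ => sum_le_sum fun v _ => ?_
          by_cases h : u ≠ v
          · rw [if_pos h]; split_ifs <;> omega
          · rw [if_neg (fun h' => h h'.1)]; omega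
      _ = _ := count_ne _ _ (subset_refl _)
      _ ≤ _ := Nat.mul_le_mul hc (by omega)

lemma cnt_insert {O : Finset (Pos D)} {u : Pos D} (hu : u ∉ O) :
    cnt t (insert u O) = Function.update (cnt t O) (node t u) (cnt t O (node t u) + 1) := by
  funext w
  by_cases h : w = node t u
  · subst h
    rw [Function.update_self, cnt, filter_insert, if_pos rfl,
      card_insert_of_notMem (fun h => hu (mem_filter.1 h).1), cnt]
  · rw [Function.update_of_ne h, cnt, filter_insert, if_neg (Ne.symm h), cnt]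

lemma cnt_erase {O : Finset (Pos D)} {u : Pos D} (hu : u ∈ O) :
    cnt t (O.erase u) = Function.update (cnt t O) (node t u) (cnt t O (node t u) - 1) := by
  have h := cnt_insert t (notMem_erase u O)
  rw [insert_erase hu] at h
  rw [h]
  simp

lemma cnt_both {O : Finset (Pos D)} {u v w : Pos D} (hu : u ∈ O) (hv : v ∈ O) (huv : u ≠ v)
    (h1 : node t u = w) (h2 : node t v = w) :
    cnt t (O ∆ {u, v}) = Function.update (cnt t O) w (cnt t O w - 2) := by
  have : O ∆ {u, v} = (O.erase u).erase v := by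
    ext z; simp only [mem_symmDiff, mem_insert, mem_singleton, mem_erase]
    constructor
    · rintro (h | h)
      · tauto
      · rcases h.1 with rfl | rfl <;> tauto
    · tauto
  rw [this, cnt_erase t (mem_erase.2 ⟨huv.symm, hv⟩), cnt_erase t hu, h1, h2]
  simp [Nat.sub_sub]

lemma cnt_none {O : Finset (Pos D)} {u v w : Pos D} (hu : u ∉ O) (hv : v ∉ O) (huv : u ≠ v)
    (h1 : node t u = w) (h2 : node t v = w) :
    cnt t (O ∆ {u, v}) = Function.update (cnt t O) w (cnt t O w + 2) := by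
  have : O ∆ {u, v} = insert u (insert v O) := by
    ext z; simp only [mem_symmDiff, mem_insert, mem_singleton]
    constructor
    · tauto
    · rintro (rfl | rfl | h)
      · tauto
      · tauto
      · left; refine ⟨h, ?_⟩; rintro (rfl | rfl) <;> contradiction
  rw [this, cnt_insert t (by simp [huv, hu]), cnt_insert t hv, h1, h2]
  simp [add_assoc]

lemma cnt_one {O : Finset (Pos D)} {u v : Pos D} (hu : u ∈ O) (hv : v ∉ O)
    (h : node t u = node t v) : cnt t (O ∆ {u, v}) = cnt t O := by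
  have : O ∆ {u, v} = insert v (O.erase u) := by
    ext z; simp only [mem_symmDiff, mem_insert, mem_singleton, mem_erase]
    constructor
    · rintro (h | h)
      · tauto
      · rcases h.1 with rfl | rfl <;> tauto
    · rintro (rfl | h')
      · tauto
      · left; refine ⟨h'.2, ?_⟩; rintro (rfl | rfl)
        · exact h'.1 rfl
        · exact hv h'.2
  have hpos : 0 < cnt t O (node t u) := card_pos.2 ⟨u, mem_filter.2 ⟨hu, rfl⟩⟩
  rw [this, cnt_insert t (fun h => hv (mem_of_mem_erase h)), cnt_erase t hu, ← h]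
  simp [Nat.sub_add_cancel hpos]

lemma symmDiff_subset {O : Finset (Pos D)} (hO : O ⊆ II t) {u v : Pos D} (hu : u ∈ II t)
    (hv : v ∈ II t) : O ∆ {u, v} ⊆ II t := by
  intro z hz
  rcases mem_symmDiff.1 hz with h | h
  · exact hO h.1
  · rcases mem_insert.1 h.1 with rfl | h'
    · exact hu
    · rw [mem_singleton.1 h']; exact hv

/-- `M` is dominated by `φ` on the sectors -/
def Dom (x₀ : Tup j D) (M : Matrix (Tup j D) (Tup j D) ℝ) (φ : (Pos D → ℕ) → ℝ) : Prop :=
  ∀ O ⊆ II t, ∀ F, Sec t O F → Supp t x₀ F → l1 (M *ᵥ F) ≤ φ (cnt t O) * l1 F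

lemma pair_le {x₀ : Tup j D} {M : Matrix (Tup j D) (Tup j D) ℝ} {φ : (Pos D → ℕ) → ℝ}
    (hφ : ∀ o, 0 ≤ φ o) (hM : Dom t x₀ M φ) {O : Finset (Pos D)} (hO : O ⊆ II t)
    {F : Tup j D → ℝ} (hF : Sec t O F) (hS : Supp t x₀ F) {w u v : Pos D} (hu : u ∈ Iw t w)
    (hv : v ∈ Iw t w) :
    l1 (M *ᵥ R t u v F) ≤
      4 * l1 F * φ (cnt t O) * (((if u ∈ O then 1 else 0 : ℕ) : ℝ) + ((if v ∈ O then 1 else 0 : ℕ) : ℝ))
      + 4 * l1 F * φ (Function.update (cnt t O) w (cnt t O w - 2)) *
        ((if u ≠ v ∧ u ∈ O ∧ v ∈ O then 1 else 0 : ℕ) : ℝ)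
      + 4 * φ (Function.update (cnt t O) w (cnt t O w + 2)) *
        ∑ x, |F x| * ((if u ≠ v ∧ touch t u v x then 1 else 0 : ℕ) : ℝ) := by
  obtain ⟨hu, hu'⟩ := mem_filter.1 hu
  obtain ⟨hv, hv'⟩ := mem_filter.1 hv
  have hL := l1_nonneg F
  have h0 := hφ (cnt t O)
  have h1 := hφ (Function.update (cnt t O) w (cnt t O w - 2))
  have h2 := hφ (Function.update (cnt t O) w (cnt t O w + 2))
  have hT : 0 ≤ ∑ x, |F x| * ((if u ≠ v ∧ touch t u v x then 1 else 0 : ℕ) : ℝ) :=
    sum_nonneg fun _ _ => by positivity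
  have p0 := mul_nonneg hL h0
  have p1 := mul_nonneg hL h1
  have p2 := mul_nonneg h2 hT
  by_cases huv : u = v
  · subst huv
    have := hM O hO F hF hS
    rw [R_self t hu hF, mulVec_smul, l1_smul]
    by_cases h : u ∈ O
    · simp only [h, if_true, ne_eq, not_true, false_and, if_false] at p2 ⊢
      rw [abs_of_nonneg (by norm_num)]
      push_cast at p2 ⊢
      nlinarith
    · simp [h]
  · have key := hM _ (symmDiff_subset t hO hu hv) _ (hF.R t hu hv huv) (hS.R t (hu'.trans hv'.symm))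
    have hR := l1_R_le' t hu hv F
    by_cases a : u ∈ O <;> by_cases b : v ∈ O
    · rw [cnt_both t a b huv hu' hv'] at key
      have := mul_le_mul_of_nonneg_left hR h1
      simp only [a, b, if_true, ne_eq, huv, not_false_eq_true, and_self] at p2 ⊢
      push_cast at p2 ⊢
      nlinarith
    · rw [cnt_one t a b (hu'.trans hv'.symm)] at key
      have := mul_le_mul_of_nonneg_left hR h0
      simp only [a, b, if_true, if_false, and_false] at p2 ⊢
      push_cast at p2 ⊢
      nlinarith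
    · rw [pair_comm, cnt_one t b a (hv'.trans hu'.symm)] at key
      have := mul_le_mul_of_nonneg_left hR h0
      simp only [a, b, if_true, if_false, and_false, false_and] at p2 ⊢
      push_cast at p2 ⊢
      nlinarith
    · rw [cnt_none t a b huv hu' hv'] at key
      have hR' := l1_R_le t hu hv F
      have e : ∑ x, |F x| * ((if u ≠ v ∧ touch t u v x then 1 else 0 : ℕ) : ℝ) =
          ∑ x, if touch t u v x then |F x| else 0 := by
        refine sum_congr rfl fun x _ => ?_
        by_cases h : touch t u v x <;> simp [h, huv]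
      have := mul_le_mul_of_nonneg_left hR' h2
      rw [e]
      simp only [a, b, if_false, and_false]
      push_cast
      nlinarith

lemma Dom.step {x₀ : Tup j D} {M : Matrix (Tup j D) (Tup j D) ℝ} {φ : (Pos D → ℕ) → ℝ}
    (hφ : ∀ o, 0 ≤ φ o) (hM : Dom t x₀ M φ) :
    Dom t x₀ (M * Wm D (Tup j D) t) (That (2 ^ t.val) (jw t x₀) φ) := by
  intro O hO F hF hS
  rw [← mulVec_mulVec, Wm_mulVec, That, sum_mul]
  simp only [mulVec_sum, mulVec_smul]
  refine (l1_sum_le _ _).trans (sum_le_sum fun w _ => ?_)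
  have hL := l1_nonneg F
  have h0 := hφ (cnt t O)
  have h1 := hφ (Function.update (cnt t O) w (cnt t O w - 2))
  have h2 := hφ (Function.update (cnt t O) w (cnt t O w + 2))
  have e1 : ∑ u ∈ Iw t w, ∑ v ∈ Iw t w,
      (((if u ∈ O then 1 else 0 : ℕ) : ℝ) + ((if v ∈ O then 1 else 0 : ℕ) : ℝ)) ≤
      2 * (2 ^ t.val : ℕ) * cnt t O w := by
    have : ∑ u ∈ Iw t w, ∑ v ∈ Iw t w, ((if u ∈ O then 1 else 0 : ℕ) + (if v ∈ O then 1 else 0 : ℕ))
        ≤ 2 * 2 ^ t.val * cnt t O w := by
      simp only [sum_add_distrib]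
      rw [sum_comm (f := fun _ v => (if v ∈ O then 1 else 0 : ℕ))]
      simp only [sum_const, smul_eq_mul, ← mul_sum, ← card_filter, ← cnt_eq t hO]
      have := Nat.mul_le_mul_right (cnt t O w) (card_Iw t w)
      nlinarith
    exact_mod_cast this
  have e2 : ∑ u ∈ Iw t w, ∑ v ∈ Iw t w, ((if u ≠ v ∧ u ∈ O ∧ v ∈ O then 1 else 0 : ℕ) : ℝ) =
      ((cnt t O w * (cnt t O w - 1) : ℕ) : ℝ) := by
    rw [cnt_eq t hO, ← count_both]
    push_cast; rfl
  have e3 : ∑ u ∈ Iw t w, ∑ v ∈ Iw t w,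
      ∑ x, |F x| * ((if u ≠ v ∧ touch t u v x then 1 else 0 : ℕ) : ℝ) ≤
      ((min (2 * jw t x₀ w * (2 ^ t.val - 1)) (2 ^ t.val * (2 ^ t.val - 1)) : ℕ) : ℝ) * l1 F := by
    simp_rw [sum_comm (s := Iw t w) (t := univ)]
    rw [l1, mul_sum]
    refine sum_le_sum fun x _ => ?_
    simp only [← mul_sum]
    by_cases hx : F x = 0
    · simp [hx]
    · rw [mul_comm]
      refine mul_le_mul_of_nonneg_right ?_ (abs_nonneg _)
      exact_mod_cast count_touch t (hS x hx) w
  calc _ ≤ ∑ u ∈ Iw t w, ∑ v ∈ Iw t w, (1 / 2 : ℝ) * l1 (M *ᵥ R t u v F) := by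
        refine (l1_sum_le _ _).trans (sum_le_sum fun u _ => (l1_sum_le _ _).trans
          (sum_le_sum fun v _ => ?_))
        rw [l1_smul, abs_of_nonneg (by norm_num)]
    _ ≤ ∑ u ∈ Iw t w, ∑ v ∈ Iw t w, (1 / 2 : ℝ) * _ :=
        sum_le_sum fun u hu => sum_le_sum fun v hv =>
          mul_le_mul_of_nonneg_left (pair_le t hφ hM hO hF hS hu hv) (by norm_num)
    _ ≤ _ := by
        simp only [← mul_sum, sum_add_distrib (f := fun _ => 4 * l1 F * _ * _ + _),
          sum_add_distrib (f := fun _ => 4 * l1 F * _ * _)]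
        rw [e2]
        have p1 := mul_le_mul_of_nonneg_left e1 (mul_nonneg hL h0)
        have p3 := mul_le_mul_of_nonneg_left e3 h2
        linarith

end Crest.Agent.R155.PW
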